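import Mathlib

set_option autoImplicit false
open CategoryTheory Abelian

namespace Crest.Agent.Lead.FD

variable {A : Type} [Ring A]

section defs
variable (A)
variable (I N : Type) [AddCommGroup I] [Module A I] [AddCommGroup N] [Module A N]

/-- finite projective dimension -/
def FinPD : Prop := ∃ n : ℕ, HasProjectiveDimensionLT (ModuleCat.of A N) n

/-- `Ext^n(N, I) = 0` -/
def Van (n : ℕ) : Prop := ∀ e : Ext (ModuleCat.of A N) (ModuleCat.of A I) n, e = 0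

/-- finite projective dimension and no higher `Ext` into `I` -/
def Good : Prop := FinPD A N ∧ ∀ n, 1 ≤ n → Van A I N n
end defs

variable {I : Type} [AddCommGroup I] [Module A I]

section ses
variable {N1 N2 N3 : Type} [AddCommGroup N1] [Module A N1] [AddCommGroup N2] [Module A N2]
  [AddCommGroup N3] [Module A N3]

/-- short exact sequence of modules -/
structure SES (f : N1 →ₗ[A] N2) (g : N2 →ₗ[A] N3) : Prop where
  ex : Function.Exact f g
  inj : Function.Injective f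
  surj : Function.Surjective g

variable {f : N1 →ₗ[A] N2} {g : N2 →ₗ[A] N3}

/-- the short complex -/
abbrev SES.S (h : SES f g) : ShortComplex (ModuleCat.{0} A) :=
  ModuleCat.shortComplexOfCompEqZero f g h.ex.linearMap_comp_eq_zero

theorem SES.se (h : SES f g) : h.S.ShortExact :=
  ModuleCat.shortComplex_shortExact h.S h.ex h.inj h.surj

theorem SES.fin3 (h : SES f g) (h1 : FinPD A N1) (h2 : FinPD A N2) : FinPD A N3 := by
  obtain ⟨a, ha⟩ := h1
  obtain ⟨b, hb⟩ := h2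
  refine ⟨a + b + 1, h.se.hasProjectiveDimensionLT_X₃ (a + b) ?_ ?_⟩
  · exact hasProjectiveDimensionLT_of_ge (ModuleCat.of A N1) a _ (by omega)
  · exact hasProjectiveDimensionLT_of_ge (ModuleCat.of A N2) b _ (by omega)

theorem SES.fin2 (h : SES f g) (h1 : FinPD A N1) (h3 : FinPD A N3) : FinPD A N2 := by
  obtain ⟨a, ha⟩ := h1
  obtain ⟨b, hb⟩ := h3
  refine ⟨a + b, h.se.hasProjectiveDimensionLT_X₂ (a + b) ?_ ?_⟩
  · exact hasProjectiveDimensionLT_of_ge (ModuleCat.of A N1) a _ (by omega)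
  · exact hasProjectiveDimensionLT_of_ge (ModuleCat.of A N3) b _ (by omega)

theorem SES.van3 (h : SES f g) (n : ℕ) (h1 : Van A I N1 n) (h2 : Van A I N2 (n + 1)) :
    Van A I N3 (n + 1) := by
  intro x₃
  obtain ⟨x₁, rfl⟩ := Ext.contravariant_sequence_exact₃ h.se (ModuleCat.of A I) x₃ (h2 _)
    (add_comm 1 n)
  rw [h1 x₁, Ext.comp_zero]

theorem SES.van2 (h : SES f g) (n : ℕ) (h1 : Van A I N1 n) (h3 : Van A I N3 n) :
    Van A I N2 n := by
  intro x₂
  obtain ⟨x₃, rfl⟩ := Ext.contravariant_sequence_exact₂ h.se (ModuleCat.of A I) x₂ (h1 _)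
  rw [h3 x₃, Ext.comp_zero]

theorem SES.van1 (h : SES f g) (n : ℕ) (h2 : Van A I N2 n) (h3 : Van A I N3 (n + 1)) :
    Van A I N1 n := by
  intro x₁
  obtain ⟨x₂, rfl⟩ := Ext.contravariant_sequence_exact₁ h.se (ModuleCat.of A I) x₁
    (add_comm 1 n) (h3 _)
  rw [h2 x₂, Ext.comp_zero]

/-- `Ext^1(N3, I) = 0` when maps extend -/
theorem SES.van3_one (h : SES f g) (h2 : Van A I N2 1)
    (hext : ∀ u : N1 →ₗ[A] I, ∃ v : N2 →ₗ[A] I, ∀ x, v (f x) = u x) : Van A I N3 1 := by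
  intro x₃
  obtain ⟨x₁, rfl⟩ := Ext.contravariant_sequence_exact₃ h.se (ModuleCat.of A I) x₃ (h2 _)
    (add_zero 1)
  obtain ⟨u, rfl⟩ := (Ext.mk₀_bijective _ _).2 x₁
  obtain ⟨v, hv⟩ := hext u.hom
  have hu : u = h.S.f ≫ ModuleCat.ofHom v := by
    ext x
    exact (hv x).symm
  rw [hu, ← Ext.mk₀_comp_mk₀]
  exact h.se.extClass_comp_assoc _

/-- if `Ext^1(N3, I) = 0` then maps extend -/
theorem SES.ext_of_van (h : SES f g) (h3 : Van A I N3 1) (u : N1 →ₗ[A] I) :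
    ∃ v : N2 →ₗ[A] I, ∀ x, v (f x) = u x := by
  obtain ⟨x₂, hx⟩ := Ext.contravariant_sequence_exact₁ h.se (ModuleCat.of A I)
    (Ext.mk₀ (ModuleCat.ofHom u)) (add_zero 1) (h3 _)
  obtain ⟨v, rfl⟩ := (Ext.mk₀_bijective _ _).2 x₂
  rw [Ext.mk₀_comp_mk₀] at hx
  have := (Ext.mk₀_bijective _ _).1 hx
  refine ⟨v.hom, fun x => ?_⟩
  have h2 := congrArg (fun φ => φ.hom x) this
  simpa using h2

theorem SES.good3 (h : SES f g) (h1 : Good A I N1) (h2 : Good A I N2)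
    (hext : ∀ u : N1 →ₗ[A] I, ∃ v : N2 →ₗ[A] I, ∀ x, v (f x) = u x) : Good A I N3 := by
  refine ⟨h.fin3 h1.1 h2.1, fun n hn => ?_⟩
  obtain ⟨m, rfl⟩ : ∃ m, n = m + 1 := ⟨n - 1, by omega⟩
  rcases Nat.eq_zero_or_pos m with rfl | hm
  · exact h.van3_one (h2.2 1 le_rfl) hext
  · exact h.van3 m (h1.2 m hm) (h2.2 _ (by omega))

theorem SES.good2 (h : SES f g) (h1 : Good A I N1) (h3 : Good A I N3) : Good A I N2 :=
  ⟨h.fin2 h1.1 h3.1, fun n hn => h.van2 n (h1.2 n hn) (h3.2 n hn)⟩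

end ses

theorem good_proj (Q : Type) [AddCommGroup Q] [Module A Q] [Module.Projective A Q] :
    Good A I Q := by
  have : HasProjectiveDimensionLT (ModuleCat.of A Q) 1 := inferInstance
  exact ⟨⟨1, this⟩, fun n hn e => e.eq_zero_of_hasProjectiveDimensionLT 1 hn⟩

section step
variable {Q2 Q1 Q0 : Type} [AddCommGroup Q2] [Module A Q2] [AddCommGroup Q1] [Module A Q1]
  [AddCommGroup Q0] [Module A Q0]

theorem ses_range {d2 : Q2 →ₗ[A] Q1} {d1 : Q1 →ₗ[A] Q0} (h : Function.Exact d2 d1) :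
    SES (LinearMap.range d2).subtype d1.rangeRestrict := by
  refine ⟨fun x => ?_, Subtype.val_injective, d1.surjective_rangeRestrict⟩
  constructor
  · intro hx
    have : d1 x = 0 := congrArg Subtype.val hx
    obtain ⟨y, hy⟩ := (h x).1 this
    exact ⟨⟨x, y, hy⟩, rfl⟩
  · rintro ⟨⟨_, y, rfl⟩, rfl⟩
    exact Subtype.ext ((h _).2 ⟨y, rfl⟩)

/-- one step of a resolution: if `range d2` is good, so is `range d1`. -/
theorem good_range_step {Q3 : Type} [AddCommGroup Q3] [Module A Q3] {d3 : Q3 →ₗ[A] Q2}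
    {d2 : Q2 →ₗ[A] Q1} {d1 : Q1 →ₗ[A] Q0} (h32 : ∀ x, d2 (d3 x) = 0) (h : Function.Exact d2 d1)
    (hg : Good A I (LinearMap.range d2)) (h1 : Good A I Q1)
    (hext : ∀ u : Q2 →ₗ[A] I, (∀ x, u (d3 x) = 0) → ∃ v : Q1 →ₗ[A] I, ∀ x, v (d2 x) = u x) :
    Good A I (LinearMap.range d1) := by
  refine (ses_range h).good3 hg h1 fun u => ?_
  obtain ⟨v, hv⟩ := hext (u ∘ₗ d2.rangeRestrict) (fun x => by
    have : d2.rangeRestrict (d3 x) = 0 := Subtype.ext (h32 x)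
    simp [this])
  refine ⟨v, ?_⟩
  rintro ⟨_, y, rfl⟩
  exact hv y

theorem good_of_equiv (e : Q1 ≃ₗ[A] Q0) (h : Good A I Q1) : Good A I Q0 := by
  have hs : SES (0 : PUnit →ₗ[A] Q1) e.toLinearMap := by
    refine ⟨fun x => ?_, fun _ _ _ => Subsingleton.elim _ _, e.surjective⟩
    constructor
    · intro hx
      exact ⟨0, (e.map_eq_zero_iff.1 hx).symm⟩
    · rintro ⟨y, rfl⟩
      simp
  exact hs.good3 (good_proj _) h fun u => ⟨0, fun x => by
    rw [Subsingleton.elim x 0, map_zero, map_zero, map_zero]⟩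

end step

section res
variable {Q4 Q3 Q2 Q1 Q0 N : Type} [AddCommGroup Q4] [Module A Q4] [AddCommGroup Q3] [Module A Q3]
  [AddCommGroup Q2] [Module A Q2]
  [AddCommGroup Q1] [Module A Q1] [AddCommGroup Q0] [Module A Q0] [AddCommGroup N] [Module A N]

/-- a resolution of length four by good modules with `Hom(-, I)` exact -/
theorem good_of_res4 (g4 : Good A I Q4) (g3 : Good A I Q3) (g2 : Good A I Q2) (g1 : Good A I Q1)
    (g0 : Good A I Q0) (d4 : Q4 →ₗ[A] Q3) (d3 : Q3 →ₗ[A] Q2) (d2 : Q2 →ₗ[A] Q1)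
    (d1 : Q1 →ₗ[A] Q0) (ε : Q0 →ₗ[A] N) (inj : Function.Injective d4)
    (e3 : Function.Exact d4 d3) (e2 : Function.Exact d3 d2) (e1 : Function.Exact d2 d1)
    (e0 : Function.Exact d1 ε) (surj : Function.Surjective ε)
    (x4 : ∀ u : Q4 →ₗ[A] I, ∃ v : Q3 →ₗ[A] I, ∀ x, v (d4 x) = u x)
    (x3 : ∀ u : Q3 →ₗ[A] I, (∀ x, u (d4 x) = 0) → ∃ v : Q2 →ₗ[A] I, ∀ x, v (d3 x) = u x)
    (x2 : ∀ u : Q2 →ₗ[A] I, (∀ x, u (d3 x) = 0) → ∃ v : Q1 →ₗ[A] I, ∀ x, v (d2 x) = u x)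
    (x1 : ∀ u : Q1 →ₗ[A] I, (∀ x, u (d2 x) = 0) → ∃ v : Q0 →ₗ[A] I, ∀ x, v (d1 x) = u x) :
    Good A I N := by
  have r4 : Good A I (LinearMap.range d4) := good_of_equiv (LinearEquiv.ofInjective d4 inj) g4
  have r3 : Good A I (LinearMap.range d3) :=
    good_range_step (d3 := (0 : PUnit →ₗ[A] Q4)) (fun x => by simp) e3 r4 g3 fun u _ => x4 u
  have r2 : Good A I (LinearMap.range d2) :=
    good_range_step (fun x => e3.apply_apply_eq_zero x) e2 r3 g2 x3
  have r1 : Good A I (LinearMap.range d1) :=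
    good_range_step (fun x => e2.apply_apply_eq_zero x) e1 r2 g1 x2
  have r0 : Good A I (LinearMap.range ε) :=
    good_range_step (fun x => e1.apply_apply_eq_zero x) e0 r1 g0 x1
  exact good_of_equiv (LinearEquiv.ofTop _ (LinearMap.range_eq_top.2 surj)) r0

/-- a resolution of length three by good modules with `Hom(-, I)` exact -/
theorem good_of_res3 (g3 : Good A I Q3) (g2 : Good A I Q2) (g1 : Good A I Q1)
    (g0 : Good A I Q0) (d3 : Q3 →ₗ[A] Q2) (d2 : Q2 →ₗ[A] Q1)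
    (d1 : Q1 →ₗ[A] Q0) (ε : Q0 →ₗ[A] N) (inj : Function.Injective d3)
    (e2 : Function.Exact d3 d2) (e1 : Function.Exact d2 d1)
    (e0 : Function.Exact d1 ε) (surj : Function.Surjective ε)
    (x3 : ∀ u : Q3 →ₗ[A] I, ∃ v : Q2 →ₗ[A] I, ∀ x, v (d3 x) = u x)
    (x2 : ∀ u : Q2 →ₗ[A] I, (∀ x, u (d3 x) = 0) → ∃ v : Q1 →ₗ[A] I, ∀ x, v (d2 x) = u x)
    (x1 : ∀ u : Q1 →ₗ[A] I, (∀ x, u (d2 x) = 0) → ∃ v : Q0 →ₗ[A] I, ∀ x, v (d1 x) = u x) :
    Good A I N := by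
  have r3 : Good A I (LinearMap.range d3) := good_of_equiv (LinearEquiv.ofInjective d3 inj) g3
  have r2 : Good A I (LinearMap.range d2) :=
    good_range_step (d3 := (0 : PUnit →ₗ[A] Q3)) (fun x => by simp) e2 r3 g2 fun u _ => x3 u
  have r1 : Good A I (LinearMap.range d1) :=
    good_range_step (fun x => e2.apply_apply_eq_zero x) e1 r2 g1 x2
  have r0 : Good A I (LinearMap.range ε) :=
    good_range_step (fun x => e1.apply_apply_eq_zero x) e0 r1 g0 x1
  exact good_of_equiv (LinearEquiv.ofTop _ (LinearMap.range_eq_top.2 surj)) r0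

end res

section main
variable (M G0 G1 : ℕ → Type) [∀ d, AddCommGroup (M d)] [∀ d, Module A (M d)]
  [∀ d, AddCommGroup (G0 d)] [∀ d, Module A (G0 d)]
  [∀ d, AddCommGroup (G1 d)] [∀ d, Module A (G1 d)]

theorem main (g0 : ∀ d, Good A I (G0 d)) (g1 : ∀ d, Good A I (G1 d))
    (φ : ∀ d, G1 d →ₗ[A] G0 d) (π : ∀ d, G0 d →ₗ[A] M d)
    (πs : ∀ d, Function.Surjective (π d)) (πφ : ∀ d x, π d (φ d x) = 0)
    (φ0 : Function.Injective (φ 0)) (e0 : Function.Exact (φ 0) (π 0))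
    (i : ∀ d, M d →ₗ[A] G1 (d + 1)) (ii : ∀ d, Function.Injective (i d))
    (ie : ∀ d, Function.Exact (i d) (φ (d + 1)))
    (κ : ∀ d, LinearMap.ker (π (d + 1)) →ₗ[A] M d) (κs : ∀ d, Function.Surjective (κ d))
    (κe : ∀ d x, κ d x = 0 ↔ ∃ y, φ (d + 1) y = x.1)
    (hu : ∀ (u : G1 1 →ₗ[A] I) (x : M 0), u (i 0 x) = 0)
    (w : M 0 →ₗ[A] I) (hw : w ≠ 0) (k : ℕ) :
    ∃ d, ¬ HasProjectiveDimensionLT (ModuleCat.of A (M d)) k ∧
      ∃ n : ℕ, HasProjectiveDimensionLT (ModuleCat.of A (M d)) n := by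
  -- the three short exact sequences
  have s1 : ∀ d, SES (i d) (φ (d + 1)).rangeRestrict := fun d =>
    ⟨fun x => by
      rw [← ie d x]
      exact ⟨fun h => congrArg Subtype.val h, fun h => Subtype.ext h⟩,
     ii d, (φ (d + 1)).surjective_rangeRestrict⟩
  have hle : ∀ d, LinearMap.range (φ d) ≤ LinearMap.ker (π d) := by
    rintro d _ ⟨y, rfl⟩
    exact πφ d y
  have s2 : ∀ d, SES (Submodule.inclusion (hle (d + 1))) (κ d) := fun d =>
    ⟨fun x => by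
      rw [κe d x]
      constructor
      · rintro ⟨y, hy⟩
        exact ⟨⟨x.1, y, hy⟩, rfl⟩
      · rintro ⟨⟨_, y, rfl⟩, rfl⟩
        exact ⟨y, rfl⟩,
     Submodule.inclusion_injective _, κs d⟩
  have s3 : ∀ d, SES (LinearMap.ker (π d)).subtype (π d) := fun d =>
    ⟨LinearMap.exact_subtype_ker_map _, Subtype.val_injective, πs d⟩
  have s0 : SES (φ 0) (π 0) := ⟨e0, φ0, πs 0⟩
  have hfin : ∀ d, FinPD A (M d) := by
    intro d
    induction d with
    | zero => exact s0.fin3 (g1 0).1 (g0 0).1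
    | succ d ih => exact (s3 (d + 1)).fin3 ((s2 d).fin2 ((s1 d).fin3 ih (g1 _).1) ih) (g0 _).1
  have hvan : ∀ d n, 2 * d + 2 ≤ n → Van A I (M d) n := by
    intro d
    induction d with
    | zero =>
      intro n hn
      obtain ⟨m, rfl⟩ : ∃ m, n = m + 1 := ⟨n - 1, by omega⟩
      exact s0.van3 m ((g1 0).2 m (by omega)) ((g0 0).2 _ (by omega))
    | succ d ih =>
      intro n hn
      obtain ⟨m, rfl⟩ : ∃ m, n = m + 1 + 1 := ⟨n - 2, by omega⟩
      refine (s3 (d + 1)).van3 (m + 1) ?_ ((g0 _).2 _ (by omega))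
      refine (s2 d).van2 (m + 1) ?_ (ih _ (by omega))
      exact (s1 d).van3 m (ih _ (by omega)) ((g1 _).2 _ (by omega))
  have hnv : ∀ d, ¬ Van A I (M (d + 1)) (2 * d + 2) := by
    intro d
    induction d with
    | zero =>
      intro h
      have a1 : Van A I (LinearMap.ker (π 1)) 1 := (s3 1).van1 1 ((g0 _).2 _ le_rfl) h
      have a2 : Van A I (LinearMap.range (φ 1)) 1 := (s2 0).van1 1 a1 (hvan 0 2 le_rfl)
      obtain ⟨v, hv⟩ := (s1 0).ext_of_van a2 w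
      exact hw (LinearMap.ext fun x => by rw [← hv x, hu]; rfl)
    | succ d ih =>
      intro h
      have a1 : Van A I (LinearMap.ker (π (d + 2))) (2 * d + 3) :=
        (s3 (d + 2)).van1 _ ((g0 _).2 _ (by omega)) h
      have a2 : Van A I (LinearMap.range (φ (d + 2))) (2 * d + 3) :=
        (s2 (d + 1)).van1 _ a1 (hvan (d + 1) _ (by omega))
      exact ih ((s1 (d + 1)).van1 _ ((g1 _).2 _ (by omega)) a2)
  refine ⟨k + 1, fun hk => hnv k fun e => e.eq_zero_of_hasProjectiveDimensionLT k (by omega),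
    hfin _⟩

end main

end Crest.Agent.Lead.FD
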