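import Crest.Agent.H2.GmHub

/-! Row 40, piece P3: interface for the proof that there is no measurable 5-colouring. -/

set_option autoImplicit false

namespace Crest.Agent.Lead.P3
open MeasureTheory Metric Set Filter Topology
open Crest.Agent.H2.Gm

/-- the point of the unit circle at angle `t` -/
noncomputable def e (t : ℝ) : ℂ := Complex.exp (t * Complex.I)

/-- sum of two unit vectors -/
noncomputable def Xi (p : ℝ × ℝ) : ℂ := e p.1 + e p.2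

/-- `s` is a density point of `S` -/
def Dens (S : Set ℝ) (s : ℝ) : Prop :=
  ∀ γ > 0, ∀ᶠ r : ℝ in 𝓝[>] 0, volume (Icc (s - r) (s + r) \ S) ≤ ENNReal.ofReal (γ * r)

/-- density points of `S` accumulate at `s` -/
def Acc (S : Set ℝ) (s : ℝ) : Prop := ∀ η > 0, ∃ a, |a - s| < η ∧ Dens S a

/-- almost all of the unit circle about `u` is coloured -/
def Full (C : Col) (u : ℂ) : Prop := ∀ᵐ t : ℝ, ∃ j, u + e t ∈ C.A j

/-- near `x` there are unit circles almost free of the colours in `J` -/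
def Av (C : Col) (x : ℂ) (J : Finset (Fin 5)) : Prop :=
  ∀ η > 0, ∃ u, dist u x < η ∧ Full C u ∧ ∀ j ∈ J, circ (C.A j) u < ENNReal.ofReal η

/-- near `x` many points of colour `i` have a unit circle almost free of colour `j` -/
def Half (C : Col) (x : ℂ) (i j : Fin 5) : Prop :=
  ∀ η > 0, volume {u | u ∈ C.A i ∧ dist u x < η ∧ circ (C.A j) u < ENNReal.ofReal η} ≠ 0

/-- colours `i` and `j` are adjacent at `x` -/
def Edge (C : Col) (x : ℂ) (i j : Fin 5) : Prop := i ≠ j ∧ Half C x i j ∧ Half C x j i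

/-- labels on the unit circle about `x` -/
structure Lab (C : Col) (x : ℂ) where
  S : Fin 5 → Set ℝ
  meas : ∀ j, MeasurableSet (S j)
  per : ∀ j s, s + 2 * Real.pi ∈ S j ↔ s ∈ S j
  L0 : ∀ j, ∀ s ∈ S j, x + e s ∈ closure (C.A j)
  L1 : ∀ J, Av C x J → ∀ᵐ s : ℝ, ∃ j, j ∉ J ∧ s ∈ S j
  L2 : ∀ j, ∀ᵐ s : ℝ, ¬ (s ∈ S j ∧ s + Real.pi / 3 ∈ S j)
  L3 : ∀ j, ∀ s ∈ S j, ∀ y ∈ C.A j, dist y (x + e s) = 1 → y = x ∨ y = x + 2 * e s

/-- colour `i` has proportion at least `1/5` in the ball of radius `ε` about `y` -/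
def Lb (C : Col) (ε : ℝ) (y : ℂ) (i : Fin 5) : Prop :=
  ENNReal.ofReal (Real.pi / 5 * ε ^ 2) ≤ volume (C.A i ∩ ball y ε)

/-- every colour that is frequent near `y` is rare on the unit circles centred near `y` -/
def Good (C : Col) (R c κ ε : ℝ) (y : ℂ) : Prop :=
  ∀ i, ENNReal.ofReal (c * ε ^ 2) ≤ volume (C.A i ∩ ball y (R * ε)) →
    ∫⁻ u in ball y (R * ε), circ (C.A i) u ≤ ENNReal.ofReal (κ * ε ^ 2)

/-- no cycles -/
def NoCyc (H : Fin 5 → Fin 5 → Prop) : Prop :=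
  (∀ a b c, [a, b, c].Nodup → H a b → H b c → H c a → False) ∧
  (∀ a b c d, [a, b, c, d].Nodup → H a b → H b c → H c d → H d a → False) ∧
  (∀ a b c d f, [a, b, c, d, f].Nodup → H a b → H b c → H c d → H d f → H f a → False)

/-- small facts -/
def BasicStmt : Prop :=
  (∀ S : Set ℝ, MeasurableSet S → ∀ᵐ s : ℝ, s ∈ S → Dens S s) ∧
  (∀ (R : ℝ → ℝ → Prop) (L : ℝ) (N : Set ℝ), 0 ≤ L →
    (∀ t₁ u₁ t₂ u₂, R t₁ u₁ → R t₂ u₂ → |t₁ - t₂| ≤ L * |u₁ - u₂|) →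
    volume {t | ∃ u ∈ N, R t u} ≤ ENNReal.ofReal L * volume N) ∧
  (∀ C : Col, ∀ᵐ u : ℂ, Full C u) ∧
  (∀ S : Set ℂ, MeasurableSet S → Measurable (circ S)) ∧
  (∀ (S : Set ℂ) (u : ℂ) (a : ℝ), MeasurableSet S →
    volume {t | t ∈ Icc a (a + 2 * Real.pi) ∧ u + e t ∈ S} = circ S u) ∧
  (∀ S : Set ℂ, MeasurableSet S → ∫⁻ w, circ S w = ENNReal.ofReal (2 * Real.pi) * volume S) ∧
  (∀ (C : Col) (x : ℂ) (i : Fin 5), x ∈ closure (C.A i) → Av C x {i}) ∧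
  (∀ (C : Col) (x : ℂ) (i j : Fin 5), Half C x i j → x ∈ closure (C.A i) ∧ Av C x {i, j}) ∧
  (∀ (C : Col) (ε : ℝ) (y : ℂ), 0 < ε → ∃ i, Lb C ε y i) ∧
  (∀ E E' : Set ℝ, MeasurableSet E → MeasurableSet E' → (∀ᵐ s : ℝ, s ∈ E ∨ s ∈ E') →
    volume E ≠ 0 → volume E' ≠ 0 → ∃ s, Acc E s ∧ Acc E' s) ∧
  (∀ (S : Set ℂ) (z : ℂ) (δ ε : ℝ), MeasurableSet S → (∀ x ∈ S, ∀ y ∈ S, dist x y ≠ 1) →
    0 < ε → ε ≤ δ →
    volume {w | w ∈ ball z δ ∧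
      ∃ t, ENNReal.ofReal (Real.pi / 5 * ε ^ 2) ≤ volume (S ∩ ball (w + e t) ε)} ≤
      5 * volume (ball z (2 * δ) \ S))

/-- local structure of `Xi` -/
def GeoStmt : Prop :=
  (∀ T : Set (ℝ × ℝ), MeasurableSet T → volume (Xi '' T) ≤ volume T) ∧
  ∀ σ > 0, ∃ L ≥ 1, ∃ r₀ > 0, ∀ s t : ℝ, σ ≤ |Real.sin (s - t)| →
    (∀ s₁ t₁ s₂ t₂ : ℝ, |s₁ - s| ≤ r₀ → |t₁ - t| ≤ r₀ → |s₂ - s| ≤ r₀ → |t₂ - t| ≤ r₀ →
      |s₁ - s₂| ≤ L * ‖e s₁ + e t₁ - (e s₂ + e t₂)‖ ∧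
      |t₁ - t₂| ≤ L * ‖e s₁ + e t₁ - (e s₂ + e t₂)‖) ∧
    (∀ q : ℂ, ‖q - (e s + e t)‖ ≤ r₀ → ∃ s' t', q = e s' + e t' ∧
      |s' - s| ≤ L * ‖q - (e s + e t)‖ ∧ |t' - t| ≤ L * ‖q - (e s + e t)‖) ∧
    (∀ T : Set (ℝ × ℝ), MeasurableSet T → T ⊆ Icc (s - r₀) (s + r₀) ×ˢ Icc (t - r₀) (t + r₀) →
      ENNReal.ofReal (σ / 2) * volume T ≤ volume (Xi '' T))

/-- labels exist -/
def LabStmt : Prop := ∀ (C : Col) (x : ℂ), Nonempty (Lab C x)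

/-- a label at a density point forbids the colour in the density sense -/
def ThinStmt : Prop :=
  ∀ (C : Col) (x : ℂ) (P : Lab C x) (j : Fin 5) (s t : ℝ), Dens (P.S j) s →
    Real.sin (s - t) ≠ 0 → D0 (C.A j) (x + e s + e t)

/-- translate a finite configuration to generic position -/
def TransStmt : Prop :=
  ∀ (C : Col) (ι : Type) [Fintype ι] (y : ι → ℂ) (B : ι → Fin 5 → Prop),
    (∀ v j, B v j → D0 (C.A j) (y v)) →
    ∃ col : ι → Fin 5, (∀ v, ¬ B v (col v)) ∧ ∀ v w, dist (y v) (y w) = 1 → col v ≠ col w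

/-- perturbation at a jump -/
def JStmt : Prop :=
  ∀ (S S' T : Set ℝ) (s₀ : ℝ), MeasurableSet T → volume T ≠ 0 → Acc S s₀ →
    Acc S' (s₀ + Real.pi / 3) → ∃ a b t t' : ℝ, Dens S a ∧ Dens S' b ∧ Dens T t ∧ Dens T t' ∧
      Real.sin (a - t) ≠ 0 ∧ Real.sin (b - t') ≠ 0 ∧ ‖e a + e t - (e b + e t')‖ = 1

/-- not all five colours meet at a point -/
def FiveStmt : Prop := ∀ (C : Col) (x : ℂ), ¬ ∀ i, x ∈ closure (C.A i)

/-- labels `f` / `ac` are impossible -/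
def ExStmt : Prop :=
  ∀ (C : Col) (x : ℂ) (P : Lab C x) (a c f : Fin 5), [a, c, f].Nodup →
    ¬ ∀ᵐ s : ℝ, s ∈ P.S f ∨ (s ∈ P.S a ∧ s ∈ P.S c)

/-- a four-cycle is impossible -/
def C4Stmt : Prop :=
  ∀ (C : Col) (x : ℂ) (a b c d f : Fin 5), [a, b, c, d, f].Nodup → x ∉ closure (C.A f) →
    Av C x {a, b} → Av C x {b, c} → Av C x {c, d} → Av C x {d, a} → False

/-- at a triangle the labels contain one of the two other colours -/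
def TStmt : Prop :=
  ∀ (C : Col) (x : ℂ) (P : Lab C x) (a b c d f : Fin 5), [a, b, c, d, f].Nodup →
    x ∉ closure (C.A f) → Av C x {a, b} → Av C x {b, c} → Av C x {c, a} →
    ∀ᵐ s : ℝ, s ∈ P.S d ∨ s ∈ P.S f

/-- nearby unit circles meet the mixed region -/
def MixStmt : Prop :=
  ∀ E E' : Set ℝ, MeasurableSet E → MeasurableSet E' →
    (∀ s, s + 2 * Real.pi ∈ E ↔ s ∈ E) → (∀ s, s + 2 * Real.pi ∈ E' ↔ s ∈ E') →
    (∀ᵐ s : ℝ, s ∈ E ∨ s ∈ E') → (∀ᵐ s : ℝ, ¬ (s ∈ E ∧ s + Real.pi / 3 ∈ E)) →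
    (∀ᵐ s : ℝ, ¬ (s ∈ E' ∧ s + Real.pi / 3 ∈ E')) →
    ∃ c > 0, ∃ τ₀ > 0, ∀ τ : ℂ, τ ≠ 0 → ‖τ‖ < τ₀ → ∃ a : ℝ,
      ENNReal.ofReal (c * ‖τ‖) ≤
        volume {θ | θ ∈ Icc a (a + 1) ∧ ∃ s ∈ E, ∃ s' ∈ E', τ + e θ = e s + e s'}

/-- points whose circles avoid three given colours are isolated -/
def SimplexStmt : Prop :=
  ∀ (C : Col) (y : ℂ) (J : Finset (Fin 5)), J.card = 3 →
    ∃ η > 0, ∀ y', y' ≠ y → dist y' y < η → ¬ Av C y' J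

/-- circular means gain half a derivative -/
def HalfStmt : Prop :=
  ∀ B : Set ℂ, MeasurableSet B → Bornology.IsBounded B → ∀ γ > 0, ∃ r > 0, ∀ h : ℂ, ‖h‖ < r →
    ∫⁻ u, ENNReal.ofReal (((circ B (u + h)).toReal - (circ B u).toReal) ^ 2) ≤
      ENNReal.ofReal (γ * ‖h‖)

/-- most circles and lines consist of good points -/
def GoodStmt : Prop :=
  ∀ (C : Col) (R c κ γ M : ℝ), 1 ≤ R → 0 < c → 0 < κ → 0 < γ → ∀ᶠ ε : ℝ in 𝓝[>] 0,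
    volume {w : ℂ | ∃ t, ‖w + e t‖ ≤ M ∧ ¬ Good C R c κ ε (w + e t)} ≤ ENNReal.ofReal γ ∧
    volume {a : ℝ | ∃ b : ℝ, ‖(a + b * Complex.I : ℂ)‖ ≤ M ∧
      ¬ Good C R c κ ε (a + b * Complex.I)} ≤ ENNReal.ofReal γ ∧
    volume {b : ℝ | ∃ a : ℝ, ‖(a + b * Complex.I : ℂ)‖ ≤ M ∧
      ¬ Good C R c κ ε (a + b * Complex.I)} ≤ ENNReal.ofReal γ

/-- the topological argument (lift to the tree of reduced colour walks) -/
def TreeStmt : Prop :=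
  ∀ (c : ℂ → Fin 5) (G : Set ℂ) (H : ℂ → Fin 5 → Fin 5 → Prop) (ε η : ℝ),
    0 < ε → ε ≤ η / 100 → η ≤ 1 → (∀ p i j, H p i j → H p j i) →
    (∀ p, ‖p‖ ≤ 20 → NoCyc (H p)) →
    (∀ p y y', ‖p‖ ≤ 20 → y ∈ G → y' ∈ G → dist y p < η → dist y' p < η → dist y y' ≤ ε →
      c y ≠ c y' → H p (c y) (c y')) →
    (∀ a : ℝ, |a| ≤ 10 → ∃ a' ∈ Icc a (a + η / 100), ∀ b : ℝ, |b| ≤ 11 →
      (a' + b * Complex.I : ℂ) ∈ G) →
    (∀ b : ℝ, |b| ≤ 10 → ∃ b' ∈ Icc b (b + η / 100), ∀ a : ℝ, |a| ≤ 11 →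
      (a + b' * Complex.I : ℂ) ∈ G) →
    (∀ v : ℂ, ‖v‖ ≤ 5 → ∃ w, dist w v ≤ 1 / 10 ∧ ∀ t, w + e t ∈ G ∧ c (w + e t) ≠ c v) → False

/-- somewhere the adjacency graph of the colours has a cycle -/
def CycStmt : Prop := ∀ C : Col, ∃ x, ¬ NoCyc (Edge C x)

/-- the two-colour labels case -/
def DEStmt : Prop :=
  ∀ (C : Col) (x : ℂ) (P : Lab C x) (a b c d f : Fin 5), [a, b, c, d, f].Nodup →
    Edge C x a b → Edge C x b c → Edge C x c a → (∀ᵐ s : ℝ, s ∈ P.S d ∨ s ∈ P.S f) → False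

lemma fifth : ∀ a b c m : Fin 5, [a, b, c].Nodup → m ≠ a → m ≠ b → m ≠ c →
    ∃ d, [a, b, c, d, m].Nodup := by decide +kernel

theorem geom_of (hB : BasicStmt) (hL : LabStmt) (h5 : FiveStmt) (h4 : C4Stmt) (hT : TStmt)
    (hD : DEStmt) (hC : CycStmt) : ¬ H2.Pl.MeasCol := by
  intro h
  obtain ⟨C⟩ := exists_col h
  obtain ⟨x, hx⟩ := hC C
  obtain ⟨P⟩ := hL C x
  have hh := hB.2.2.2.2.2.2.2.1 C x
  obtain ⟨m, hm⟩ := not_forall.1 (h5 C x)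
  refine hx ⟨fun a b c n h1 h2 h3 => ?_, fun a b c d n h1 h2 h3 h4' => ?_,
    fun a b c d f n h1 h2 h3 h4' h5' => ?_⟩
  · have ha : m ≠ a := fun e => hm (e ▸ (hh _ _ h1.2.1).1)
    have hb : m ≠ b := fun e => hm (e ▸ (hh _ _ h2.2.1).1)
    have hc : m ≠ c := fun e => hm (e ▸ (hh _ _ h3.2.1).1)
    obtain ⟨d, hd⟩ := fifth a b c m n ha hb hc
    exact hD C x P a b c d m hd h1 h2 h3
      (hT C x P a b c d m hd hm (hh _ _ h1.2.1).2 (hh _ _ h2.2.1).2 (hh _ _ h3.2.1).2)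
  · have ha : m ≠ a := fun e => hm (e ▸ (hh _ _ h1.2.1).1)
    have hb : m ≠ b := fun e => hm (e ▸ (hh _ _ h2.2.1).1)
    have hc : m ≠ c := fun e => hm (e ▸ (hh _ _ h3.2.1).1)
    have hd : m ≠ d := fun e => hm (e ▸ (hh _ _ h4'.2.1).1)
    have hn : [a, b, c, d, m].Nodup := by
      simp only [List.nodup_cons, List.mem_cons, List.not_mem_nil, or_false, not_or,
        List.nodup_nil, and_true, not_false_eq_true] at n ⊢
      obtain ⟨⟨n1, n2, n3⟩, ⟨n4, n5⟩, n6⟩ := n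
      exact ⟨⟨n1, n2, n3, ha.symm⟩, ⟨n4, n5, hb.symm⟩, ⟨n6, hc.symm⟩, hd.symm⟩
    exact h4 C x a b c d m hn hm (hh _ _ h1.2.1).2 (hh _ _ h2.2.1).2 (hh _ _ h3.2.1).2
      (hh _ _ h4'.2.1).2
  · have : m = a ∨ m = b ∨ m = c ∨ m = d ∨ m = f := by
      have hl : [a, b, c, d, f].toFinset = Finset.univ := by
        apply Finset.eq_univ_of_card
        rw [List.toFinset_card_of_nodup n]; rfl
      have : m ∈ [a, b, c, d, f].toFinset := hl ▸ Finset.mem_univ m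
      simpa using this
    rcases this with e | e | e | e | e
    · exact hm (e ▸ (hh _ _ h1.2.1).1)
    · exact hm (e ▸ (hh _ _ h2.2.1).1)
    · exact hm (e ▸ (hh _ _ h3.2.1).1)
    · exact hm (e ▸ (hh _ _ h4'.2.1).1)
    · exact hm (e ▸ (hh _ _ h5'.2.1).1)

end Crest.Agent.Lead.P3
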