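import Crest.Agent.H6.TkI

/-! Row 186: basic lemmas on cochains. -/

set_option autoImplicit false
set_option linter.unusedSectionVars false

noncomputable section
namespace Crest.Agent.Lead.Tk
open MulOpposite Finsupp Crest.Agent.H6.Tk

variable {R : Type} [Ring R] {V : Type} [AddCommGroup V] [Module R V] [Module Rᵐᵒᵖ V]
  [SMulCommClass R Rᵐᵒᵖ V]

section ent
variable {I J L : Type}

theorem app_eq (Φ : (I →₀ R) →ₗ[R] (J →₀ V)) (x : I →₀ R) (j : J) :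
    Φ x j = ∑ i ∈ x.support, x i • Φ (single i 1) j := by
  conv_lhs => rw [← Finsupp.sum_single x]
  rw [Finsupp.sum, map_sum, Finsupp.finset_sum_apply]
  refine Finset.sum_congr rfl fun i _ => ?_
  have : (single i (x i) : I →₀ R) = x i • single i 1 := by simp
  rw [this, map_smul, Finsupp.smul_apply]

theorem tens_app (g : (I →₀ R) →ₗ[R] (J →₀ R)) (y : I →₀ V) (j : J) :
    tens V g y j = ∑ i ∈ y.support, op (g (single i 1) j) • y i := by
  conv_lhs => rw [← Finsupp.sum_single y]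
  rw [Finsupp.sum, map_sum, Finsupp.finset_sum_apply]
  exact Finset.sum_congr rfl fun i _ => tens_single V g i _ j

theorem ch_ext {Φ Ψ : (I →₀ R) →ₗ[R] (J →₀ V)}
    (h : ∀ i j, Φ (single i 1) j = Ψ (single i 1) j) : Φ = Ψ := by
  refine LinearMap.ext fun x => Finsupp.ext fun j => ?_
  rw [app_eq, app_eq]
  exact Finset.sum_congr rfl fun i _ => by rw [h]

variable {dI : I → ℤ} {eI : I → R} {dJ : J → ℤ} {eJ : J → R} {dL : L → ℤ} {eL : L → R}

theorem isM_zero (n : ℤ) : IsM V dI eI dJ eJ n 0 := fun i j => by simp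

theorem isM_add {n : ℤ} {Φ Ψ : (I →₀ R) →ₗ[R] (J →₀ V)} (h : IsM V dI eI dJ eJ n Φ)
    (h' : IsM V dI eI dJ eJ n Ψ) : IsM V dI eI dJ eJ n (Φ + Ψ) := fun i j => by
  obtain ⟨a, b, c⟩ := h i j
  obtain ⟨a', b', c'⟩ := h' i j
  simp only [LinearMap.add_apply, Finsupp.add_apply, smul_add]
  exact ⟨fun hn => by rw [a hn, a' hn, add_zero], by rw [b, b'], by rw [c, c']⟩

theorem isM_neg {n : ℤ} {Φ : (I →₀ R) →ₗ[R] (J →₀ V)} (h : IsM V dI eI dJ eJ n Φ) :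
    IsM V dI eI dJ eJ n (-Φ) := fun i j => by
  obtain ⟨a, b, c⟩ := h i j
  simp only [LinearMap.neg_apply, Finsupp.neg_apply, smul_neg]
  exact ⟨fun hn => by rw [a hn, neg_zero], by rw [b], by rw [c]⟩

theorem isM_comp {a b : ℤ} {u : (I →₀ R) →ₗ[R] (J →₀ R)} {Φ : (J →₀ R) →ₗ[R] (L →₀ V)}
    (hu : IsM R dI eI dJ eJ a u) (h : IsM V dJ eJ dL eL b Φ) :
    IsM V dI eI dL eL (a + b) (Φ ∘ₗ u) := fun i l => by
  rw [LinearMap.comp_apply, app_eq]
  refine ⟨fun hn => Finset.sum_eq_zero fun j _ => ?_, ?_, ?_⟩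
  · by_cases hj : dJ j = dI i + a
    · rw [(h j l).1 (by omega), smul_zero]
    · rw [(hu i j).1 hj, zero_smul]
  · rw [Finset.smul_sum]
    refine Finset.sum_congr rfl fun j _ => ?_
    have := (hu i j).2.1
    rw [smul_eq_mul] at this
    rw [smul_smul, this]
  · rw [Finset.smul_sum]
    exact Finset.sum_congr rfl fun j _ => by rw [← smul_comm, (h j l).2.2]

theorem isM_tens {a b : ℤ} {Φ : (I →₀ R) →ₗ[R] (J →₀ V)} {u : (J →₀ R) →ₗ[R] (L →₀ R)}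
    (h : IsM V dI eI dJ eJ a Φ) (hu : IsM R dJ eJ dL eL b u) :
    IsM V dI eI dL eL (a + b) (tens V u ∘ₗ Φ) := fun i l => by
  rw [LinearMap.comp_apply, tens_app]
  refine ⟨fun hn => Finset.sum_eq_zero fun j _ => ?_, ?_, ?_⟩
  · by_cases hj : dJ j = dI i + a
    · rw [(hu j l).1 (by omega), op_zero, zero_smul]
    · rw [(h i j).1 hj, smul_zero]
  · rw [Finset.smul_sum]
    exact Finset.sum_congr rfl fun j _ => by rw [smul_comm, (h i j).2.1]
  · rw [Finset.smul_sum]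
    refine Finset.sum_congr rfl fun j _ => ?_
    have := (hu j l).2.2
    rw [op_smul_eq_mul] at this
    rw [smul_smul, ← op_mul, this]

end ent

variable {P P' P'' : Cx R}

theorem two_V (h2 : (2 : R) = 0) (v : V) : v + v = 0 := by
  rw [← two_smul R v, h2, zero_smul]

theorem two_Ch (h2 : (2 : R) = 0) {I J : Type} (Φ : (I →₀ R) →ₗ[R] (J →₀ V)) : Φ + Φ = 0 :=
  ch_ext fun i j => two_V h2 _

theorem isC_zero (n : ℤ) : IsC P P' V n 0 := isM_zero n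
theorem isC_add {n : ℤ} {Φ Ψ : Ch P P' V} (h : IsC P P' V n Φ) (h' : IsC P P' V n Ψ) :
    IsC P P' V n (Φ + Ψ) := isM_add h h'
theorem isC_neg {n : ℤ} {Φ : Ch P P' V} (h : IsC P P' V n Φ) : IsC P P' V n (-Φ) := isM_neg h
theorem isC_sub {n : ℤ} {Φ Ψ : Ch P P' V} (h : IsC P P' V n Φ) (h' : IsC P P' V n Ψ) :
    IsC P P' V n (Φ - Ψ) := by rw [sub_eq_add_neg]; exact isC_add h (isC_neg h')
theorem isC_comp {a b : ℤ} {u : Ch P P' R} {Φ : Ch P' P'' V} (hu : IsC P P' R a u)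
    (h : IsC P' P'' V b Φ) : IsC P P'' V (a + b) (Φ ∘ₗ u) := isM_comp hu h
theorem isC_tens {a b : ℤ} {Φ : Ch P P' V} {u : Ch P' P'' R} (h : IsC P P' V a Φ)
    (hu : IsC P' P'' R b u) : IsC P P'' V (a + b) (tens V u ∘ₗ Φ) := isM_tens h hu
theorem isC_d : IsC P P R 1 P.d := P.d_isM
theorem isC_δ {n : ℤ} {Φ : Ch P P' V} (h : IsC P P' V n Φ) : IsC P P' V (n + 1) (δ P P' V Φ) :=
  isC_add (by rw [add_comm]; exact isC_comp isC_d h) (isC_tens h isC_d)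

theorem δ_add (Φ Ψ : Ch P P' V) : δ P P' V (Φ + Ψ) = δ P P' V Φ + δ P P' V Ψ := by
  simp only [δ, LinearMap.add_comp, LinearMap.comp_add]; abel
theorem δ_zero : δ P P' V 0 = 0 := by simp [δ]
theorem δ_neg (Φ : Ch P P' V) : δ P P' V (-Φ) = -δ P P' V Φ := by
  simp only [δ, LinearMap.neg_comp, LinearMap.comp_neg]; abel
theorem δ_sub (Φ Ψ : Ch P P' V) : δ P P' V (Φ - Ψ) = δ P P' V Φ - δ P P' V Ψ := by
  rw [sub_eq_add_neg, δ_add, δ_neg, sub_eq_add_neg]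

theorem δδ (h2 : (2 : R) = 0) (Φ : Ch P P' V) : δ P P' V (δ P P' V Φ) = 0 := by
  have h1 : (Φ ∘ₗ P.d) ∘ₗ P.d = 0 := by rw [LinearMap.comp_assoc, P.dd, LinearMap.comp_zero]
  have h3 : tens V P'.d ∘ₗ (tens V P'.d ∘ₗ Φ) = 0 := by
    rw [← LinearMap.comp_assoc, ← tens_comp, P'.dd, tens_zero, LinearMap.zero_comp]
  simp only [δ, LinearMap.add_comp, LinearMap.comp_add]
  rw [h1, h3, zero_add, add_zero, LinearMap.comp_assoc]
  exact two_Ch h2 _

theorem δ_self (u : Ch P P' R) : δ P P' R u = u ∘ₗ P.d + P'.d ∘ₗ u := by rw [δ, tens_self]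

/-- Leibniz rule for precomposition -/
theorem δ_comp (h2 : (2 : R) = 0) (u : Ch P P' R) (Φ : Ch P' P'' V) :
    δ P P'' V (Φ ∘ₗ u) = δ P' P'' V Φ ∘ₗ u + Φ ∘ₗ δ P P' R u := by
  rw [δ_self]
  simp only [δ, LinearMap.add_comp, LinearMap.comp_add, LinearMap.comp_assoc]
  have := two_Ch h2 (Φ ∘ₗ P'.d ∘ₗ u)
  rw [← sub_eq_zero, ← neg_eq_zero, ← this]
  abel

/-- Leibniz rule for postcomposition -/
theorem δ_tens (h2 : (2 : R) = 0) (Φ : Ch P P' V) (u : Ch P' P'' R) :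
    δ P P'' V (tens V u ∘ₗ Φ) = tens V (δ P' P'' R u) ∘ₗ Φ + tens V u ∘ₗ δ P P' V Φ := by
  rw [δ_self, tens_add, tens_comp, tens_comp]
  simp only [δ, LinearMap.add_comp, LinearMap.comp_add, LinearMap.comp_assoc]
  have := two_Ch h2 (tens V u ∘ₗ tens V P'.d ∘ₗ Φ)
  rw [← sub_eq_zero, ← neg_eq_zero, ← this]
  abel

theorem one_single (i : P.I) (r : R) : P.one (single i r) = single i (r * P.ε i) := by
  simp [Cx.one]

theorem one_ent [DecidableEq P.I] (i j : P.I) :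
    P.one (single i 1) j = if i = j then P.ε i else 0 := by
  rw [one_single, one_mul, Finsupp.single_apply]

theorem isC_one : IsC P P R 0 P.one := fun i j => by
  classical
  rw [one_ent]
  split_ifs with h
  · subst h
    exact ⟨fun h => absurd (add_zero _).symm h, P.idem i, P.idem i⟩
  · simp

theorem comp_one {n : ℤ} {Φ : Ch P P' V} (h : IsC P P' V n Φ) : Φ ∘ₗ P.one = Φ :=
  ch_ext fun i j => by
    have : (single i (P.ε i) : P.I →₀ R) = P.ε i • single i 1 := by simp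
    rw [LinearMap.comp_apply, one_single, one_mul, this, map_smul, Finsupp.smul_apply, (h i j).2.1]

theorem tens_one {n : ℤ} {Φ : Ch P P' V} (h : IsC P P' V n Φ) : tens V P'.one ∘ₗ Φ = Φ :=
  ch_ext fun i j => by
    classical
    rw [LinearMap.comp_apply, tens_app, Finset.sum_eq_single j]
    · rw [one_ent, if_pos rfl, (h i j).2.2]
    · intro b _ hb
      rw [one_ent, if_neg hb, op_zero, zero_smul]
    · intro hj
      rw [Finsupp.notMem_support_iff.1 hj, smul_zero]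

theorem one_comp {n : ℤ} {u : Ch P P' R} (h : IsC P P' R n u) : P'.one ∘ₗ u = u := by
  have := tens_one h
  rwa [tens_self] at this

theorem δ_one (h2 : (2 : R) = 0) : δ P P R P.one = 0 := by
  rw [δ_self, one_comp isC_d, comp_one isC_d]
  exact two_Ch h2 _

theorem cy_one (h2 : (2 : R) = 0) : Cy P P R 0 P.one := ⟨isC_one, δ_one h2⟩

theorem cy_zero (n : ℤ) : Cy P P' V n 0 := ⟨isC_zero n, δ_zero⟩
theorem cy_add {n : ℤ} {Φ Ψ : Ch P P' V} (h : Cy P P' V n Φ) (h' : Cy P P' V n Ψ) :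
    Cy P P' V n (Φ + Ψ) := ⟨isC_add h.1 h'.1, by rw [δ_add, h.2, h'.2, add_zero]⟩
theorem bd_zero (n : ℤ) : Bd P P' V n 0 := ⟨0, isC_zero _, δ_zero⟩
theorem bd_add {n : ℤ} {Φ Ψ : Ch P P' V} (h : Bd P P' V n Φ) (h' : Bd P P' V n Ψ) :
    Bd P P' V n (Φ + Ψ) := by
  obtain ⟨a, ha, rfl⟩ := h
  obtain ⟨b, hb, rfl⟩ := h'
  exact ⟨a + b, isC_add ha hb, δ_add a b⟩
theorem bd_δ {n : ℤ} {Φ : Ch P P' V} (h : IsC P P' V n Φ) : Bd P P' V (n + 1) (δ P P' V Φ) :=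
  ⟨Φ, by rwa [add_sub_cancel_right], rfl⟩
theorem cy_of_bd (h2 : (2 : R) = 0) {n : ℤ} {Φ : Ch P P' V} (h : Bd P P' V n Φ) : Cy P P' V n Φ := by
  obtain ⟨a, ha, rfl⟩ := h
  exact ⟨by simpa using isC_δ ha, δδ h2 a⟩
/-- cancel a coboundary -/
theorem bd_of_add (h2 : (2 : R) = 0) {n : ℤ} {Φ Ψ : Ch P P' V} (h : Bd P P' V n (Φ + Ψ))
    (h' : Bd P P' V n Ψ) : Bd P P' V n Φ := by
  have := bd_add h h'
  rwa [add_assoc, two_Ch h2, add_zero] at this
theorem cy_comp (h2 : (2 : R) = 0) {a b : ℤ} {u : Ch P P' R} {Φ : Ch P' P'' V} (hu : Cy P P' R a u)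
    (h : Cy P' P'' V b Φ) : Cy P P'' V (a + b) (Φ ∘ₗ u) :=
  ⟨isC_comp hu.1 h.1, by rw [δ_comp h2, hu.2, h.2]; simp⟩
theorem cy_tens (h2 : (2 : R) = 0) {a b : ℤ} {Φ : Ch P P' V} {u : Ch P' P'' R} (h : Cy P P' V a Φ)
    (hu : Cy P' P'' R b u) : Cy P P'' V (a + b) (tens V u ∘ₗ Φ) :=
  ⟨isC_tens h.1 hu.1, by rw [δ_tens h2, hu.2, h.2, tens_zero]; simp⟩
theorem bd_comp_left (h2 : (2 : R) = 0) {a b : ℤ} {u : Ch P P' R} {Φ : Ch P' P'' V}
    (hu : Bd P P' R a u) (h : Cy P' P'' V b Φ) : Bd P P'' V (a + b) (Φ ∘ₗ u) := by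
  obtain ⟨s, hs, rfl⟩ := hu
  exact ⟨Φ ∘ₗ s, by rw [show a + b - 1 = a - 1 + b by ring]; exact isC_comp hs h.1,
    by rw [δ_comp h2, h.2]; simp⟩
theorem bd_comp_right (h2 : (2 : R) = 0) {a b : ℤ} {u : Ch P P' R} {Φ : Ch P' P'' V}
    (hu : Cy P P' R a u) (h : Bd P' P'' V b Φ) : Bd P P'' V (a + b) (Φ ∘ₗ u) := by
  obtain ⟨s, hs, rfl⟩ := h
  exact ⟨s ∘ₗ u, by rw [show a + b - 1 = a + (b - 1) by ring]; exact isC_comp hu.1 hs,
    by rw [δ_comp h2, hu.2]; simp⟩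
theorem bd_tens_left (h2 : (2 : R) = 0) {a b : ℤ} {Φ : Ch P P' V} {u : Ch P' P'' R}
    (h : Bd P P' V a Φ) (hu : Cy P' P'' R b u) : Bd P P'' V (a + b) (tens V u ∘ₗ Φ) := by
  obtain ⟨s, hs, rfl⟩ := h
  exact ⟨tens V u ∘ₗ s, by rw [show a + b - 1 = a - 1 + b by ring]; exact isC_tens hs hu.1,
    by rw [δ_tens h2, hu.2, tens_zero]; simp⟩
theorem bd_tens_right (h2 : (2 : R) = 0) {a b : ℤ} {Φ : Ch P P' V} {u : Ch P' P'' R}
    (h : Cy P P' V a Φ) (hu : Bd P' P'' R b u) : Bd P P'' V (a + b) (tens V u ∘ₗ Φ) := by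
  obtain ⟨s, hs, rfl⟩ := hu
  exact ⟨tens V s ∘ₗ Φ, by rw [show a + b - 1 = a + (b - 1) by ring]; exact isC_tens h.1 hs,
    by rw [δ_tens h2, h.2]; simp⟩

/-- entries of a coboundary -/
theorem δ_ent (Φ : Ch P P' V) (i : P.I) (j : P'.I) : δ P P' V Φ (single i 1) j =
    ∑ i' ∈ (P.d (single i 1)).support, P.d (single i 1) i' • Φ (single i' 1) j +
      ∑ j' ∈ (Φ (single i 1)).support, op (P'.d (single j' 1) j) • Φ (single i 1) j' := by
  rw [δ, LinearMap.add_apply, Finsupp.add_apply, LinearMap.comp_apply, LinearMap.comp_apply,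
    app_eq Φ, tens_app]

variable (P P') in
/-- the cochain of degree `n` with given entries -/
def ofEnt (n : ℤ) (a : P.I → P'.I → V) : Ch P P' V :=
  Finsupp.linearCombination R fun i => Finsupp.onFinset (P'.fin (P.deg i + n)).toFinset
    (fun j => if P'.deg j = P.deg i + n then a i j else 0) fun j hj => by
      by_contra h
      exact hj (if_neg (by simpa using h))

theorem ofEnt_ent (n : ℤ) (a : P.I → P'.I → V) (i : P.I) (j : P'.I) :
    ofEnt P P' n a (single i 1) j = if P'.deg j = P.deg i + n then a i j else 0 := by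
  simp [ofEnt]

theorem isC_ofEnt (n : ℤ) {a : P.I → P'.I → V} (h1 : ∀ i j, P.ε i • a i j = a i j)
    (h2 : ∀ i j, op (P'.ε j) • a i j = a i j) : IsC P P' V n (ofEnt P P' n a) := fun i j => by
  rw [ofEnt_ent]
  split_ifs with h
  · exact ⟨fun h' => absurd h h', h1 i j, h2 i j⟩
  · simp

theorem ofEnt_eq {n : ℤ} {Φ : Ch P P' V} (h : IsC P P' V n Φ) :
    ofEnt P P' n (fun i j => Φ (single i 1) j) = Φ := ch_ext fun i j => by
  rw [ofEnt_ent]
  split_ifs with hj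
  · rfl
  · exact ((h i j).1 hj).symm

section bimod
variable {W X : Type} [AddCommGroup W] [Module R W] [Module Rᵐᵒᵖ W] [SMulCommClass R Rᵐᵒᵖ W]
  [AddCommGroup X] [Module R X] [Module Rᵐᵒᵖ X] [SMulCommClass R Rᵐᵒᵖ X]

/-- push a cochain along a bimodule map -/
abbrev push (θ : V →ₗ[R] W) (Φ : Ch P P' V) : Ch P P' W := mapRange.linearMap θ ∘ₗ Φ

theorem push_ent (θ : V →ₗ[R] W) (Φ : Ch P P' V) (i : P.I) (j : P'.I) :
    push θ Φ (single i 1) j = θ (Φ (single i 1) j) := by simp [push]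

theorem isC_push {θ : V →ₗ[R] W} (hθ : ∀ (a : Rᵐᵒᵖ) x, θ (a • x) = a • θ x) {n : ℤ} {Φ : Ch P P' V}
    (h : IsC P P' V n Φ) : IsC P P' W n (push θ Φ) := fun i j => by
  rw [push_ent]
  exact ⟨fun hn => by rw [(h i j).1 hn, map_zero], by rw [← map_smul, (h i j).2.1],
    by rw [← hθ, (h i j).2.2]⟩

theorem tens_push {I J : Type} {θ : V →ₗ[R] W} (hθ : ∀ (a : Rᵐᵒᵖ) x, θ (a • x) = a • θ x)
    (g : (I →₀ R) →ₗ[R] (J →₀ R)) :
    tens W g ∘ₗ mapRange.linearMap θ = mapRange.linearMap θ ∘ₗ tens V g := by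
  refine Finsupp.lhom_ext fun i v => Finsupp.ext fun j => ?_
  simp [hθ]

theorem δ_push {θ : V →ₗ[R] W} (hθ : ∀ (a : Rᵐᵒᵖ) x, θ (a • x) = a • θ x) (Φ : Ch P P' V) :
    δ P P' W (push θ Φ) = push θ (δ P P' V Φ) := by
  simp only [δ, push, LinearMap.comp_add]
  rw [← LinearMap.comp_assoc Φ, tens_push hθ]
  rfl

theorem cy_push {θ : V →ₗ[R] W} (hθ : ∀ (a : Rᵐᵒᵖ) x, θ (a • x) = a • θ x) {n : ℤ} {Φ : Ch P P' V}
    (h : Cy P P' V n Φ) : Cy P P' W n (push θ Φ) :=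
  ⟨isC_push hθ h.1, by rw [δ_push hθ, h.2]; simp [push]⟩

theorem bd_push {θ : V →ₗ[R] W} (hθ : ∀ (a : Rᵐᵒᵖ) x, θ (a • x) = a • θ x) {n : ℤ} {Φ : Ch P P' V}
    (h : Bd P P' V n Φ) : Bd P P' W n (push θ Φ) := by
  obtain ⟨s, hs, rfl⟩ := h
  exact ⟨push θ s, isC_push hθ hs, δ_push hθ s⟩

theorem push_inj {θ : V →ₗ[R] W} (hi : Function.Injective θ) {Φ : Ch P P' V} (h : push θ Φ = 0) :
    Φ = 0 := ch_ext fun i j => hi (by
  have := push_ent θ Φ i j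
  rw [h] at this
  simpa using this.symm)

/-- cochains with entries in the range of a bimodule map lift -/
theorem lift_push {θ : V →ₗ[R] W} (hθ : ∀ (a : Rᵐᵒᵖ) x, θ (a • x) = a • θ x) {n : ℤ} {Φ : Ch P P' W}
    (h : IsC P P' W n Φ) (hr : ∀ i j, ∃ v, θ v = Φ (single i 1) j) :
    ∃ Ψ, IsC P P' V n Ψ ∧ push θ Ψ = Φ := by
  choose a ha using hr
  refine ⟨ofEnt P P' n fun i j => P.ε i • op (P'.ε j) • a i j, isC_ofEnt n (fun i j => ?_)
    (fun i j => ?_), ch_ext fun i j => ?_⟩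
  · rw [smul_smul, P.idem]
  · rw [← smul_comm, smul_smul, ← op_mul, P'.idem]
  · rw [push_ent, ofEnt_ent]
    split_ifs with hj
    · rw [map_smul, hθ, ha, (h i j).2.2, (h i j).2.1]
    · rw [map_zero, (h i j).1 hj]

variable {ι : V →ₗ[R] W} {θ : W →ₗ[R] X}

theorem lift_ker (hι : ∀ (a : Rᵐᵒᵖ) x, ι (a • x) = a • ι x) (ex : Function.Exact ι θ) {n : ℤ}
    {Φ : Ch P P' W} (h : IsC P P' W n Φ) (h0 : push θ Φ = 0) : ∃ Ψ, IsC P P' V n Ψ ∧ push ι Ψ = Φ :=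
  lift_push hι h fun i j => (ex _).1 (by rw [← push_ent, h0]; rfl)

theorem push_push (ex : Function.Exact ι θ) (Φ : Ch P P' V) : push θ (push ι Φ) = 0 :=
  ch_ext fun i j => by rw [push_ent, push_ent, ex.apply_apply_eq_zero]; rfl

/-- long exact sequence, middle term -/
theorem van_mid (h2 : (2 : R) = 0) (hι : ∀ (a : Rᵐᵒᵖ) x, ι (a • x) = a • ι x)
    (hθ : ∀ (a : Rᵐᵒᵖ) x, θ (a • x) = a • θ x) (hi : Function.Injective ι) (ex : Function.Exact ι θ)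
    (hs : Function.Surjective θ) {n : ℤ} (h1 : Van P P' V n) (h3 : Van P P' X n) : Van P P' W n := by
  intro Φ hΦ
  obtain ⟨s, hs1, hs2⟩ := h3 _ (cy_push hθ hΦ)
  obtain ⟨t, ht, rfl⟩ := lift_push hθ hs1 fun i j => hs _
  have hc : Cy P P' W n (Φ + δ P P' W t) := cy_add hΦ (cy_of_bd h2 ⟨t, ht, rfl⟩)
  obtain ⟨u, hu, hu'⟩ := lift_ker hι ex hc.1 (by
    rw [push, LinearMap.comp_add, ← push, ← push, ← δ_push hθ, hs2]; exact two_Ch h2 _)
  have hu0 : δ P P' V u = 0 := push_inj hi (by rw [← δ_push hι, hu', hc.2])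
  have := bd_push hι (h1 u ⟨hu, hu0⟩)
  rw [hu'] at this
  exact bd_of_add h2 this ⟨t, ht, rfl⟩

/-- long exact sequence, quotient term -/
theorem van_quot (h2 : (2 : R) = 0) (hι : ∀ (a : Rᵐᵒᵖ) x, ι (a • x) = a • ι x)
    (hθ : ∀ (a : Rᵐᵒᵖ) x, θ (a • x) = a • θ x) (hi : Function.Injective ι) (ex : Function.Exact ι θ)
    (hs : Function.Surjective θ) {n : ℤ} (h1 : Van P P' V (n + 1)) (h3 : Van P P' W n) :
    Van P P' X n := by
  intro Φ hΦ
  obtain ⟨t, ht, rfl⟩ := lift_push hθ hΦ.1 fun i j => hs _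
  obtain ⟨u, hu, hu'⟩ := lift_ker hι ex (isC_δ ht) (by rw [← δ_push hθ, hΦ.2])
  have hu0 : δ P P' V u = 0 := push_inj hi (by rw [← δ_push hι, hu', δδ h2])
  obtain ⟨s, hs1, hs2⟩ := h1 u ⟨hu, hu0⟩
  rw [add_sub_cancel_right] at hs1
  have hc : Cy P P' W n (t + push ι s) := ⟨isC_add ht (isC_push hι hs1), by
    rw [δ_add, δ_push hι, hs2, hu']; exact two_Ch h2 _⟩
  have := bd_push hθ (h3 _ hc)
  rwa [push, LinearMap.comp_add, ← push, ← push, push_push ex, add_zero] at this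

/-- long exact sequence, sub term -/
theorem van_sub (h2 : (2 : R) = 0) (hι : ∀ (a : Rᵐᵒᵖ) x, ι (a • x) = a • ι x)
    (hθ : ∀ (a : Rᵐᵒᵖ) x, θ (a • x) = a • θ x) (hi : Function.Injective ι) (ex : Function.Exact ι θ)
    (hs : Function.Surjective θ) {n : ℤ} (h1 : Van P P' W n) (h3 : Van P P' X (n - 1)) :
    Van P P' V n := by
  intro Φ hΦ
  obtain ⟨t, ht, ht'⟩ := h1 _ (cy_push hι hΦ)
  obtain ⟨s, hs1, hs2⟩ := h3 (push θ t) ⟨isC_push hθ ht, by rw [δ_push hθ, ht', push_push ex]⟩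
  obtain ⟨r, hr, rfl⟩ := lift_push hθ hs1 fun i j => hs _
  have hr' : IsC P P' W (n - 1) (δ P P' W r) := by simpa using isC_δ hr
  obtain ⟨u, hu, hu'⟩ := lift_ker hι ex (isC_add ht hr') (by
    rw [push, LinearMap.comp_add, ← push, ← push, ← δ_push hθ, hs2]; exact two_Ch h2 _)
  refine ⟨u, hu, ?_⟩
  have : push ι (δ P P' V u + Φ) = 0 := by
    rw [push, LinearMap.comp_add, ← push, ← push, ← δ_push hι, hu', δ_add, δδ h2, add_zero, ht']
    exact two_Ch h2 _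
  have h0 := push_inj hi this
  have h4 := two_Ch h2 Φ
  rw [← h4] at h0
  exact add_right_cancel h0

end bimod

end Crest.Agent.Lead.Tk
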