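import Crest.Agent.Lead.TkB

/-! Row 186: maps out of bounded above / into bounded below complexes. -/

set_option autoImplicit false
set_option linter.unusedSectionVars false

noncomputable section
namespace Crest.Agent.Lead.Tk
open MulOpposite Finsupp Crest.Agent.H6.Tk

variable {R : Type} [Ring R] {V : Type} [AddCommGroup V] [Module R V] [Module Rᵐᵒᵖ V]
  [SMulCommClass R Rᵐᵒᵖ V] {P P' : Cx R}

theorem van_of_lev (h2 : (2 : R) = 0) (n : ℤ) (lev : P.I → P'.I → ℕ)
    (l1 : ∀ i i' j, P.d (single i 1) i' ≠ 0 → lev i' j ≤ lev i j)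
    (l2 : ∀ i j j', P'.d (single j' 1) j ≠ 0 → lev i j' ≤ lev i j)
    (step : ∀ (k : ℕ) (Φ : Ch P P' V), Cy P P' V n Φ → (∀ i j, lev i j < k → Φ (single i 1) j = 0) →
      ∃ Θ, IsC P P' V (n - 1) Θ ∧ (∀ i j, lev i j < k → Θ (single i 1) j = 0) ∧
        ∀ i j, lev i j = k → δ P P' V Θ (single i 1) j = Φ (single i 1) j) :
    Van P P' V n := by
  have loc : ∀ (k : ℕ) (Ψ : Ch P P' V), (∀ i j, lev i j < k → Ψ (single i 1) j = 0) →
      ∀ i j, lev i j < k → δ P P' V Ψ (single i 1) j = 0 := fun k Ψ h i j hk => by
    rw [δ_ent, Finset.sum_eq_zero, Finset.sum_eq_zero, add_zero]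
    · intro j' _
      by_cases hd : P'.d (single j' 1) j = 0
      · rw [hd, op_zero, zero_smul]
      · rw [h i j' (lt_of_le_of_lt (l2 i j j' hd) hk), smul_zero]
    · intro i' hi'
      rw [h i' j (lt_of_le_of_lt (l1 i i' j (Finsupp.mem_support_iff.1 hi')) hk), smul_zero]
  intro Φ hΦ
  let G : ℕ → Ch P P' V → Prop := fun k S => IsC P P' V (n - 1) S ∧
    ∀ i j, lev i j < k → (Φ + δ P P' V S) (single i 1) j = 0
  have st : ∀ k S, G k S → ∃ S', G (k + 1) S' ∧
      ∀ i j, lev i j < k → S' (single i 1) j = S (single i 1) j := fun k S hS => by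
    obtain ⟨Θ, a, b, c⟩ := step k (Φ + δ P P' V S) (cy_add hΦ (cy_of_bd h2 ⟨S, hS.1, rfl⟩)) hS.2
    refine ⟨S + Θ, ⟨isC_add hS.1 a, fun i j hk => ?_⟩, fun i j hk => ?_⟩
    · rw [δ_add, ← add_assoc, LinearMap.add_apply, Finsupp.add_apply]
      rcases Nat.lt_succ_iff_lt_or_eq.1 hk with h | h
      · rw [hS.2 i j h, loc k Θ b i j h, add_zero]
      · rw [c i j h]; exact two_V h2 _
    · rw [LinearMap.add_apply, Finsupp.add_apply, b i j hk, add_zero]
  choose! nx hnx using st
  let S : ℕ → Ch P P' V := fun k => Nat.rec 0 (fun k s => nx k s) k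
  have hG : ∀ k, G k (S k) := fun k => by
    induction k with
    | zero => exact ⟨isC_zero _, fun i j h => absurd h (Nat.not_lt_zero _)⟩
    | succ k ih => exact (hnx k _ ih).1
  have hst : ∀ i j k m, lev i j < k → k ≤ m → S m (single i 1) j = S k (single i 1) j := by
    intro i j k m hk hm
    induction m, hm using Nat.le_induction with
    | base => rfl
    | succ m hm ih => rw [← ih]; exact (hnx m _ (hG m)).2 i j (by omega)
  let Ψ : Ch P P' V := ofEnt P P' (n - 1) fun i j => S (lev i j + 1) (single i 1) j
  have hΨ : IsC P P' V (n - 1) Ψ :=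
    isC_ofEnt _ (fun i j => ((hG (lev i j + 1)).1 i j).2.1)
      fun i j => ((hG (lev i j + 1)).1 i j).2.2
  refine ⟨Ψ, hΨ, ch_ext fun i j => ?_⟩
  have h1 := loc (lev i j + 1) (Ψ - S (lev i j + 1)) (fun a b hab => by
    rw [LinearMap.sub_apply, Finsupp.sub_apply, sub_eq_zero, ofEnt_ent]
    split_ifs with h
    · exact (hst a b _ _ (Nat.lt_succ_self _) hab).symm
    · exact (((hG (lev i j + 1)).1 a b).1 h).symm) i j (Nat.lt_succ_self _)
  rw [δ_sub, LinearMap.sub_apply, Finsupp.sub_apply, sub_eq_zero] at h1
  have h3 := (hG (lev i j + 1)).2 i j (Nat.lt_succ_self _)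
  rw [LinearMap.add_apply, Finsupp.add_apply] at h3
  rw [h1]
  have h4 := two_V h2 (Φ (single i 1) j)
  rw [← h4] at h3
  exact add_left_cancel h3

/-- a row as a cochain out of the point -/
def rowC (y : P'.I →₀ V) : Ch (pt R) P' V := Finsupp.linearCombination R fun _ => y

theorem rowC_app (y : P'.I →₀ V) (u : (pt R).I) : rowC y (single u 1) = y := by simp [rowC]

theorem δ_pt_left (v : Ch (pt R) P' V) : δ (pt R) P' V v = tens V P'.d ∘ₗ v := by
  have : (pt R).d = 0 := rfl
  rw [δ, this, LinearMap.comp_zero, zero_add]

theorem δ_pt_right (w : Ch P (pt R) V) : δ P (pt R) V w = w ∘ₗ P.d := by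
  have : (pt R).d = 0 := rfl
  rw [δ, this, tens_zero, LinearMap.zero_comp, add_zero]

/-- a column as a cochain into the point -/
def colC (c : P.I → V) : Ch P (pt R) V :=
  Finsupp.linearCombination R fun i => single (α := (pt R).I) () (c i)

theorem colC_app (c : P.I → V) (i : P.I) (u : (pt R).I) : colC c (single i 1) u = c i := by
  rw [colC, Finsupp.linearCombination_single, one_smul]
  exact Finsupp.single_eq_same

theorem kStmt : KStmt := by
  intro R _ h2 P P' V _ _ _ _ n
  classical
  refine ⟨fun ⟨a, ha⟩ h => ?_, fun ⟨a, ha⟩ h => ?_⟩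
  · refine van_of_lev h2 n (fun i _ => (a - P.deg i).toNat) (fun i i' j hd => ?_)
      (fun _ _ _ _ => le_rfl) fun k Φ hΦ h0 => ?_
    · have : P.deg i' = P.deg i + 1 := by
        by_contra hne
        exact hd ((P.d_isM i i').1 hne)
      omega
    · have key : ∀ i, (a - P.deg i).toNat = k → ∃ y : P'.I →₀ V,
          (∀ j, P'.deg j ≠ P.deg i + (n - 1) → y j = 0) ∧ (∀ j, op (P'.ε j) • y j = y j) ∧
          tens V P'.d y = Φ (single i 1) := fun i hi => by
        have hrow : Φ (P.d (single i 1)) = 0 := Finsupp.ext fun j => by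
          rw [app_eq]
          refine Finset.sum_eq_zero fun i' hi' => ?_
          have : P.deg i' = P.deg i + 1 := by
            by_contra hne
            exact Finsupp.mem_support_iff.1 hi' ((P.d_isM i i').1 hne)
          have := ha i'
          rw [h0 i' j (by show (a - P.deg i').toNat < k; omega), smul_zero]
        have hδ : tens V P'.d (Φ (single i 1)) = 0 := by
          have := LinearMap.congr_fun hΦ.2 (single i 1)
          rwa [δ, LinearMap.add_apply, LinearMap.comp_apply, hrow, zero_add] at this
        obtain ⟨s, hs, hs'⟩ := h i (rowC (Φ (single i 1))) ⟨fun u j => by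
            rw [rowC_app]
            exact ⟨fun hj => (hΦ.1 i j).1 (by simpa [pt] using hj), one_smul _ _, (hΦ.1 i j).2.2⟩,
          ch_ext fun u j => by rw [δ_pt_left, LinearMap.comp_apply, rowC_app, hδ]; rfl⟩ (by
            have e := rowC_app (P' := P') (Φ (single i 1)) ()
            exact (congrArg (fun z => P.ε i • z) e).trans
              ((Finsupp.ext fun j => (hΦ.1 i j).2.1).trans e.symm))
        refine ⟨s (single () 1), fun j hj => (hs () j).1 (by simp only [pt]; omega),
          fun j => (hs () j).2.2, ?_⟩
        have := LinearMap.congr_fun hs' (single () 1)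
        rw [δ_pt_left, LinearMap.comp_apply] at this
        exact this.trans (rowC_app _ _)
      choose! y hy1 hy2 hy3 using key
      let Θ : Ch P P' V := Finsupp.linearCombination R fun i =>
        if (a - P.deg i).toNat = k then P.ε i • y i else 0
      have hΘ : ∀ i, Θ (single i 1) = if (a - P.deg i).toNat = k then P.ε i • y i else 0 :=
        fun i => by simp [Θ]
      refine ⟨Θ, fun i j => ?_, fun i j hk => ?_, fun i j hk => ?_⟩
      · rw [hΘ]
        split_ifs with hi
        · rw [Finsupp.smul_apply]
          exact ⟨fun hj => by rw [hy1 i hi j hj, smul_zero], by rw [smul_smul, P.idem],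
            by rw [← smul_comm, hy2 i hi]⟩
        · simp
      · rw [hΘ, if_neg (by omega)]; rfl
      · have hrow : Θ (P.d (single i 1)) j = 0 := by
          rw [app_eq]
          refine Finset.sum_eq_zero fun i' hi' => ?_
          have : P.deg i' = P.deg i + 1 := by
            by_contra hne
            exact Finsupp.mem_support_iff.1 hi' ((P.d_isM i i').1 hne)
          have := ha i'
          rw [hΘ, if_neg (by omega)]
          simp
        rw [δ, LinearMap.add_apply, Finsupp.add_apply, LinearMap.comp_apply, hrow, zero_add,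
          LinearMap.comp_apply, hΘ, if_pos hk, map_smul, hy3 i hk, Finsupp.smul_apply,
          (hΦ.1 i j).2.1]
  · refine van_of_lev h2 n (fun _ j => (P'.deg j - a).toNat) (fun _ _ _ _ => le_rfl)
      (fun i j j' hd => ?_) fun k Φ hΦ h0 => ?_
    · have : P'.deg j = P'.deg j' + 1 := by
        by_contra hne
        exact hd ((P'.d_isM j' j).1 hne)
      omega
    · have key : ∀ j, (P'.deg j - a).toNat = k → ∃ c : P.I → V,
          (∀ i, P'.deg j ≠ P.deg i + (n - 1) → c i = 0) ∧ (∀ i, P.ε i • c i = c i) ∧
          ∀ i, ∑ i' ∈ (P.d (single i 1)).support, P.d (single i 1) i' • c i' = Φ (single i 1) j :=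
        fun j hj => by
        have hδ : ∀ i, ∑ i' ∈ (P.d (single i 1)).support,
            P.d (single i 1) i' • Φ (single i' 1) j = 0 := fun i => by
          have := congrArg (fun Ψ : Ch P P' V => Ψ (single i 1) j) hΦ.2
          simp only [δ_ent] at this
          rw [Finset.sum_eq_zero (s := (Φ (single i 1)).support), add_zero] at this
          · exact this
          · intro j' _
            by_cases hd : P'.d (single j' 1) j = 0
            · rw [hd, op_zero, zero_smul]
            · have : P'.deg j = P'.deg j' + 1 := by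
                by_contra hne
                exact hd ((P'.d_isM j' j).1 hne)
              have := ha j'
              rw [h0 i j' (by show (P'.deg j' - a).toNat < k; omega), smul_zero]
        obtain ⟨s, hs, hs'⟩ := h j (colC fun i => Φ (single i 1) j) ⟨fun i u => by
            rw [colC_app]
            exact ⟨fun hi => (hΦ.1 i j).1 (by simp only [pt] at hi; omega), (hΦ.1 i j).2.1,
              one_smul _ _⟩,
          ch_ext fun i u => by
            rw [δ_pt_right, LinearMap.comp_apply, app_eq]
            simp only [colC_app]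
            exact hδ i⟩ (fun i => by
            have e := colC_app (P := P) (fun i => Φ (single i 1) j) i ()
            exact (congrArg (fun z => op (P'.ε j) • z) e).trans ((hΦ.1 i j).2.2.trans e.symm))
        refine ⟨fun i => s (single i 1) (), fun i hi => (hs i ()).1 (by simp only [pt]; omega),
          fun i => (hs i ()).2.1, fun i => ?_⟩
        have := congrArg (fun Ψ : Ch P (pt R) V => Ψ (single i 1) ()) hs'
        simp only [δ_pt_right, LinearMap.comp_apply] at this
        exact (app_eq s _ _).symm.trans (this.trans (colC_app _ _ _))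
      choose! c hc1 hc2 hc3 using key
      let Θ : Ch P P' V := ofEnt P P' (n - 1) fun i j =>
        if (P'.deg j - a).toNat = k then op (P'.ε j) • c j i else 0
      have hΘ : ∀ i j, Θ (single i 1) j =
          if (P'.deg j - a).toNat = k then op (P'.ε j) • c j i else 0 := fun i j => by
        rw [ofEnt_ent]
        split_ifs with h1 h3 h3
        · rfl
        · rfl
        · rw [hc1 j h3 i h1, smul_zero]
        · rfl
      refine ⟨Θ, isC_ofEnt _ (fun i j => ?_) (fun i j => ?_), fun i j hk => ?_, fun i j hk => ?_⟩
      · split_ifs with hj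
        · rw [smul_comm, hc2 j hj]
        · simp
      · split_ifs with hj
        · rw [smul_smul, ← op_mul, P'.idem]
        · simp
      · rw [hΘ, if_neg (by omega)]
      · rw [δ_ent, Finset.sum_eq_zero (s := (Θ (single i 1)).support), add_zero]
        · simp only [hΘ, if_pos hk]
          rw [← (hΦ.1 i j).2.2, ← hc3 j hk i, Finset.smul_sum]
          exact Finset.sum_congr rfl fun i' _ => smul_comm _ _ _
        · intro j' _
          by_cases hd : P'.d (single j' 1) j = 0
          · rw [hd, op_zero, zero_smul]
          · have : P'.deg j = P'.deg j' + 1 := by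
              by_contra hne
              exact hd ((P'.d_isM j' j).1 hne)
            have := ha j'
            rw [hΘ, if_neg (by omega), smul_zero]

end Crest.Agent.Lead.Tk
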