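import Mathlib

set_option autoImplicit false

namespace Crest.Agent.CovDual

open Finset

attribute [local instance] Classical.propDecidable

section Flats

variable {ι : Type} [Fintype ι] [DecidableEq ι] {k : ℕ}

/-- The points vanishing on `S`. -/
noncomputable def flat (k : ℕ) (S : Finset ι) : Finset (ι → Fin (k+1)) :=
  univ.filter (fun ω => ∀ i ∈ S, ω i = 0)

lemma mem_flat {S : Finset ι} {ω : ι → Fin (k+1)} : ω ∈ flat k S ↔ ∀ i ∈ S, ω i = 0 := by
  simp [flat]

/-- `A` contains a flat indexed by at most `2^l` elements of `H`. -/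
def W (l : ℕ) (H : Finset ι) (A : Finset (ι → Fin (k+1))) : Prop :=
  ∃ S ⊆ H, S.card ≤ 2 ^ l ∧ flat k S ⊆ A

lemma W.mono {l : ℕ} {H : Finset ι} {A A' : Finset (ι → Fin (k+1))} (h : W l H A)
    (hA : A ⊆ A') : W l H A' := by
  obtain ⟨S, h1, h2, h3⟩ := h
  exact ⟨S, h1, h2, h3.trans hA⟩

lemma W.inter {l : ℕ} {H : Finset ι} {A A' : Finset (ι → Fin (k+1))} (h : W l H A)
    (h' : W l H A') : W (l+1) H (A ∩ A') := by
  obtain ⟨S, h1, h2, h3⟩ := h
  obtain ⟨S', h1', h2', h3'⟩ := h'
  refine ⟨S ∪ S', union_subset h1 h1', ?_, ?_⟩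
  · have := card_union_le S S'
    rw [pow_succ]; omega
  · intro ω hω
    rw [mem_flat] at hω
    exact mem_inter.2 ⟨h3 (mem_flat.2 fun i hi => hω i (mem_union_left _ hi)),
      h3' (mem_flat.2 fun i hi => hω i (mem_union_right _ hi))⟩

lemma W.hyp {l : ℕ} {H : Finset ι} {A : Finset (ι → Fin (k+1))} (h : W l H A) {b : ι}
    (hb : b ∈ H) : W (l+1) H (A ∩ flat k {b}) := by
  refine h.inter ⟨{b}, by simpa using hb, ?_, subset_rfl⟩
  simpa using Nat.one_le_two_pow

/-- The number of levels reached. -/
noncomputable def phi (L : ℕ) (H : Finset ι) (A : Finset (ι → Fin (k+1))) : ℕ :=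
  ((range L).filter (fun l => W l H A)).card

lemma phi_le (L : ℕ) (H : Finset ι) (A : Finset (ι → Fin (k+1))) : phi L H A ≤ L := by
  unfold phi
  exact (card_filter_le _ _).trans (by simp)

lemma phi_univ (L : ℕ) (H : Finset ι) : phi L H (univ : Finset (ι → Fin (k+1))) = L := by
  unfold phi
  rw [filter_true_of_mem, card_range]
  intro l _
  exact ⟨∅, empty_subset _, by simp, subset_univ _⟩

lemma phi_mono (L : ℕ) (H : Finset ι) {A A' : Finset (ι → Fin (k+1))} (hA : A ⊆ A') :
    phi L H A ≤ phi L H A' := by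
  unfold phi
  apply card_le_card
  intro l hl
  rw [mem_filter] at hl ⊢
  exact ⟨hl.1, hl.2.mono hA⟩

lemma phi_shift (L : ℕ) (H : Finset ι) {A A' : Finset (ι → Fin (k+1))}
    (h : ∀ l < L, W l H A → W (l+2) H A') : phi L H A ≤ phi L H A' + 2 := by
  unfold phi
  have hsub : (range L).filter (fun l => W l H A) ⊆
      ((range L).filter (fun l => W l H A')).image (fun l => l - 2) ∪ {L - 1, L - 2} := by
    intro l hl
    rw [mem_filter, mem_range] at hl
    by_cases h2 : l + 2 < L
    · apply mem_union_left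
      exact mem_image.2 ⟨l + 2, mem_filter.2 ⟨mem_range.2 h2, h l hl.1 hl.2⟩, by omega⟩
    · apply mem_union_right
      simp only [mem_insert, mem_singleton]
      omega
  refine (card_le_card hsub).trans ((card_union_le _ _).trans ?_)
  have h1 := card_image_le (s := (range L).filter (fun l => W l H A')) (f := fun l => l - 2)
  have h2 : ({L - 1, L - 2} : Finset ℕ).card ≤ 2 := card_le_two
  omega

lemma phi_eq_zero (L : ℕ) (H : Finset ι) {A : Finset (ι → Fin (k+1))}
    (h : ∀ S ⊆ H, S.card ≤ 2 ^ L → ¬ flat k S ⊆ A) : phi L H A = 0 := by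
  unfold phi
  rw [card_eq_zero, filter_eq_empty_iff]
  rintro l hl ⟨S, h1, h2, h3⟩
  exact h S h1 (h2.trans (Nat.pow_le_pow_right (by norm_num) (mem_range.1 hl).le)) h3

lemma card_le_mul_inter_flat (s : ℕ) (U S : Finset ι) (hS : S ⊆ Uᶜ) (hs : S.card ≤ s)
    (G : Finset (ι → Fin (k+1)))
    (hG : ∀ ω ω' : ι → Fin (k+1), (∀ i ∈ U, ω i = ω' i) → ω ∈ G → ω' ∈ G) :
    G.card ≤ (k+1) ^ s * (G ∩ flat k S).card := by
  apply card_le_mul_card_image_of_maps_to
    (f := fun ω : ι → Fin (k+1) => fun i => if i ∈ S then 0 else ω i)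
  · intro ω hω
    refine mem_inter.2 ⟨hG ω _ ?_ hω, mem_flat.2 fun i hi => by simp [hi]⟩
    intro i hi
    have : i ∉ S := fun h => (mem_compl.1 (hS h)) hi
    simp [this]
  · intro ω0 _
    have : ((G.filter fun ω : ι → Fin (k+1) => (fun i => if i ∈ S then 0 else ω i) = ω0)).card
        ≤ (univ : Finset (S → Fin (k+1))).card := by
      apply card_le_card_of_injOn (fun ω => fun i : S => ω i)
      · intro _ _; simp
      · intro ω hω ω' hω' he
        simp only [coe_filter, Set.mem_setOf_eq] at hω hω'
        funext i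
        by_cases hi : i ∈ S
        · exact congrFun he ⟨i, hi⟩
        · have h1 := congrFun hω.2 i
          have h2 := congrFun hω'.2 i
          simp only [hi, if_false] at h1 h2
          rw [h1, h2]
    refine this.trans ?_
    simp only [card_univ, Fintype.card_fun, Fintype.card_fin, Fintype.card_coe]
    exact Nat.pow_le_pow_right (by omega) hs

/-- A set of at most half of the points contains no small flat outside few indices. -/
lemma exists_indep (s : ℕ) (A : Finset (ι → Fin (k+1)))
    (hA : 2 * A.card ≤ Fintype.card (ι → Fin (k+1))) :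
    ∃ H : Finset ι, Hᶜ.card ≤ s * (2 * (k+1) ^ s) ∧
      ∀ S ⊆ H, S.card ≤ s → ¬ flat k S ⊆ A := by
  set N := Fintype.card (ι → Fin (k+1)) with hN
  set R := (k+1) ^ s with hR
  have hR1 : 1 ≤ R := Nat.one_le_pow _ _ (by omega)
  have key : ∀ j : ℕ, (∃ H : Finset ι, Hᶜ.card ≤ s * j ∧ ∀ S ⊆ H, S.card ≤ s → ¬ flat k S ⊆ A) ∨
      ∃ (U : Finset ι) (G : Finset (ι → Fin (k+1))), U.card ≤ s * j ∧ Aᶜ ⊆ G ∧
        (∀ ω ω' : ι → Fin (k+1), (∀ i ∈ U, ω i = ω' i) → ω ∈ G → ω' ∈ G) ∧
        G.card * (R + j) ≤ N * R := by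
    intro j
    induction j with
    | zero =>
      right
      exact ⟨∅, univ, by simp, subset_univ _, fun _ _ _ _ => mem_univ _, by simp [hN]⟩
    | succ j ih =>
      rcases ih with ⟨H, h1, h2⟩ | ⟨U, G, h1, h2, h3, h4⟩
      · left
        exact ⟨H, h1.trans (Nat.mul_le_mul_left _ (by omega)), h2⟩
      · by_cases hind : ∀ S ⊆ Uᶜ, S.card ≤ s → ¬ flat k S ⊆ A
        · left
          exact ⟨Uᶜ, by rw [compl_compl]; exact h1.trans (Nat.mul_le_mul_left _ (by omega)), hind⟩
        · right
          push Not at hind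
          obtain ⟨S, hS1, hS2, hS3⟩ := hind
          refine ⟨U ∪ S, G \ flat k S, ?_, ?_, ?_, ?_⟩
          · have := card_union_le U S
            rw [Nat.mul_succ]; omega
          · intro ω hω
            exact mem_sdiff.2 ⟨h2 hω, fun h => (mem_compl.1 hω) (hS3 h)⟩
          · intro ω ω' he hω
            rw [mem_sdiff] at hω ⊢
            refine ⟨h3 ω ω' (fun i hi => he i (mem_union_left _ hi)) hω.1, fun h => hω.2 ?_⟩
            rw [mem_flat] at h ⊢
            intro i hi
            rw [he i (mem_union_right _ hi)]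
            exact h i hi
          · have h5 := card_le_mul_inter_flat s U S hS1 hS2 G h3
            rw [← hR] at h5
            have h6 : (G \ flat k S).card + (G ∩ flat k S).card = G.card :=
              card_sdiff_add_card_inter _ _
            set g := G.card
            set g' := (G \ flat k S).card
            set c := (G ∩ flat k S).card
            have h7 : g' * R + g ≤ g * R := by nlinarith
            have h8 : g' * (R + (j+1)) * R ≤ N * R * R := by
              have h9 : g' ≤ g := by omega
              nlinarith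
            exact Nat.le_of_mul_le_mul_right h8 (by omega)
  rcases key (2 * R) with h | ⟨U, G, -, h2, -, h4⟩
  · exact h
  · exfalso
    have h5 : Aᶜ.card ≤ G.card := card_le_card h2
    have h6 : Aᶜ.card + A.card = N := by rw [card_compl_add_card]
    have h7 : 0 < N := Fintype.card_pos
    have h8 : G.card * 3 * R ≤ N * R := by nlinarith
    have h9 : G.card * 3 ≤ N := Nat.le_of_mul_le_mul_right h8 (by omega)
    omega

lemma card_hyp (b : ι) :
    Fintype.card {ω : ι → Fin (k+1) // ω b = 0} = (k+1) ^ (Fintype.card ι - 1) := by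
  rw [Fintype.card_subtype]
  have : (univ.filter fun ω : ι → Fin (k+1) => ω b = 0) =
      Fintype.piFinset (fun i => if i = b then ({0} : Finset (Fin (k+1))) else univ) := by
    ext ω
    simp only [mem_filter, mem_univ, true_and, Fintype.mem_piFinset]
    constructor
    · intro h i
      split_ifs with hi
      · subst hi; simpa using h
      · simp
    · intro h
      simpa using h b
  rw [this, Fintype.card_piFinset]
  rw [← Finset.mul_prod_erase univ _ (mem_univ b)]
  simp only [if_true, card_singleton, one_mul]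
  rw [Finset.prod_congr rfl (g := fun _ => k+1)]
  · simp [card_erase_of_mem]
  · intro i hi
    simp [(mem_erase.1 hi).1]

end Flats

section Agree

variable {Ω : Type} [Fintype Ω] [DecidableEq Ω] {q : ℕ}

/-- Where two words agree. -/
noncomputable def agree (z T : Ω → Fin q) : Finset Ω := univ.filter (fun ω => z ω = T ω)

lemma mem_agree {z T : Ω → Fin q} {ω : Ω} : ω ∈ agree z T ↔ z ω = T ω := by simp [agree]

lemma agree_self (z : Ω → Fin q) : agree z z = univ := by
  ext ω; simp [mem_agree]

lemma card_close (hq : 1 ≤ q) (Nh : ℕ) (hN : Fintype.card Ω = 2 * Nh) (z : Ω → Fin q) :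
    (univ.filter fun z' : Ω → Fin q => Fintype.card Ω < 2 * (agree z' z).card).card ≤
      2 ^ Fintype.card Ω * q ^ Nh := by
  have hsub : (univ.filter fun z' : Ω → Fin q => Fintype.card Ω < 2 * (agree z' z).card) ⊆
      ((univ : Finset (Finset Ω)).filter fun A => Nh ≤ A.card).biUnion
        (fun A => Fintype.piFinset (fun ω => if ω ∈ A then ({z ω} : Finset (Fin q)) else univ)) := by
    intro z' hz'
    rw [mem_filter] at hz'
    refine mem_biUnion.2 ⟨agree z' z, mem_filter.2 ⟨mem_univ _, by omega⟩, ?_⟩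
    rw [Fintype.mem_piFinset]
    intro ω
    split_ifs with h
    · simpa using mem_agree.1 h
    · simp
  refine (card_le_card hsub).trans (card_biUnion_le.trans ?_)
  have hb : ∀ A ∈ ((univ : Finset (Finset Ω)).filter fun A => Nh ≤ A.card),
      (Fintype.piFinset (fun ω => if ω ∈ A then ({z ω} : Finset (Fin q)) else univ)).card
        ≤ q ^ Nh := by
    intro A hA
    rw [mem_filter] at hA
    rw [Fintype.card_piFinset]
    have : ∏ ω, (if ω ∈ A then ({z ω} : Finset (Fin q)) else univ).card = q ^ Aᶜ.card := by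
      rw [← Finset.prod_mul_prod_compl A]
      rw [Finset.prod_congr rfl (g := fun _ => 1), Finset.prod_congr rfl (s₁ := Aᶜ) (g := fun _ => q)]
      · simp
      · intro ω hω; simp [mem_compl.1 hω]
      · intro ω hω; simp [hω]
    rw [this]
    apply Nat.pow_le_pow_right hq
    have := card_compl_add_card A
    omega
  refine (sum_le_card_nsmul _ _ _ hb).trans ?_
  rw [smul_eq_mul]
  apply Nat.mul_le_mul_right
  refine (card_filter_le _ _).trans ?_
  simp

end Agree

end Crest.Agent.CovDual
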