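import Mathlib
import Crest.Agent.Lead.CovA

set_option autoImplicit false

namespace Crest.Agent.CovDual

open Finset

attribute [local instance] Classical.propDecidable

variable {ι : Type} [Fintype ι] [DecidableEq ι] {k q : ℕ}
variable {X : Type} [Fintype X]

/-- The region where `T` agrees with one of the words of `β`. -/
noncomputable def known (β : Finset ((ι → Fin (k+1)) → Fin q)) (T : (ι → Fin (k+1)) → Fin q) :
    Finset (ι → Fin (k+1)) :=
  univ.filter (fun ω => ∃ p ∈ β, p ω = T ω)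

lemma mem_known {β : Finset ((ι → Fin (k+1)) → Fin q)} {T : (ι → Fin (k+1)) → Fin q}
    {ω : ι → Fin (k+1)} : ω ∈ known β T ↔ ∃ p ∈ β, p ω = T ω := by simp [known]

/-- Columns where the level of `z` is not captured by the known region. -/
def Bad (L : ℕ) (β : Finset ((ι → Fin (k+1)) → Fin q)) (z : (ι → Fin (k+1)) → Fin q)
    (H : Finset ι) (T : (ι → Fin (k+1)) → Fin q) : Prop :=
  ∃ l < L, W l H (agree z T) ∧ ¬ W (l+1) H (agree z T ∩ known β T)

/-- The number of levels reached by some word of `β`. -/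
noncomputable def rho (L : ℕ) (β : Finset ((ι → Fin (k+1)) → Fin q))
    (H : Finset ι) (T : (ι → Fin (k+1)) → Fin q) : ℕ :=
  ((range L).filter (fun l => ∃ p ∈ β, W l H (agree p T))).card

lemma rho_le (L : ℕ) (β : Finset ((ι → Fin (k+1)) → Fin q))
    (H : Finset ι) (T : (ι → Fin (k+1)) → Fin q) : rho L β H T ≤ L := by
  unfold rho
  exact (card_filter_le _ _).trans (by simp)

lemma rho_insert (L : ℕ) (β : Finset ((ι → Fin (k+1)) → Fin q)) (z : (ι → Fin (k+1)) → Fin q)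
    (H : Finset ι) (T : (ι → Fin (k+1)) → Fin q) :
    rho L β H T + (if Bad L β z H T then 1 else 0) ≤ rho L (insert z β) H T := by
  have hsub : (range L).filter (fun l => ∃ p ∈ β, W l H (agree p T)) ⊆
      (range L).filter (fun l => ∃ p ∈ insert z β, W l H (agree p T)) := by
    intro l hl
    rw [mem_filter] at hl ⊢
    obtain ⟨h1, p, hp, h2⟩ := hl
    exact ⟨h1, p, mem_insert_of_mem hp, h2⟩
  split_ifs with hb
  · obtain ⟨l, hl, h1, h2⟩ := hb
    unfold rho
    apply card_lt_card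
    refine ⟨hsub, fun h => ?_⟩
    have := h (mem_filter.2 ⟨mem_range.2 hl, z, mem_insert_self _ _, h1⟩)
    obtain ⟨-, p, hp, h3⟩ := mem_filter.1 this
    apply h2
    refine (h1.inter h3).mono ?_
    intro ω hω
    rw [mem_inter] at hω ⊢
    exact ⟨hω.1, mem_known.2 ⟨p, hp, mem_agree.1 hω.2⟩⟩
  · simpa [rho] using card_le_card hsub

lemma exists_bases (L : ℕ) (hL : 0 < L) (Hx : X → Finset ι) (Tx : X → (ι → Fin (k+1)) → Fin q)
    (w : X → ℝ) (hw : ∀ x, 0 ≤ w x) (hw1 : ∑ x, w x ≤ 1) :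
    ∃ β : Finset ((ι → Fin (k+1)) → Fin q), β.card ≤ L ^ 2 ∧
      ∀ z, ∑ x, w x * (if Bad L β z (Hx x) (Tx x) then 1 else 0) ≤ 1 / L := by
  have hL' : (0:ℝ) < L := by exact_mod_cast hL
  let Pot : Finset ((ι → Fin (k+1)) → Fin q) → ℝ := fun β =>
    ∑ x, w x * (rho L β (Hx x) (Tx x) : ℝ)
  obtain ⟨β, -, hβ⟩ := exists_max_image (univ : Finset (Finset ((ι → Fin (k+1)) → Fin q)))
    (fun β => Pot β - β.card / L) univ_nonempty
  have hPot : Pot β ≤ L := by
    calc Pot β ≤ ∑ x, w x * (L : ℝ) := by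
          apply sum_le_sum
          intro x _
          exact mul_le_mul_of_nonneg_left (by exact_mod_cast rho_le _ _ _ _) (hw x)
      _ = (∑ x, w x) * L := by rw [sum_mul]
      _ ≤ 1 * L := by gcongr
      _ = L := one_mul _
  refine ⟨β, ?_, fun z => ?_⟩
  · have h0 := hβ ∅ (mem_univ _)
    have h1 : 0 ≤ Pot ∅ := sum_nonneg fun x _ => mul_nonneg (hw x) (Nat.cast_nonneg _)
    simp only [card_empty, Nat.cast_zero, zero_div, sub_zero] at h0
    have h2 : (β.card : ℝ) / L ≤ L := by linarith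
    rw [div_le_iff₀ hL'] at h2
    have : (β.card : ℝ) ≤ ((L ^ 2 : ℕ) : ℝ) := by push_cast; nlinarith
    exact_mod_cast this
  · have h0 := hβ (insert z β) (mem_univ _)
    have h1 : Pot β + ∑ x, w x * (if Bad L β z (Hx x) (Tx x) then 1 else 0) ≤
        Pot (insert z β) := by
      simp only [Pot]
      rw [← sum_add_distrib]
      apply sum_le_sum
      intro x _
      rw [← mul_add]
      apply mul_le_mul_of_nonneg_left _ (hw x)
      have := rho_insert L β z (Hx x) (Tx x)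
      have h3 : ((rho L β (Hx x) (Tx x) + (if Bad L β z (Hx x) (Tx x) then 1 else 0) : ℕ) : ℝ) ≤
        rho L (insert z β) (Hx x) (Tx x) := by exact_mod_cast this
      simpa using h3
    have h2 : ((insert z β).card : ℝ) ≤ β.card + 1 := by exact_mod_cast card_insert_le _ _
    have h3 : ((insert z β).card : ℝ) / L ≤ β.card / L + 1 / L := by
      rw [← add_div]; gcongr
    linarith

omit [Fintype ι] [DecidableEq ι] in
lemma exists_popular [Fintype ι] [DecidableEq ι] (L h : ℕ) (hL : 0 < L) (hh : 0 < h)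
    (hι : Fintype.card ι = L * h) (Hx : X → Finset ι) (hH : ∀ x, (Hx x)ᶜ.card ≤ h)
    (w : X → ℝ) (hw : ∀ x, 0 ≤ w x) (hw1 : ∑ x, w x ≤ 1) :
    ∃ b : ι, ∑ x, w x * (if b ∈ Hx x then 0 else 1) ≤ 1 / L := by
  have hL' : (0:ℝ) < L := by exact_mod_cast hL
  have hne : Nonempty ι := Fintype.card_pos_iff.1 (by rw [hι]; positivity)
  obtain ⟨b, -, hb⟩ := exists_le_of_sum_le (s := (univ : Finset ι)) univ_nonempty
    (f := fun b => ∑ x, w x * (if b ∈ Hx x then (0:ℝ) else 1)) (g := fun _ => 1 / (L:ℝ)) (by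
      rw [sum_comm]
      have : ∀ x, ∑ b : ι, w x * (if b ∈ Hx x then (0:ℝ) else 1) ≤ w x * h := by
        intro x
        rw [← mul_sum]
        apply mul_le_mul_of_nonneg_left _ (hw x)
        have : ∑ b : ι, (if b ∈ Hx x then (0:ℝ) else 1) = ((Hx x)ᶜ.card : ℝ) := by
          rw [card_eq_sum_ones, Nat.cast_sum, ← sum_filter_add_sum_filter_not univ (· ∈ Hx x)]
          rw [sum_eq_zero (s := filter _ _), zero_add]
          · apply sum_congr
            · ext b; simp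
            · intro b hb; simp [mem_compl.1 hb]
          · intro b hb; simp [(mem_filter.1 hb).2]
        rw [this]; exact_mod_cast hH x
      refine (sum_le_sum fun x _ => this x).trans ?_
      rw [← sum_mul]
      simp only [sum_const, card_univ, hι, nsmul_eq_mul]
      push_cast
      have h1 : (L:ℝ) * h * (1 / L) = h := by field_simp
      rw [h1]
      have : (0:ℝ) ≤ h := Nat.cast_nonneg _
      nlinarith)
  exact ⟨b, hb⟩

lemma phi_known (L : ℕ) (β : Finset ((ι → Fin (k+1)) → Fin q)) (z : (ι → Fin (k+1)) → Fin q)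
    (H : Finset ι) (T : (ι → Fin (k+1)) → Fin q) (b : ι) :
    |(phi L H (agree z T) : ℝ) - phi L H (agree z T ∩ known β T ∩ flat k {b})| ≤
      2 + L * (if Bad L β z H T then 1 else 0) + L * (if b ∈ H then 0 else 1) := by
  have h1 : phi L H (agree z T ∩ known β T ∩ flat k {b}) ≤ phi L H (agree z T) :=
    phi_mono _ _ (inter_subset_left.trans inter_subset_left)
  have h1' : (phi L H (agree z T ∩ known β T ∩ flat k {b}) : ℝ) ≤ phi L H (agree z T) := by
    exact_mod_cast h1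
  have h2 : (phi L H (agree z T) : ℝ) ≤ L := by exact_mod_cast phi_le _ _ _
  have h3 : (0:ℝ) ≤ phi L H (agree z T ∩ known β T ∩ flat k {b}) := Nat.cast_nonneg _
  have hL : (0:ℝ) ≤ L := Nat.cast_nonneg _
  rw [abs_of_nonneg (by linarith)]
  by_cases hb : Bad L β z H T
  · split_ifs <;> nlinarith
  · by_cases hbH : b ∈ H
    · simp only [hb, hbH, if_true, if_false]
      have : phi L H (agree z T) ≤ phi L H (agree z T ∩ known β T ∩ flat k {b}) + 2 := by
        apply phi_shift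
        intro l hl hW
        have : W (l+1) H (agree z T ∩ known β T) := by
          by_contra hn
          exact hb ⟨l, hl, hW, hn⟩
        exact this.hyp hbH
      have h4 : (phi L H (agree z T) : ℝ) ≤
          phi L H (agree z T ∩ known β T ∩ flat k {b}) + 2 := by exact_mod_cast this
      linarith
    · simp only [hb, hbH, if_false]
      nlinarith

/-- The shapes. -/
abbrev Shape (ι : Type) (k P : ℕ) : Type := Finset ι × ((ι → Fin (k+1)) → Finset (Fin P))

/-- The value determined by the bases on a hyperplane and a shape. -/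
noncomputable def Psi (L P : ℕ) (b : ι) (γ : Fin P → {ω : ι → Fin (k+1) // ω b = 0} → Fin q)
    (σ : Shape ι k P) (z : (ι → Fin (k+1)) → Fin q) : ℕ :=
  phi L σ.1 (univ.filter fun ω => ∃ h : ω b = 0, ∃ p ∈ σ.2 ω, γ p ⟨ω, h⟩ = z ω)

lemma exists_enum {Z : Type} [Nonempty Z] (P : ℕ) (β : Finset Z) (hβ : β.card ≤ P) :
    ∃ g : Fin P → Z, ∀ p ∈ β, ∃ i, g i = p := by
  refine ⟨fun i => if h : (i : ℕ) < β.card then (β.equivFin.symm ⟨i, h⟩ : Z)
    else Classical.arbitrary Z, fun p hp => ?_⟩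
  refine ⟨⟨β.equivFin ⟨p, hp⟩, lt_of_lt_of_le (Fin.is_lt _) hβ⟩, ?_⟩
  simp

/-- Every signed measure of mass at most one is described by a hyperplane, few words on it, and a
measure on shapes. -/
lemma exists_approx (hq : 0 < q) (L h : ℕ) (hL : 0 < L) (hh : 0 < h)
    (hι : Fintype.card ι = L * h) (Hx : X → Finset ι) (hH : ∀ x, (Hx x)ᶜ.card ≤ h)
    (Tx : X → (ι → Fin (k+1)) → Fin q) (μ : X → ℝ) (hμ : ∑ x, |μ x| ≤ 1) :
    ∃ (b : ι) (γ : Fin (L^2) → {ω : ι → Fin (k+1) // ω b = 0} → Fin q)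
      (ν : Shape ι k (L^2) → ℝ), (∀ σ, |ν σ| ≤ 1) ∧
      ∀ z, |∑ x, μ x * phi L (Hx x) (agree z (Tx x)) - ∑ σ, ν σ * Psi L (L^2) b γ σ z| ≤ 4 := by
  have hL' : (0:ℝ) < L := by exact_mod_cast hL
  haveI : Nonempty (Fin q) := ⟨⟨0, hq⟩⟩
  obtain ⟨β, hβ1, hβ2⟩ := exists_bases L hL Hx Tx (fun x => |μ x|) (fun x => abs_nonneg _) hμ
  obtain ⟨b, hb⟩ := exists_popular L h hL hh hι Hx hH (fun x => |μ x|) (fun x => abs_nonneg _) hμ
  obtain ⟨g, hg⟩ := exists_enum (L^2) β hβ1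
  let sh : X → Shape ι k (L^2) := fun x =>
    (Hx x, fun ω => univ.filter fun p => g p ∈ β ∧ g p ω = Tx x ω)
  refine ⟨b, fun p ω => g p ω.1, fun σ => ∑ x ∈ univ.filter (fun x => sh x = σ), μ x, ?_, ?_⟩
  · intro σ
    refine (abs_sum_le_sum_abs _ _).trans (le_trans ?_ hμ)
    exact sum_le_sum_of_subset_of_nonneg (filter_subset _ _) fun _ _ _ => abs_nonneg _
  · intro z
    have e1 : ∑ σ, (∑ x ∈ univ.filter (fun x => sh x = σ), μ x) *
          (Psi L (L^2) b (fun p ω => g p ω.1) σ z : ℝ) =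
        ∑ x, μ x * (Psi L (L^2) b (fun p ω => g p ω.1) (sh x) z : ℝ) := by
      rw [← sum_fiberwise (s := univ) (g := sh)]
      apply sum_congr rfl
      intro σ _
      rw [sum_mul]
      apply sum_congr rfl
      intro x hx
      rw [(mem_filter.1 hx).2]
    have e2 : ∀ x, Psi L (L^2) b (fun p ω => g p ω.1) (sh x) z =
        phi L (Hx x) (agree z (Tx x) ∩ known β (Tx x) ∩ flat k {b}) := by
      intro x
      unfold Psi
      congr 1
      ext ω
      simp only [sh, mem_filter, mem_univ, true_and, mem_inter, mem_agree, mem_known, mem_flat,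
        mem_singleton, forall_eq]
      constructor
      · rintro ⟨h0, p, ⟨h1, h2⟩, h3⟩
        exact ⟨⟨by rw [← h3, h2], g p, h1, h2⟩, h0⟩
      · rintro ⟨⟨h1, p, hp, h2⟩, h0⟩
        obtain ⟨i, rfl⟩ := hg p hp
        exact ⟨h0, i, ⟨hp, h2⟩, by rw [h2, h1]⟩
    rw [e1, ← sum_sub_distrib]
    refine (abs_sum_le_sum_abs _ _).trans ?_
    calc ∑ x, |μ x * (phi L (Hx x) (agree z (Tx x)) : ℝ) -
            μ x * (Psi L (L^2) b (fun p ω => g p ω.1) (sh x) z : ℝ)|
        ≤ ∑ x, (2 * |μ x| + L * (|μ x| * (if Bad L β z (Hx x) (Tx x) then 1 else 0)) +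
            L * (|μ x| * (if b ∈ Hx x then 0 else 1))) := by
          apply sum_le_sum
          intro x _
          rw [← mul_sub, abs_mul, e2]
          have := mul_le_mul_of_nonneg_left (phi_known L β z (Hx x) (Tx x) b) (abs_nonneg (μ x))
          refine this.trans (le_of_eq ?_)
          ring
      _ = 2 * ∑ x, |μ x| + L * ∑ x, |μ x| * (if Bad L β z (Hx x) (Tx x) then 1 else 0) +
            L * ∑ x, |μ x| * (if b ∈ Hx x then 0 else 1) := by
          rw [sum_add_distrib, sum_add_distrib, mul_sum, mul_sum, mul_sum]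
      _ ≤ 2 * 1 + L * (1 / L) + L * (1 / L) := by
          gcongr
          exact hβ2 z
      _ = 4 := by field_simp; norm_num

/-- The finite family of descriptions. -/
abbrev Desc (ι : Type) (k q P Q : ℕ) : Type :=
  (Σ b : ι, Fin P → {ω : ι → Fin (k+1) // ω b = 0} → Fin q) ×
    (Shape ι k P → (Finset.Icc (-(Q:ℤ)) Q))

lemma card_desc (P Q : ℕ) :
    Fintype.card (Desc ι k q P Q) = Fintype.card ι * q ^ (P * (k+1) ^ (Fintype.card ι - 1)) *
      Fintype.card (Shape ι k P → (Finset.Icc (-(Q:ℤ)) Q)) := by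
  rw [Fintype.card_prod, Fintype.card_sigma]
  congr 1
  rw [sum_congr rfl (g := fun _ => q ^ (P * (k+1) ^ (Fintype.card ι - 1)))]
  · simp
  · intro b _
    rw [Fintype.card_fun, Fintype.card_fun, card_hyp, Fintype.card_fin, Fintype.card_fin,
      ← pow_mul, mul_comm]

lemma exists_desc (hq : 0 < q) (L h : ℕ) (hL : 0 < L) (hh : 0 < h)
    (hι : Fintype.card ι = L * h) (Hx : X → Finset ι) (hH : ∀ x, (Hx x)ᶜ.card ≤ h)
    (Tx : X → (ι → Fin (k+1)) → Fin q) :
    ∃ G : Desc ι k q (L^2) (L * Fintype.card (Shape ι k (L^2))) →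
        ((ι → Fin (k+1)) → Fin q) → ℝ,
      ∀ μ : X → ℝ, ∑ x, |μ x| ≤ 1 → ∃ d, ∀ z,
        |∑ x, μ x * phi L (Hx x) (agree z (Tx x)) - G d z| ≤ 5 := by
  set Q := L * Fintype.card (Shape ι k (L^2)) with hQ
  have hS : 0 < Fintype.card (Shape ι k (L^2)) := Fintype.card_pos
  have hQ0 : (0:ℝ) < Q := by exact_mod_cast Nat.mul_pos hL hS
  refine ⟨fun d z => ∑ σ, (((d.2 σ : ℤ) : ℝ) / Q) * Psi L (L^2) d.1.1 d.1.2 σ z, ?_⟩
  intro μ hμ
  obtain ⟨b, γ, ν, hν, h4⟩ := exists_approx hq L h hL hh hι Hx hH Tx μ hμ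
  have hmem : ∀ σ, ⌊ν σ * Q⌋ ∈ Finset.Icc (-(Q:ℤ)) Q := by
    intro σ
    have := abs_le.1 (hν σ)
    rw [Finset.mem_Icc]
    constructor
    · rw [Int.le_floor]; push_cast; nlinarith
    · have h1 := Int.floor_le (ν σ * Q)
      have : ((⌊ν σ * Q⌋ : ℤ) : ℝ) ≤ ((Q : ℤ) : ℝ) := by push_cast; nlinarith
      exact_mod_cast this
  refine ⟨⟨⟨b, γ⟩, fun σ => ⟨⌊ν σ * Q⌋, hmem σ⟩⟩, fun z => ?_⟩
  have h5 : |∑ σ, ν σ * (Psi L (L^2) b γ σ z : ℝ) -
      ∑ σ, (((⌊ν σ * Q⌋ : ℤ) : ℝ) / Q) * Psi L (L^2) b γ σ z| ≤ 1 := by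
    rw [← sum_sub_distrib]
    refine (abs_sum_le_sum_abs _ _).trans ?_
    have : ∀ σ, |ν σ * (Psi L (L^2) b γ σ z : ℝ) -
        (((⌊ν σ * Q⌋ : ℤ) : ℝ) / Q) * Psi L (L^2) b γ σ z| ≤ L / Q := by
      intro σ
      rw [← sub_mul, abs_mul]
      have h1 : (Psi L (L^2) b γ σ z : ℝ) ≤ L := by exact_mod_cast phi_le _ _ _
      have h2 : |ν σ - ((⌊ν σ * Q⌋ : ℤ) : ℝ) / Q| ≤ 1 / Q := by
        have e : ν σ - ((⌊ν σ * Q⌋ : ℤ) : ℝ) / Q = (ν σ * Q - ⌊ν σ * Q⌋) / Q := by field_simp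
        rw [e, abs_div, abs_of_pos hQ0]
        gcongr
        have h3 := Int.floor_le (ν σ * Q)
        have h4 := Int.lt_floor_add_one (ν σ * Q)
        rw [abs_le]; constructor <;> linarith
      rw [Nat.abs_cast]
      calc _ ≤ 1 / (Q:ℝ) * L := by gcongr
        _ = L / Q := by ring
    refine (sum_le_sum fun σ _ => this σ).trans (le_of_eq ?_)
    rw [sum_const, card_univ, nsmul_eq_mul, mul_div_assoc', div_eq_one_iff_eq hQ0.ne', hQ]
    push_cast; ring
  have := abs_sub_le (∑ x, μ x * (phi L (Hx x) (agree z (Tx x)) : ℝ))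
    (∑ σ, ν σ * (Psi L (L^2) b γ σ z : ℝ))
    (∑ σ, (((⌊ν σ * Q⌋ : ℤ) : ℝ) / Q) * Psi L (L^2) b γ σ z)
  have h6 := h4 z
  show |_ - ∑ σ, (((⌊ν σ * Q⌋ : ℤ) : ℝ) / Q) * Psi L (L^2) b γ σ z| ≤ 5
  linarith

end Crest.Agent.CovDual
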