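import Mathlib
import Crest.Prelude.Def_Polar
import Crest.Agent.Lead.CovB

set_option autoImplicit false

namespace Crest.Agent.CovDual

open Finset Pointwise Crest.AnalysisR

attribute [local instance] Classical.propDecidable

lemma inner_eq {n : ℕ} (x y : EuclideanSpace ℝ (Fin n)) : inner ℝ x y = ∑ i, x i * y i := by
  simp [PiLp.inner_apply, mul_comm]

lemma sum_abs_le_of_polar {n : ℕ} (y : EuclideanSpace ℝ (Fin n))
    (hy : y ∈ polarSet {x : EuclideanSpace ℝ (Fin n) | ∀ i, |x i| ≤ 1}) : ∑ i, |y i| ≤ 1 := by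
  have := hy (WithLp.toLp 2 fun i => if 0 ≤ y i then 1 else -1) (by
    intro i
    show |if 0 ≤ y i then (1:ℝ) else -1| ≤ 1
    split_ifs <;> simp)
  rw [inner_eq] at this
  refine le_trans (le_of_eq ?_) this
  apply sum_congr rfl
  intro i _
  show |y i| = (if 0 ≤ y i then (1:ℝ) else -1) * y i
  split_ifs with h
  · rw [abs_of_nonneg h, one_mul]
  · rw [abs_of_neg (not_le.1 h)]; ring

lemma norm_le_sum_abs {n : ℕ} (y : EuclideanSpace ℝ (Fin n)) : ‖y‖ ≤ ∑ i, |y i| := by
  rw [EuclideanSpace.norm_eq]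
  apply Real.sqrt_le_iff.2
  refine ⟨sum_nonneg fun _ _ => abs_nonneg _, ?_⟩
  simp only [Real.norm_eq_abs]
  exact sum_sq_le_sq_sum_of_nonneg fun _ _ => abs_nonneg _

/-- The geometric step. -/
lemma geom {n : ℕ} {Z D : Type} [Fintype Z] [Nonempty Z] [Fintype D] (a : ℝ) (ha : 1 ≤ a)
    (L : ℝ) (hL : 60 * a ≤ L) (f : Z → Fin n → ℝ) (G : D → Z → ℝ)
    (hG : ∀ μ : Fin n → ℝ, ∑ x, |μ x| ≤ 1 → ∃ d, ∀ z, |∑ x, μ x * f z x - G d z| ≤ 5)
    (R : ℕ) (hR : ∀ z, (univ.filter fun z' => ∀ x, |f z' x - f z x| < L).card ≤ R) :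
    ∃ K : Set (EuclideanSpace ℝ (Fin n)),
      Convex ℝ K ∧ IsCompact K ∧ (interior K).Nonempty ∧ (∀ x ∈ K, -x ∈ K) ∧
      ∃ t₁ : Finset (EuclideanSpace ℝ (Fin n)),
        polarSet {x : EuclideanSpace ℝ (Fin n) | ∀ i, |x i| ≤ 1} ⊆
          ⋃ y ∈ t₁, (y +ᵥ a⁻¹ • polarSet K) ∧ t₁.card ≤ Fintype.card D ∧
        ∀ t₂ : Finset (EuclideanSpace ℝ (Fin n)),
          K ⊆ ⋃ x ∈ t₂, (x +ᵥ {z : EuclideanSpace ℝ (Fin n) | ∀ i, |z i| ≤ 1}) →
          Fintype.card Z ≤ t₂.card * R := by
  have ha0 : 0 < a := by linarith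
  have hL0 : 0 < L := by linarith
  let v : Z → EuclideanSpace ℝ (Fin n) := fun z => WithLp.toLp 2 fun x => 3 / L * f z x
  let p : EuclideanSpace ℝ (Fin n) → ℝ := fun y =>
    univ.sup' univ_nonempty (fun z => |inner ℝ (v z) y|) + (1 / (4 * a)) * ‖y‖
  have hp1 : ∀ y z, |inner ℝ (v z) y| ≤ univ.sup' univ_nonempty (fun z => |inner ℝ (v z) y|) :=
    fun y z => le_sup' (fun z => |inner ℝ (v z) y|) (mem_univ z)
  have hp0 : ∀ y, 0 ≤ univ.sup' univ_nonempty (fun z => |inner ℝ (v z) y|) :=
    fun y => (abs_nonneg _).trans (hp1 y (Classical.arbitrary Z))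
  have hδ : 0 < 1 / (4 * a) := by positivity
  let K : Set (EuclideanSpace ℝ (Fin n)) := {u | ∀ y, inner ℝ u y ≤ p y}
  have hKc : IsClosed K := by
    have : K = ⋂ y, {u | inner ℝ u y ≤ p y} := by ext u; simp [K]
    rw [this]
    exact isClosed_iInter fun y => isClosed_le (by fun_prop) continuous_const
  refine ⟨K, ?_, ?_, ?_, ?_, ?_⟩
  · intro u hu w hw s t hs ht hst y
    rw [inner_add_left, inner_smul_left, inner_smul_left]
    have h1 := mul_le_mul_of_nonneg_left (hu y) hs
    have h2 := mul_le_mul_of_nonneg_left (hw y) ht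
    have : s * p y + t * p y = p y := by rw [← add_mul, hst, one_mul]
    simp only [conj_trivial]
    linarith
  · apply Metric.isCompact_of_isClosed_isBounded hKc
    rw [isBounded_iff_forall_norm_le]
    refine ⟨∑ z, ‖v z‖ + 1 / (4 * a), fun u hu => ?_⟩
    have h1 := hu u
    rw [real_inner_self_eq_norm_sq] at h1
    have h2 : univ.sup' univ_nonempty (fun z => |inner ℝ (v z) u|) ≤ (∑ z, ‖v z‖) * ‖u‖ := by
      apply sup'_le
      intro z _
      refine (abs_real_inner_le_norm _ _).trans ?_
      gcongr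
      exact single_le_sum (f := fun z => ‖v z‖) (fun _ _ => norm_nonneg _) (mem_univ z)
    have h3 : ‖u‖ * ‖u‖ ≤ (∑ z, ‖v z‖ + 1 / (4 * a)) * ‖u‖ := by
      simp only [p] at h1
      nlinarith
    rcases (norm_nonneg u).eq_or_lt with h0 | h0
    · rw [← h0]
      have : 0 ≤ ∑ z, ‖v z‖ := sum_nonneg fun _ _ => norm_nonneg _
      linarith
    · exact le_of_mul_le_mul_right h3 h0
  · refine ⟨0, mem_interior.2 ⟨Metric.ball 0 (1 / (4 * a)), ?_, Metric.isOpen_ball,
      Metric.mem_ball_self hδ⟩⟩
    intro u hu y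
    rw [mem_ball_zero_iff] at hu
    have h1 := real_inner_le_norm u y
    have h2 : ‖u‖ * ‖y‖ ≤ 1 / (4 * a) * ‖y‖ := by gcongr
    have := hp0 y
    simp only [p]
    linarith
  · intro u hu y
    have := hu (-y)
    simp only [p, inner_neg_right, abs_neg, norm_neg] at this
    simpa only [p, inner_neg_left] using this
  · let good : D → EuclideanSpace ℝ (Fin n) → Prop := fun d y =>
      ∑ x, |y x| ≤ 1 ∧ ∀ z, |∑ x, y x * f z x - G d z| ≤ 5
    let rep : D → EuclideanSpace ℝ (Fin n) := fun d =>
      if h : ∃ y, good d y then h.choose else 0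
    refine ⟨univ.image rep, ?_, card_image_le.trans (by simp), ?_⟩
    · intro y hy
      have hy1 := sum_abs_le_of_polar y hy
      obtain ⟨d, hd⟩ := hG (fun x => y x) hy1
      have hex : ∃ y, good d y := ⟨y, hy1, hd⟩
      have hr : good d (rep d) := by
        simp only [rep, hex, dif_pos]
        exact hex.choose_spec
      simp only [Set.mem_iUnion]
      refine ⟨rep d, mem_image_of_mem _ (mem_univ d), ?_⟩
      rw [Set.mem_vadd_set]
      refine ⟨y - rep d, ?_, by simp⟩
      rw [Set.mem_smul_set]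
      refine ⟨a • (y - rep d), ?_, by rw [smul_smul, inv_mul_cancel₀ ha0.ne', one_smul]⟩
      intro u hu
      refine (hu _).trans ?_
      have h1 : univ.sup' univ_nonempty (fun z => |inner ℝ (v z) (a • (y - rep d))|) ≤ 1 / 2 := by
        apply sup'_le
        intro z _
        rw [inner_smul_right, inner_eq]
        have e : ∑ i, v z i * (y - rep d) i =
            3 / L * ((∑ x, y x * f z x - G d z) - (∑ x, rep d x * f z x - G d z)) := by
          rw [sub_sub_sub_cancel_right, ← sum_sub_distrib, mul_sum]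
          apply sum_congr rfl
          intro i _
          show 3 / L * f z i * (y i - rep d i) = _
          ring
        rw [e, abs_mul, abs_mul, abs_of_pos ha0, abs_of_pos (by positivity : 0 < 3 / L)]
        have h2 := abs_sub (∑ x, y x * f z x - G d z) (∑ x, rep d x * f z x - G d z)
        have h3 := hd z
        have h4 := hr.2 z
        calc a * (3 / L * _) ≤ a * (3 / L * 10) := by gcongr; linarith
          _ = 30 * a / L := by ring
          _ ≤ 1 / 2 := by rw [div_le_iff₀ hL0]; linarith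
      have h2 : ‖a • (y - rep d)‖ ≤ a * 2 := by
        rw [norm_smul, Real.norm_eq_abs, abs_of_pos ha0]
        gcongr
        have := norm_sub_le y (rep d)
        have h3 := norm_le_sum_abs y
        have h4 := norm_le_sum_abs (rep d)
        have := hr.1
        linarith
      have h3 : 1 / (4 * a) * ‖a • (y - rep d)‖ ≤ 1 / 2 := by
        calc _ ≤ 1 / (4 * a) * (a * 2) := by gcongr
          _ = 1 / 2 := by field_simp; norm_num
      simp only [p]
      linarith
    · intro t₂ ht
      have hv : ∀ z, v z ∈ K := by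
        intro z y
        have := hp1 y z
        have h2 := le_abs_self (inner ℝ (v z) y)
        have h3 : 0 ≤ 1 / (4 * a) * ‖y‖ := by positivity
        simp only [p]
        linarith
      have hc : ∀ z, ∃ c ∈ t₂, ∀ i, |v z i - c i| ≤ 1 := by
        intro z
        have := ht (hv z)
        simp only [Set.mem_iUnion] at this
        obtain ⟨c, hc, hz⟩ := this
        rw [Set.mem_vadd_set] at hz
        obtain ⟨w, hw, he⟩ := hz
        refine ⟨c, hc, fun i => ?_⟩
        rw [← he]
        simpa using hw i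
      choose c hc1 hc2 using hc
      rw [← card_univ, mul_comm]
      apply card_le_mul_card_image_of_maps_to (f := c) (fun z _ => hc1 z)
      intro c0 _
      rcases (univ.filter fun z => c z = c0).eq_empty_or_nonempty with h | ⟨z, hz⟩
      · rw [h]; simp
      · refine le_trans (card_le_card ?_) (hR z)
        intro z' hz'
        rw [mem_filter] at hz hz' ⊢
        refine ⟨mem_univ _, fun x => ?_⟩
        have h1 := hc2 z x
        have h2 := hc2 z' x
        rw [hz.2] at h1
        rw [hz'.2] at h2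
        have h3 : |v z' x - v z x| ≤ 2 := by
          have := abs_sub_le (v z' x) (c0 x) (v z x)
          rw [abs_sub_comm (c0 x)] at this
          linarith
        have e : v z' x - v z x = 3 / L * (f z' x - f z x) := by
          show 3 / L * f z' x - 3 / L * f z x = _
          ring
        rw [e, abs_mul, abs_of_pos (by positivity : 0 < 3 / L), div_mul_eq_mul_div,
          div_le_iff₀ hL0] at h3
        linarith

end Crest.Agent.CovDual
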