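import Crest.Agent.H7.KadBatchA
import Crest.Agent.H9.VNc
import Crest.Agent.H5.KS.Four
import Crest.Agent.H5.KS.Av
import Crest.Prelude.Def_Hochschild

/-! Row 121 (Hochschild cohomology of von Neumann algebras): definitions and interface statements. -/

set_option autoImplicit false

universe u

namespace Crest.Agent.Lead.Hc

open scoped InnerProductSpace TensorProduct
open Finset Filter Topology Crest.Agent.H5.KS Crest.OpAlg

/-! ### Banach algebra part -/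

section alg
variable {A : Type*} [NormedRing A] [NormedAlgebra ℂ A]

/-- bounded `k`-cochains -/
abbrev Co (A : Type*) [NormedRing A] [NormedAlgebra ℂ A] (k : ℕ) :=
  ContinuousMultilinearMap ℂ (fun _ : Fin k => A) A

/-- left multiplication -/
noncomputable abbrev Lm (b : A) : A →L[ℂ] A := ContinuousLinearMap.mul ℂ A b

/-- the slice in the last variable -/
noncomputable def slice {k : ℕ} (f : Co A (k + 1)) (x : Fin k → A) : A →L[ℂ] A :=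
  ContinuousMultilinearMap.curryRight (Ei := fun _ : Fin (k + 1) => A) f x

lemma slice_apply {k : ℕ} (f : Co A (k + 1)) (x : Fin k → A) (y : A) :
    slice f x y = f (Fin.snoc (α := fun _ => A) x y) := rfl

/-- projective norm at most `c` -/
def Small (c : ℝ) (t : A ⊗[ℂ] A) : Prop :=
  ∃ (ι : Type) (_ : Fintype ι) (a b : ι → A), t = ∑ i, a i ⊗ₜ[ℂ] b i ∧ ∑ i, ‖a i‖ * ‖b i‖ ≤ c

/-- a bounded approximate diagonal commuting asymptotically with the set `S` -/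
structure Diag (S : Set A) (m : ℕ → A ⊗[ℂ] A) : Prop where
  small : ∀ n, Small 1 (m n)
  one : ∀ n, LinearMap.mul' ℂ A (m n) = 1
  comm : ∀ x ∈ S, ∃ ε : ℕ → ℝ, Tendsto ε atTop (𝓝 0) ∧ ∀ n, Small (ε n)
    (TensorProduct.map (LinearMap.mulLeft ℂ x) LinearMap.id (m n) -
      TensorProduct.map LinearMap.id (LinearMap.mulRight ℂ x) (m n))

/-- bounded sequences -/
def Bdd {X : Type*} [Norm X] (v : ℕ → X) : Prop := ∃ c : ℝ, ∀ n, ‖v n‖ ≤ c

/-- a generalised limit of bounded sequences commuting with multiplications -/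
structure IsLim (L : (ℕ → A) → A) : Prop where
  add : ∀ v w, Bdd v → Bdd w → L (fun n => v n + w n) = L v + L w
  smul : ∀ (c : ℂ) v, Bdd v → L (fun n => c • v n) = c • L v
  le : ∀ v (c : ℝ), Bdd v → (∀ᶠ n in atTop, ‖v n‖ ≤ c) → ‖L v‖ ≤ c
  const : ∀ a, L (fun _ => a) = a
  left : ∀ a v, Bdd v → L (fun n => a * v n) = a * L v
  right : ∀ a v, Bdd v → L (fun n => v n * a) = L v * a

end alg

/-- (P1a) a cocycle is cohomologous to one that is multimodular over `S`. -/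
def ShiftStmt : Prop :=
  ∀ (A : Type u) [NormedRing A] [NormedAlgebra ℂ A] (k : ℕ), ∃ C : ℝ, 0 ≤ C ∧
    ∀ (L : (ℕ → A) → A), IsLim L → ∀ (S : Set A) (m : ℕ → A ⊗[ℂ] A), Diag S m →
    ∀ f : Co A (k + 1), (∀ a, hochschildDiff f a = 0) →
    ∃ (g : Co A k) (f' : Co A (k + 1)), ‖g‖ ≤ C * ‖f‖ ∧ ‖f'‖ ≤ C * ‖f‖ ∧
      (∀ a, f' a = f a - hochschildDiff g a) ∧ (∀ a, hochschildDiff f' a = 0) ∧
      (∀ s ∈ S, ∀ (x : Fin k → A) (y : A), slice f' x (y * s) = slice f' x y * s) ∧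
      ∀ s ∈ S, ∀ x x' : Fin k → A, (∀ i, x i * s = s * x' i) →
        ∀ y, slice f' x (s * y) = s * slice f' x' y

/-- (P1b) a mean on the slices of a cocycle integrates it. -/
def FinalStmt : Prop :=
  ∀ (A : Type u) [NormedRing A] [NormedAlgebra ℂ A] (k : ℕ) (f : Co A (k + 1)),
    (∀ a, hochschildDiff f a = 0) → ∀ (z : A) (Λ : (A →L[ℂ] A) →ₗ[ℂ] A) (C : ℝ), 0 ≤ C →
    (∀ b, Λ (Lm b) = b * z) →
    (∀ x b, Λ ((Lm b).comp (slice f x)) = b * Λ (slice f x)) →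
    (∀ x y, Λ ((slice f x).comp (Lm y)) = Λ (slice f x) * y) →
    (∀ x, ‖Λ (slice f x)‖ ≤ C * ∏ i, ‖x i‖) →
    ∃ g : Co A k, ‖g‖ ≤ C ∧ ∀ a, hochschildDiff g a = f a * z

/-! ### von Neumann algebra part -/

section vn
variable {H : Type*} [NormedAddCommGroup H] [InnerProductSpace ℂ H] [CompleteSpace H]

/-- the algebra as a type -/
abbrev Al (M : VonNeumannAlgebra H) := ↥M.toStarSubalgebra

/-- `∑ y y* ≤ c²` -/
def Row {ι : Type*} [Fintype ι] (y : ι → H →L[ℂ] H) (c : ℝ) : Prop :=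
  ∀ ξ : H, ∑ i, ‖star (y i) ξ‖ ^ 2 ≤ c ^ 2 * ‖ξ‖ ^ 2

/-- row contractive linear maps of `M` into itself (extended linearly to all operators) -/
structure RB (M : VonNeumannAlgebra H) (T : (H →L[ℂ] H) →ₗ[ℂ] (H →L[ℂ] H)) : Prop where
  mem : ∀ y ∈ M, T y ∈ M
  row : ∀ (ι : Type) [Fintype ι] (y : ι → H →L[ℂ] H) (c : ℝ), (∀ i, y i ∈ M) → Row y c →
    Row (fun i => T (y i)) c

/-- a finite frame for the central projection `z` -/
structure Frame (M : VonNeumannAlgebra H) (z : H →L[ℂ] H) {ι : Type} [Fintype ι]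
    (y : ι → H →L[ℂ] H) : Prop where
  mem : ∀ i, y i ∈ M
  cut : ∀ i, y i * z = y i
  sum : ∑ i, y i * star (y i) = z

/-- a finite partition of `z` into projections of `M` -/
structure Part (M : VonNeumannAlgebra H) (z : H →L[ℂ] H) {ι : Type} [Fintype ι]
    (p : ι → H →L[ℂ] H) : Prop where
  mem : ∀ i, p i ∈ M
  proj : ∀ i, IsStarProjection (p i)
  orth : ∀ i j, i ≠ j → p i * p j = 0
  sum : ∑ i, p i = z

/-- a normalised approximate trace, faithful on the centre of `M z` -/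
structure Tr (M : VonNeumannAlgebra H) (z : H →L[ℂ] H) {k : ℕ} (ζ : Fin k → H) : Prop where
  ct : CT M ζ
  cut : ∀ a, z (ζ a) = ζ a
  norm : ∑ a, ‖ζ a‖ ^ 2 ≤ 1
  faith : ∀ z', Cen M z' → z' ≠ 0 → z' * z = z' → ∃ a, z' (ζ a) ≠ 0

/-- finite frames making all row contractions approximately modular -/
def CoreAt (M : VonNeumannAlgebra H) (z : H →L[ℂ] H) {k : ℕ} (ζ : Fin k → H) : Prop :=
  ∀ F : Finset (H →L[ℂ] H), (∀ p ∈ F, p ∈ M ∧ IsStarProjection p ∧ z * p = p) → ∀ ε : ℝ, 0 < ε →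
    ∃ (ι : Type) (_ : Fintype ι) (y : ι → H →L[ℂ] H), Frame M z y ∧ ∀ T, RB M T → ∀ p ∈ F,
      ∑ a, ‖(∑ i, T (p * y i) * star (y i) - (∑ i, T (y i) * star (y i)) * p) (ζ a)‖ ^ 2 ≤ ε

/-- an invariant mean on all bounded maps, on the central part `z` -/
def MeanAt (M : VonNeumannAlgebra H) (z : H →L[ℂ] H) : Prop :=
  ∃ Λ : (Al M →L[ℂ] Al M) →ₗ[ℂ] Al M, (∀ b : Al M, (Λ (Lm b) : H →L[ℂ] H) = b * z) ∧
    ∀ T, ‖Λ T‖ ≤ 3 * ‖T‖ ∧ (∀ b, Λ ((Lm b).comp T) = b * Λ T) ∧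
      ∀ x, Λ (T.comp (Lm x)) = Λ T * x

/-- weak smallness of a map, tested against the approximate trace -/
def Near (M : VonNeumannAlgebra H) {k : ℕ} (ζ : Fin k → H) (c : ℝ)
    (S : (H →L[ℂ] H) → H →L[ℂ] H) : Prop :=
  ∀ x ∈ M, ∀ a ∈ M, ∀ v ∈ M, ‖x‖ ≤ 1 → ‖a‖ ≤ 1 → ‖v‖ ≤ 1 → ‖tr ζ (a * S x * v)‖ ≤ c

/-- pinching of a map along a partition -/
noncomputable def pin {ι : Type} [Fintype ι] (p : ι → H →L[ℂ] H)
    (T : (H →L[ℂ] H) →ₗ[ℂ] (H →L[ℂ] H)) : (H →L[ℂ] H) →ₗ[ℂ] (H →L[ℂ] H) :=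
  ∑ l, LinearMap.mulRight ℂ (p l) ∘ₗ T ∘ₗ LinearMap.mulRight ℂ (p l)

lemma pin_apply {ι : Type} [Fintype ι] (p : ι → H →L[ℂ] H)
    (T : (H →L[ℂ] H) →ₗ[ℂ] (H →L[ℂ] H)) (x : H →L[ℂ] H) :
    pin p T x = ∑ l, T (x * p l) * p l := by
  simp [pin, LinearMap.sum_apply]

/-- iterated pinching along a word -/
noncomputable def pinW {κ ι : Type} [Fintype ι] (P : κ → ι → H →L[ℂ] H) (w : List κ)
    (T : (H →L[ℂ] H) →ₗ[ℂ] (H →L[ℂ] H)) : (H →L[ℂ] H) →ₗ[ℂ] (H →L[ℂ] H) :=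
  w.foldr (fun k S => pin (P k) S) T

/-- the `N`-th root of unity with exponent `j` -/
noncomputable def ph (N : ℕ) (j : ZMod N) : ℂ :=
  Complex.exp (2 * Real.pi * Complex.I * (j.val : ℂ) / N)

/-- random diagonal unitary of the family `k` -/
noncomputable def dU {κ ι : Type} [Fintype ι] (P : κ → ι → H →L[ℂ] H) (N : ℕ)
    (θ : κ × ι → ZMod N) (k : κ) : H →L[ℂ] H := ∑ l, ph N (θ (k, l)) • P k l

/-- product of the random diagonal unitaries along a word (the same phases are reused) -/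
noncomputable def wU {κ ι : Type} [Fintype ι] (P : κ → ι → H →L[ℂ] H) (N : ℕ)
    (θ : κ × ι → ZMod N) (w : List κ) : H →L[ℂ] H := (w.map (dU P N θ)).prod

/-- contractive rectangular matrices of operators -/
def Contr {ι κ : Type} [Fintype ι] [Fintype κ] (Y : ι → κ → H →L[ℂ] H) : Prop :=
  ∀ ζ : κ → H, ∑ i, ‖∑ j, Y i j (ζ j)‖ ^ 2 ≤ ∑ j, ‖ζ j‖ ^ 2

/-- completely bounded with constant `c` -/
def CB (M : VonNeumannAlgebra H) (S : Al M → Al M) (c : ℝ) : Prop :=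
  ∀ (ι κ : Type) [Fintype ι] [Fintype κ] (Y : ι → κ → Al M),
    Contr (fun i j => (Y i j : H →L[ℂ] H)) →
    ∀ ζ : κ → H, ∑ i, ‖∑ j, (S (Y i j) : H →L[ℂ] H) (ζ j)‖ ^ 2 ≤ c ^ 2 * ∑ j, ‖ζ j‖ ^ 2

end vn

/-- (P2a) approximate diagonal for a sequence of isometries with orthogonal ranges. -/
def DiagStmt : Prop :=
  ∀ (H : Type u) [NormedAddCommGroup H] [InnerProductSpace ℂ H] [CompleteSpace H]
    (M : VonNeumannAlgebra H) (z : Al M) (t : ℕ → Al M), Cen M (z : H →L[ℂ] H) →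
    (∀ n m, star (t n) * t m = if n = m then z else 0) →
    ∃ m : ℕ → Al M ⊗[ℂ] Al M, Diag ({z} ∪ Set.range t ∪ Set.range fun n => star (t n)) m

/-- (P2b) an infinite central projection has a properly infinite central part. -/
def InfStmt : Prop :=
  ∀ (H : Type u) [NormedAddCommGroup H] [InnerProductSpace ℂ H] [CompleteSpace H]
    (M : VonNeumannAlgebra H) (z : H →L[ℂ] H), Cen M z → ¬ NS M z →
    ∃ z', Cen M z' ∧ z' ≠ 0 ∧ z' * z = z' ∧ ∃ t : ℕ → H →L[ℂ] H, (∀ n, t n ∈ M) ∧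
      ∀ n m, star (t n) * t m = if n = m then z' else 0

/-- (P3a) weak operator ultralimits. -/
def WLimStmt : Prop :=
  ∀ (H : Type u) [NormedAddCommGroup H] [InnerProductSpace ℂ H] [CompleteSpace H]
    (M : VonNeumannAlgebra H) (ι : Type u) (U : Ultrafilter ι) (a : ι → Al M) (c : ℝ),
    (∀ᶠ i in (U : Filter ι), ‖a i‖ ≤ c) → ∃ b : Al M, ‖b‖ ≤ c ∧ ∀ ξ η : H,
      Tendsto (fun i => ⟪η, (a i : H →L[ℂ] H) ξ⟫_ℂ) U (𝓝 ⟪η, (b : H →L[ℂ] H) ξ⟫_ℂ)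

/-- (P3b) a generalised limit on a von Neumann algebra. -/
def LimStmt : Prop :=
  ∀ (H : Type u) [NormedAddCommGroup H] [InnerProductSpace ℂ H] [CompleteSpace H]
    (M : VonNeumannAlgebra H), ∃ L : (ℕ → Al M) → Al M, IsLim L

/-- (P3c) the invariant mean on completely bounded maps. -/
def CSStmt : Prop :=
  ∀ (H : Type u) [NormedAddCommGroup H] [InnerProductSpace ℂ H] [CompleteSpace H]
    (M : VonNeumannAlgebra H), ∃ Λ : (Al M →L[ℂ] Al M) →ₗ[ℂ] Al M, (∀ b, Λ (Lm b) = b) ∧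
    ∀ (T : Al M →L[ℂ] Al M) (c : ℝ), 0 ≤ c → CB M T c →
      ‖Λ T‖ ≤ c ∧ (∀ b, Λ ((Lm b).comp T) = b * Λ T) ∧ ∀ x, Λ (T.comp (Lm x)) = Λ T * x

/-- (P4a) the (global) Dixmier property in a corner. -/
def DixStmt : Prop :=
  ∀ (H : Type u) [NormedAddCommGroup H] [InnerProductSpace ℂ H] [CompleteSpace H]
    (M : VonNeumannAlgebra H) (g : H →L[ℂ] H) (S : Finset (H →L[ℂ] H)) (ε : ℝ),
    g ∈ M → IsStarProjection g → (∀ a ∈ S, a ∈ M ∧ IsSelfAdjoint a) → 0 < ε →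
    ∃ (Ω : Type) (_ : Fintype Ω) (_ : Nonempty Ω) (v : Ω → H →L[ℂ] H),
      (∀ t, H7.Batch.CU M g (v t)) ∧ ∀ a ∈ S, ∃ c ∈ M, IsSelfAdjoint c ∧
        (∀ x ∈ M, c * x = x * c) ∧ ‖H7.Batch.TT v a - c * g‖ ≤ ε

/-- (P4b) from approximately modular frames to the mean. -/
def MeanStmt : Prop :=
  ∀ (H : Type u) [NormedAddCommGroup H] [InnerProductSpace ℂ H] [CompleteSpace H]
    (M : VonNeumannAlgebra H) (z : H →L[ℂ] H) (k : ℕ) (ζ : Fin k → H),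
    Cen M z → Tr M z ζ → CoreAt M z ζ → MeanAt M z

/-- (P5) decoupling of repeated phases along a flat word. -/
def DecStmt : Prop :=
  ∀ (n : ℕ) (ε : ℝ), 0 < ε → ∃ η : ℝ, 0 < η ∧
    ∀ (H : Type u) [NormedAddCommGroup H] [InnerProductSpace ℂ H] [CompleteSpace H]
      (M : VonNeumannAlgebra H) (z : H →L[ℂ] H) (k : ℕ) (ζ : Fin k → H)
      (κ ι : Type) [Fintype κ] [DecidableEq κ] [Fintype ι] [DecidableEq ι]
      (P : κ → ι → H →L[ℂ] H) (bad : κ → Finset ι) (N : ℕ) [NeZero N] (w : List κ),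
      Cen M z → Tr M z ζ → (∀ j, Part M z (P j)) → n < N → w.length ≤ n →
      w.IsChain (fun j j' => ∀ l ∉ bad j, ∀ l' ∉ bad j', ‖P j l * P j' l'‖ ≤ η) →
      (∀ j, ∑ a, ‖(∑ l ∈ bad j, P j l) (ζ a)‖ ^ 2 ≤ η) →
      ∀ T, RB M T → Near M ζ ε fun x =>
        av (fun θ : κ × ι → ZMod N => T (x * wU P N θ w) * star (wU P N θ w)) - pinW P w T x

/-- (P6a) the averages along positive and negative powers of a unitary agree. -/
def ArcStmt : Prop :=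
  ∀ ε : ℝ, 0 < ε → ∃ (K : ℕ) (w : ℕ → ℝ), (∀ n, 0 ≤ w n) ∧ ∑ n ∈ range K, w n = 1 ∧
    ∀ (H : Type u) [NormedAddCommGroup H] [InnerProductSpace ℂ H] [CompleteSpace H]
      (M : VonNeumannAlgebra H) (z : H →L[ℂ] H) (k : ℕ) (ζ : Fin k → H) (c : H →L[ℂ] H),
      Cen M z → Tr M z ζ → H7.Batch.CU M z c → ∀ T, RB M T → Near M ζ ε fun x =>
        ∑ n ∈ range K, w n • (T (x * c ^ (n + 1)) * star c ^ (n + 1) -
          T (x * star c ^ (n + 1)) * c ^ (n + 1))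

/-- (P7) flat partitions. -/
def FlatStmt : Prop :=
  ∀ (H : Type u) [NormedAddCommGroup H] [InnerProductSpace ℂ H] [CompleteSpace H]
    (M : VonNeumannAlgebra H) (z : H →L[ℂ] H) (k : ℕ) (ζ : Fin k → H) (m : ℕ)
    (π : Fin m → H →L[ℂ] H) (η : ℝ), Cen M z → H9.VN.NoAb M z → Tr M z ζ →
    (∀ i, π i ∈ M ∧ IsStarProjection (π i) ∧ z * π i = π i) → 0 < η →
    ∃ (ι : Type) (_ : Fintype ι) (_ : DecidableEq ι) (q : Fin m → ι → H →L[ℂ] H)
      (e : ι → H →L[ℂ] H) (bad : Finset ι), (∀ i, Part M z (q i)) ∧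
      (∀ i l, π i * q i l = q i l ∨ π i * q i l = 0) ∧ Part M z e ∧
      (∀ j ∉ bad, ∀ i l, ‖e j * q i l‖ ≤ η) ∧ ∑ a, ‖(∑ j ∈ bad, e j) (ζ a)‖ ^ 2 ≤ η

/-- (P6b) the type II₁ core. -/
def CoreIIStmt : Prop :=
  ∀ (H : Type u) [NormedAddCommGroup H] [InnerProductSpace ℂ H] [CompleteSpace H]
    (M : VonNeumannAlgebra H) (z : H →L[ℂ] H) (k : ℕ) (ζ : Fin k → H),
    Cen M z → H9.VN.NoAb M z → Tr M z ζ → CoreAt M z ζ

/-- (P8a) the finite type I core. -/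
def CoreIStmt : Prop :=
  ∀ (H : Type u) [NormedAddCommGroup H] [InnerProductSpace ℂ H] [CompleteSpace H]
    (M : VonNeumannAlgebra H) (z r : H →L[ℂ] H) (k : ℕ) (ζ : Fin k → H)
    (ι : Type) [Fintype ι] (v : ι → H →L[ℂ] H), Cen M z → H9.VN.Ab M r → Frame M z v →
    (∀ i, v i * r = v i) → ∑ a, ‖ζ a‖ ^ 2 ≤ 1 → CoreAt M z ζ

/-- (P8b) the local statement. -/
def LocalStmt : Prop :=
  ∀ (H : Type u) [NormedAddCommGroup H] [InnerProductSpace ℂ H] [CompleteSpace H]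
    (M : VonNeumannAlgebra H) (k : ℕ) (f : Co (Al M) (k + 1)), (∀ a, hochschildDiff f a = 0) →
    ∃ C : ℝ, ∀ z, Cen M z → z ≠ 0 → ∃ z', Cen M z' ∧ z' ≠ 0 ∧ z' * z = z' ∧
      ∃ g : Co (Al M) k, ‖g‖ ≤ C ∧
        ∀ a, ((hochschildDiff g a - f a : Al M) : H →L[ℂ] H) * z' = 0

end Crest.Agent.Lead.Hc
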