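import Crest.Agent.Lead.P3I

/-! Row 40, piece P3: small lemmas for the two-colour labels case. -/

set_option autoImplicit false

namespace Crest.Agent.Lead.P3
open MeasureTheory Metric Set Filter Topology
open Crest.Agent.H2.Gm

lemma norm_e (t : ℝ) : ‖e t‖ = 1 := by simp [e]

lemma e_add (s t : ℝ) : e (s + t) = e s * e t := by
  simp only [e]; rw [← Complex.exp_add]; congr 1; push_cast; ring

lemma e_pi : e Real.pi = -1 := by simp [e]

lemma e_lip (s t : ℝ) : ‖e s - e t‖ ≤ |s - t| := by
  have h : e s - e t = e t * (e (s - t) - 1) := by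
    rw [mul_sub, ← e_add]; simp
  rw [h, norm_mul, norm_e, one_mul]
  have := Real.norm_exp_I_mul_ofReal_sub_one_le (x := s - t)
  simpa [e, mul_comm] using this

lemma e_third (s : ℝ) : e s + e (s + 2 * Real.pi / 3) = e (s + Real.pi / 3) := by
  have h1 : e s = e (s + Real.pi / 3) * e (-(Real.pi / 3)) := by rw [← e_add]; congr 1; ring
  have h2 : e (s + 2 * Real.pi / 3) = e (s + Real.pi / 3) * e (Real.pi / 3) := by
    rw [← e_add]; congr 1; ring
  have h3 : e (-(Real.pi / 3)) + e (Real.pi / 3) = 1 := by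
    simp only [e]
    rw [Complex.exp_mul_I, Complex.exp_mul_I, ← Complex.ofReal_cos, ← Complex.ofReal_cos,
      ← Complex.ofReal_sin, ← Complex.ofReal_sin, Real.cos_neg, Real.sin_neg, Real.cos_pi_div_three]
    push_cast; ring
  rw [h1, h2, ← mul_add, h3, mul_one]

lemma sin_third : |Real.sin (2 * Real.pi / 3)| = Real.sqrt 3 / 2 := by
  have : 2 * Real.pi / 3 = Real.pi - Real.pi / 3 := by ring
  rw [this, Real.sin_pi_sub, Real.sin_pi_div_three, abs_of_nonneg (by positivity)]

lemma sqrt3_lb : (17 / 10 : ℝ) ≤ Real.sqrt 3 := Real.le_sqrt_of_sq_le (by norm_num)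

lemma Dens.exists_near {S : Set ℝ} {a : ℝ} (h : Dens S a) {p : ℝ → Prop} (hp : ∀ᵐ s : ℝ, p s)
    {η : ℝ} (hη : 0 < η) : ∃ s ∈ S, p s ∧ |s - a| < η := by
  obtain ⟨r, h1, h2⟩ := ((h 1 one_pos).and (Ioo_mem_nhdsGT hη)).exists
  by_contra hc
  have : volume (Icc (a - r) (a + r)) ≤ volume (Icc (a - r) (a + r) \ S) := by
    refine measure_mono_ae ?_
    filter_upwards [hp] with s hs hs2
    refine ⟨hs2, fun hS => hc ⟨s, hS, hs, ?_⟩⟩
    rw [abs_lt]; constructor <;> linarith [hs2.1, hs2.2, h2.2]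
  have := this.trans h1
  rw [Real.volume_Icc, ENNReal.ofReal_le_ofReal_iff (by linarith [h2.1])] at this
  linarith [h2.1]

/-- Lebesgue density in the plane -/
lemma ae_d0 {S : Set ℂ} (hS : MeasurableSet S) : ∀ᵐ y : ℂ, y ∈ S → D0 Sᶜ y := by
  filter_upwards [Besicovitch.ae_tendsto_measure_inter_div_of_measurableSet volume hS] with y hy hyS
  rw [indicator_of_mem hyS, Pi.one_apply] at hy
  intro ε hε
  have h1 := (ENNReal.tendsto_toReal ENNReal.one_ne_top).comp hy
  have h2 := h1.eventually (lt_mem_nhds (show (1 - ε / Real.pi : ℝ) < ENNReal.toReal 1 by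
    simpa using div_pos hε Real.pi_pos))
  filter_upwards [h2, self_mem_nhdsWithin] with r hr hr0
  have hr0' : 0 < r := hr0
  have hv : volume.real (closedBall y r) = Real.pi * r ^ 2 := by
    rw [measureReal_def, Complex.volume_closedBall]
    simp [ENNReal.toReal_ofReal hr0'.le, mul_comm]
  simp only [Function.comp, ENNReal.toReal_div] at hr
  rw [← measureReal_def, ← measureReal_def, hv, lt_div_iff₀ (by positivity), inter_comm] at hr
  have h3 := measureReal_inter_add_sdiff (μ := volume) (s := closedBall y r) hS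
    measure_closedBall_lt_top.ne
  rw [hv] at h3
  have h4 : (1 - ε / Real.pi) * (Real.pi * r ^ 2) = Real.pi * r ^ 2 - ε * r ^ 2 := by
    field_simp
  refine (measure_mono (t := closedBall y r \ S) fun z hz =>
    ⟨ball_subset_closedBall hz.2, hz.1⟩).trans ?_
  rw [← ofReal_measureReal ((measure_mono sdiff_subset).trans_lt measure_closedBall_lt_top).ne]
  exact ENNReal.ofReal_le_ofReal (by linarith)

/-- a good cell with several frequent colours gives a circle avoiding them -/
lemma good_point (hB : BasicStmt) (C : Col) {R c κ ε η : ℝ} {y : ℂ} (hR : 1 ≤ R) (hε : 0 < ε)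
    (hη : 0 < η) (hκ0 : 0 ≤ κ) (hκ : κ ≤ η / 2) (hg : Good C R c κ ε y) (J : Finset (Fin 5))
    (hJ : ∀ j ∈ J, ENNReal.ofReal (c * ε ^ 2) ≤ volume (C.A j ∩ ball y (R * ε))) :
    ∃ u, dist u y < R * ε ∧ Full C u ∧ ∀ j ∈ J, circ (C.A j) u < ENNReal.ofReal η := by
  by_contra hc
  push Not at hc
  have h1 : volume (ball y (R * ε)) ≤
      volume (⋃ j ∈ J, ({u | ENNReal.ofReal η ≤ circ (C.A j) u} ∩ ball y (R * ε))) := by
    refine measure_mono_ae ?_
    filter_upwards [hB.2.2.1 C] with u hu hb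
    obtain ⟨j, hj, h⟩ := hc u hb hu
    exact mem_biUnion hj ⟨h, hb⟩
  have h2 : ∀ j ∈ J, volume ({u | ENNReal.ofReal η ≤ circ (C.A j) u} ∩ ball y (R * ε)) ≤
      ENNReal.ofReal (ε ^ 2 / 2) := by
    intro j hj
    have hm := hB.2.2.2.1 _ (C.meas j)
    have h3 := meas_ge_le_lintegral_div (μ := volume.restrict (ball y (R * ε))) hm.aemeasurable
      (ε := ENNReal.ofReal η) (by simpa using hη) ENNReal.ofReal_ne_top
    rw [Measure.restrict_apply (measurableSet_le measurable_const hm)] at h3
    refine h3.trans ((ENNReal.div_le_div_right (hg j (hJ j hj)) _).trans ?_)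
    rw [← ENNReal.ofReal_div_of_pos hη]
    refine ENNReal.ofReal_le_ofReal ?_
    rw [div_le_iff₀ hη]; nlinarith [pow_pos hε 2]
  have h3 := h1.trans ((measure_biUnion_finset_le _ _).trans (Finset.sum_le_sum h2))
  rw [vol_ball _ (by positivity), ← ENNReal.ofReal_sum_of_nonneg (fun _ _ => by positivity),
    ENNReal.ofReal_le_ofReal_iff (Finset.sum_nonneg fun _ _ => by positivity),
    Finset.sum_const, nsmul_eq_mul] at h3
  have hc5 : (J.card : ℝ) ≤ 5 := by
    have := J.card_le_univ
    simp only [Fintype.card_fin] at this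
    exact_mod_cast this
  have h4 : ε ^ 2 ≤ (R * ε) ^ 2 := by
    have : ε ≤ R * ε := by nlinarith
    gcongr
  nlinarith [Real.pi_gt_three, pow_pos hε 2]

lemma meas_Lb (C : Col) (ε : ℝ) (k : Fin 5) : MeasurableSet {y | Lb C ε y k} := by
  have hm : MeasurableSet {q : ℂ × ℂ | q.2 ∈ C.A k ∧ dist q.2 q.1 < ε} :=
    (measurable_snd (C.meas k)).inter
      (measurableSet_lt (f := fun q : ℂ × ℂ => dist q.2 q.1) (by fun_prop) measurable_const)
  have := measurable_measure_prodMk_left (ν := (volume : Measure ℂ)) hm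
  exact measurableSet_le measurable_const this

/-- points of colour `k` are eventually labelled `k` -/
lemma mislabel (C : Col) (k : Fin 5) (z : ℂ) {γ : ℝ} (hγ : 0 < γ) :
    ∀ᶠ n : ℕ in atTop,
      volume {y | y ∈ C.A k ∧ y ∈ ball z 1 ∧ ¬ Lb C (1 / ((n : ℝ) + 1)) y k} ≤ ENNReal.ofReal γ := by
  set N : ℕ → Set ℂ := fun n => {y | y ∈ C.A k ∧ y ∈ ball z 1 ∧ ¬ Lb C (1 / ((n : ℝ) + 1)) y k}
  have hN : ∀ n, MeasurableSet (N n) := fun n =>
    (C.meas k).inter (measurableSet_ball.inter (meas_Lb C _ k).compl)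
  set N' : ℕ → Set ℂ := fun n => ⋃ m ∈ Ici n, N m
  have hanti : Antitone N' := fun a b hab => biUnion_subset_biUnion_left (Ici_subset_Ici.2 hab)
  have hfin : volume (N' 0) ≠ ⊤ := by
    refine ((measure_mono (t := ball z 1) ?_).trans_lt measure_ball_lt_top).ne
    intro y hy
    obtain ⟨m, -, hm⟩ := mem_iUnion₂.1 hy
    exact hm.2.1
  have ht := tendsto_measure_iInter_atTop (μ := volume) (s := N')
    (fun n => (MeasurableSet.biUnion (to_countable _) fun m _ => hN m).nullMeasurableSet) hanti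
    ⟨0, hfin⟩
  have hseq : Tendsto (fun n : ℕ => 1 / ((n : ℝ) + 1)) atTop (𝓝[>] 0) :=
    tendsto_nhdsWithin_iff.2 ⟨tendsto_one_div_add_atTop_nhds_zero_nat,
      Eventually.of_forall fun n => by simp only [mem_Ioi]; positivity⟩
  have hemp : ⋂ n, N' n = ∅ := by
    refine eq_empty_of_forall_notMem fun y hy => ?_
    have hyA : y ∈ C.A k := by
      obtain ⟨m, -, hm⟩ := mem_iUnion₂.1 (mem_iInter.1 hy 0)
      exact hm.1
    obtain ⟨n, hn⟩ := eventually_atTop.1 (hseq.eventually (C.d0_compl hyA 1 one_pos))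
    obtain ⟨m, hm1, hm⟩ := mem_iUnion₂.1 (mem_iInter.1 hy n)
    refine hm.2.2 ?_
    have h1 := hn m hm1
    set ρ : ℝ := 1 / ((m : ℝ) + 1)
    have hρ : 0 < ρ := by positivity
    unfold Lb
    by_contra hlt
    have h2 : volume (ball y ρ) ≤ volume (C.A k ∩ ball y ρ) + volume ((C.A k)ᶜ ∩ ball y ρ) := by
      refine le_trans (measure_mono ?_) (measure_union_le _ _)
      intro w hw
      by_cases h : w ∈ C.A k
      · exact Or.inl ⟨h, hw⟩
      · exact Or.inr ⟨h, hw⟩
    have h3 := h2.trans (add_le_add (not_le.1 hlt).le h1)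
    rw [vol_ball _ hρ.le, ← ENNReal.ofReal_add (by positivity) (by positivity),
      ENNReal.ofReal_le_ofReal_iff (by positivity)] at h3
    nlinarith [Real.pi_gt_three, pow_pos hρ 2]
  rw [hemp, measure_empty] at ht
  filter_upwards [ht.eventually (ge_mem_nhds (show (0 : ENNReal) < ENNReal.ofReal γ by
    simpa using hγ))] with n hn
  exact (measure_mono (subset_biUnion_of_mem (u := N) (mem_Ici.2 le_rfl))).trans hn

/-- closure under small steps on an interval -/
lemma steps {a b ε : ℝ} (hε : 0 < ε) {Q : ℝ → Prop} (ha : Q a)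
    (h : ∀ s ∈ uIcc a b, ∀ t ∈ uIcc a b, |s - t| ≤ ε → Q s → Q t) : Q b := by
  have key : ∀ n : ℕ, ∀ t ∈ uIcc a b, |t - a| ≤ n * ε → Q t := by
    intro n
    induction n with
    | zero =>
      intro t _ ht
      have : t = a := by simpa [sub_eq_zero] using ht
      exact this ▸ ha
    | succ n ih =>
      intro t ht hta
      by_cases h1 : |t - a| ≤ n * ε
      · exact ih t ht h1
      · push Not at h1
        push_cast at hta
        have hn : 0 ≤ (n : ℝ) * ε := by positivity
        rcases le_total a t with hat | hat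
        · rw [abs_of_nonneg (by linarith)] at h1 hta
          have hm : a + n * ε ∈ uIcc a b :=
            (uIcc_subset_uIcc_left ht) (by rw [uIcc_of_le hat]; constructor <;> linarith)
          refine h _ hm t ht ?_ (ih _ hm ?_)
          · rw [abs_le]; constructor <;> linarith
          · rw [abs_le]; constructor <;> linarith
        · rw [abs_of_nonpos (by linarith)] at h1 hta
          have hm : a - n * ε ∈ uIcc a b :=
            (uIcc_subset_uIcc_left ht) (by rw [uIcc_of_ge hat]; constructor <;> linarith)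
          refine h _ hm t ht ?_ (ih _ hm ?_)
          · rw [abs_le]; constructor <;> linarith
          · rw [abs_le]; constructor <;> linarith
  obtain ⟨n, hn⟩ := exists_nat_ge (|b - a| / ε)
  exact key n b right_mem_uIcc (by rwa [div_le_iff₀ hε] at hn)

end Crest.Agent.Lead.P3
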