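import Crest.Agent.Lead.P3A

/-! Row 40, piece P3: geometric lemmas for the two-colour labels case. -/

set_option autoImplicit false

namespace Crest.Agent.Lead.P3
open MeasureTheory Metric Set Filter Topology
open Crest.Agent.H2.Gm

/-- the forbidden colour, in the form used near the unit circle -/
lemma Lab.not_mem {C : Col} {x : ℂ} (P : Lab C x) {j : Fin 5} {s t a : ℝ} {y : ℂ}
    (hy : y - x = e s + e t) (hn : ‖y - x - e a‖ < 1) (hyA : y ∈ C.A j) : s ∉ P.S j := by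
  intro hs
  have h1 : dist y (x + e s) = 1 := by
    rw [dist_eq_norm, show y - (x + e s) = e t by linear_combination hy, norm_e]
  rcases P.L3 j s hs y hyA h1 with h | h
  · rw [h] at hn; simp [norm_e] at hn
  · have h2 : ‖(2 : ℂ) * e s‖ ≤ ‖2 * e s - e a‖ + ‖e a‖ := by
      simpa using norm_add_le (2 * e s - e a) (e a)
    rw [h, show x + 2 * e s - x - e a = 2 * e s - e a by ring] at hn
    rw [norm_mul, norm_e, norm_e] at h2
    simp at h2; linarith

lemma tendsto_mul_pos {k : ℝ} (hk : 0 < k) : Tendsto (fun r : ℝ => k * r) (𝓝[>] 0) (𝓝[>] 0) := by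
  refine tendsto_nhdsWithin_iff.2 ⟨?_, ?_⟩
  · have : Tendsto (fun r : ℝ => k * r) (𝓝 0) (𝓝 (k * 0)) := tendsto_id.const_mul k
    rw [mul_zero] at this
    exact this.mono_left nhdsWithin_le_nhds
  · filter_upwards [self_mem_nhdsWithin] with r hr using mul_pos hk hr

lemma few_colour (hB : BasicStmt) (hG : GeoStmt) {C : Col} {x : ℂ} (P : Lab C x) {k : Fin 5}
    {α : ℝ} (hα : Dens (P.S k) α) : ∀ᶠ r : ℝ in 𝓝[>] 0, ∀ w, dist w x ≤ r →
      volume {θ | θ ∈ Icc (α + Real.pi / 3 - r) (α + Real.pi / 3 + r) ∧ w + e θ ∈ C.A k} ≤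
        ENNReal.ofReal (r / 10) := by
  obtain ⟨L, hL, r₀, hr₀, H⟩ := hG.2 (1 / 2) (by norm_num)
  have hL0 : 0 < L := by linarith
  have hs1 : 1 / 2 ≤ |Real.sin (α - (α + 2 * Real.pi / 3))| := by
    rw [show α - (α + 2 * Real.pi / 3) = -(2 * Real.pi / 3) by ring, Real.sin_neg, abs_neg,
      sin_third]
    linarith [sqrt3_lb]
  have hs2 : 1 / 2 ≤ |Real.sin (α + Real.pi / 3 - (α + 2 * Real.pi / 3 + Real.pi))| := by
    rw [show α + Real.pi / 3 - (α + 2 * Real.pi / 3 + Real.pi) = 2 * Real.pi / 3 - 2 * Real.pi by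
      ring, Real.sin_sub_two_pi, sin_third]
    linarith [sqrt3_lb]
  have e1 := (tendsto_mul_pos (k := 2 * L) (by positivity)).eventually
    (hα (1 / (20 * L ^ 2)) (by positivity))
  have e2 : ∀ᶠ r : ℝ in 𝓝[>] 0, r ∈ Ioo 0 (min (r₀ / (2 * L)) (1 / 4)) :=
    Ioo_mem_nhdsGT (by positivity)
  filter_upwards [e1, e2] with r h1 h2 w hw
  have hr : 0 < r := h2.1
  have hr1 : 2 * L * r ≤ r₀ := by
    have := (lt_min_iff.1 h2.2).1
    rw [lt_div_iff₀ (by positivity)] at this; linarith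
  have hr2 : r < 1 / 4 := (lt_min_iff.1 h2.2).2
  have hr3 : 2 * r ≤ r₀ := by nlinarith
  set R : ℝ → ℝ → Prop := fun θ s => |θ - (α + Real.pi / 3)| ≤ r₀ ∧
    ∃ t, |t - (α + 2 * Real.pi / 3)| ≤ r₀ ∧ w - x + e θ = e s + e t
  have hR : ∀ t₁ u₁ t₂ u₂, R t₁ u₁ → R t₂ u₂ → |t₁ - t₂| ≤ L * |u₁ - u₂| := by
    rintro θ₁ s₁ θ₂ s₂ ⟨a1, t₁, b1, c1⟩ ⟨a2, t₂, b2, c2⟩
    have := ((H _ _ hs2).1 θ₁ (t₁ + Real.pi) θ₂ (t₂ + Real.pi) a1
      (by rwa [show t₁ + Real.pi - (α + 2 * Real.pi / 3 + Real.pi) =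
        t₁ - (α + 2 * Real.pi / 3) by ring]) a2
      (by rwa [show t₂ + Real.pi - (α + 2 * Real.pi / 3 + Real.pi) =
        t₂ - (α + 2 * Real.pi / 3) by ring])).1
    rw [show e θ₁ + e (t₁ + Real.pi) - (e θ₂ + e (t₂ + Real.pi)) = e s₁ - e s₂ by
      rw [e_add, e_add, e_pi]; linear_combination c1 - c2] at this
    exact this.trans (mul_le_mul_of_nonneg_left (e_lip _ _) hL0.le)
  refine le_trans (measure_mono ?_) ((hB.2.1 R L
    (Icc (α - 2 * L * r) (α + 2 * L * r) \ P.S k) hL0.le hR).trans ?_)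
  · rintro θ ⟨hθ, hA⟩
    have hθ' : |θ - (α + Real.pi / 3)| ≤ r := by
      rw [abs_le]; constructor <;> linarith [hθ.1, hθ.2]
    have hq : ‖w - x + e θ - (e α + e (α + 2 * Real.pi / 3))‖ ≤ 2 * r := by
      rw [e_third, add_sub_assoc]
      refine (norm_add_le _ _).trans ?_
      rw [dist_eq_norm] at hw
      linarith [e_lip θ (α + Real.pi / 3)]
    obtain ⟨s, t, h3, h4, h5⟩ := (H _ _ hs1).2.1 _ (hq.trans hr3)
    have h6 : L * ‖w - x + e θ - (e α + e (α + 2 * Real.pi / 3))‖ ≤ 2 * L * r := by nlinarith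
    refine ⟨s, ⟨?_, ?_⟩, by linarith, t, by linarith, h3⟩
    · have := abs_le.1 (h4.trans h6)
      constructor <;> linarith [this.1, this.2]
    · refine P.not_mem (t := t) (a := α + Real.pi / 3) (by linear_combination h3) ?_ hA
      rw [e_third] at hq
      rw [show w + e θ - x - e (α + Real.pi / 3) = w - x + e θ - e (α + Real.pi / 3) by ring]
      linarith
  · refine (mul_le_mul_right h1 _).trans ?_
    rw [← ENNReal.ofReal_mul hL0.le]
    refine ENNReal.ofReal_le_ofReal (le_of_eq ?_)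
    field_simp; ring

lemma vol_shift (x : ℂ) (S : Set ℂ) : volume ((fun q => x + q) '' S) = volume S := by
  rw [image_add_left, measure_preimage_add]

lemma abs_sin_lb {s t s' t' : ℝ} (h : |Real.sin (s - t)| = Real.sqrt 3 / 2) (h1 : |s' - s| ≤ 1 / 10)
    (h2 : |t' - t| ≤ 1 / 10) : 1 / 2 ≤ |Real.sin (s' - t')| := by
  have h3 := Real.abs_sin_sub_sin_le (s - t) (s' - t')
  have h4 : |s - t - (s' - t')| ≤ 1 / 5 := by
    rw [abs_le] at h1 h2 ⊢; constructor <;> linarith [h1.1, h1.2, h2.1, h2.2]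
  have h5 := abs_sub_abs_le_abs_sub (Real.sin (s - t)) (Real.sin (s' - t'))
  linarith [sqrt3_lb]

/-- a cell containing both label colours contains a third colour -/
lemma third (hG : GeoStmt) {C : Col} {x : ℂ} (P : Lab C x) {d f : Fin 5} (s₁ : ℝ)
    (hae : ∀ᵐ s : ℝ, s ∈ P.S d ∨ s ∈ P.S f) :
    ∃ R ≥ 2, ∃ c > 0, c ≤ Real.pi / 5 ∧ ∃ ρ₀ > 0, ∀ ε > 0, ε < ρ₀ → ∀ y,
      dist y (x + e (s₁ + Real.pi / 3)) ≤ ρ₀ →
      ENNReal.ofReal (Real.pi / 5 * ε ^ 2) ≤ volume (C.A d ∩ ball y (2 * ε)) →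
      ENNReal.ofReal (Real.pi / 5 * ε ^ 2) ≤ volume (C.A f ∩ ball y (2 * ε)) →
      ∃ p, p ≠ d ∧ p ≠ f ∧ ENNReal.ofReal (c * ε ^ 2) ≤ volume (C.A p ∩ ball y (R * ε)) := by
  obtain ⟨L, hL, r₀, hr₀, H⟩ := hG.2 (1 / 2) (by norm_num)
  have hL0 : 0 < L := by linarith
  have hs0 : |Real.sin (s₁ - (s₁ + 2 * Real.pi / 3))| = Real.sqrt 3 / 2 := by
    rw [show s₁ - (s₁ + 2 * Real.pi / 3) = -(2 * Real.pi / 3) by ring, Real.sin_neg, abs_neg,
      sin_third]
  have hs1 : 1 / 2 ≤ |Real.sin (s₁ - (s₁ + 2 * Real.pi / 3))| := by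
    rw [hs0]; linarith [sqrt3_lb]
  refine ⟨4 * L + 1, by linarith, 1 / (1000 * L ^ 2), by positivity, ?_,
    min (r₀ / (2 * L)) (1 / (10 * L)), by positivity, fun ε hε hε1 y hy hd hf => ?_⟩
  · rw [div_le_iff₀ (by positivity)]
    nlinarith [Real.pi_gt_three, mul_pos Real.pi_pos (sq_pos_of_pos hL0)]
  set ρ := min (r₀ / (2 * L)) (1 / (10 * L))
  have hρ1 : 2 * L * ρ ≤ r₀ := by
    have : ρ ≤ r₀ / (2 * L) := min_le_left _ _
    rw [le_div_iff₀ (by positivity)] at this; linarith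
  have hρ2 : L * ρ ≤ 1 / 10 := by
    have : ρ ≤ 1 / (10 * L) := min_le_right _ _
    rw [le_div_iff₀ (by positivity)] at this; linarith
  have hρ0 : 0 < ρ := by positivity
  have hy' : ‖y - x - e (s₁ + Real.pi / 3)‖ ≤ ρ := by
    rwa [dist_eq_norm, ← sub_sub] at hy
  obtain ⟨s, t, hst, h1, h2⟩ := (H _ _ hs1).2.1 (y - x) (by rw [e_third]; nlinarith)
  rw [e_third] at h1 h2
  have hs2 : 1 / 2 ≤ |Real.sin (s - t)| :=
    abs_sin_lb hs0 (h1.trans (by nlinarith)) (h2.trans (by nlinarith))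
  obtain ⟨-, Hs, Hl⟩ := H _ _ hs2
  have hε2 : 2 * L * ε ≤ r₀ := by nlinarith
  have hε3 : L * ε ≤ 1 / 10 := by nlinarith
  have hε4 : ε ≤ 1 / 10 := by nlinarith
  set Is := Icc (s - 2 * L * ε) (s + 2 * L * ε)
  set It := Icc (t - 2 * L * ε) (t + 2 * L * ε)
  have vIs : volume Is = ENNReal.ofReal (4 * L * ε) := by
    rw [Real.volume_Icc]; congr 1; ring
  have vIt : volume It = ENNReal.ofReal (4 * L * ε) := by
    rw [Real.volume_Icc]; congr 1; ring
  have split : ∀ y' ∈ ball y (2 * ε), ∃ s' ∈ Is, ∃ t' ∈ It, y' - x = e s' + e t' ∧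
      ‖y' - x - e (s₁ + Real.pi / 3)‖ < 1 := by
    intro y' hy1
    rw [mem_ball, dist_eq_norm] at hy1
    have h3 : ‖y' - x - (e s + e t)‖ < 2 * ε := by
      rwa [← hst, show y' - x - (y - x) = y' - y by ring]
    obtain ⟨s', t', h4, h5, h6⟩ := Hs (y' - x) (by nlinarith)
    have h7 : L * ‖y' - x - (e s + e t)‖ ≤ 2 * L * ε := by nlinarith
    have h8 := abs_le.1 (h5.trans h7)
    have h9 := abs_le.1 (h6.trans h7)
    refine ⟨s', ⟨by linarith [h8.1], by linarith [h8.2]⟩, t',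
      ⟨by linarith [h9.1], by linarith [h9.2]⟩, h4, ?_⟩
    have := norm_add_le (y' - y) (y - x - e (s₁ + Real.pi / 3))
    rw [show y' - y + (y - x - e (s₁ + Real.pi / 3)) = y' - x - e (s₁ + Real.pi / 3) by ring] at this
    nlinarith
  have div_le : ∀ v : ENNReal, ENNReal.ofReal (Real.pi / 5 * ε ^ 2) ≤
      v * ENNReal.ofReal (4 * L * ε) → ENNReal.ofReal (ε / (7 * L)) ≤ v := by
    intro v hv
    by_contra hc
    have h3 := hv.trans (mul_le_mul_left (not_le.1 hc).le _)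
    rw [← ENNReal.ofReal_mul (by positivity), ENNReal.ofReal_le_ofReal_iff (by positivity)] at h3
    have h4 : ε / (7 * L) * (4 * L * ε) = 4 / 7 * ε ^ 2 := by field_simp
    nlinarith [Real.pi_gt_three, pow_pos hε 2]
  have v1 : ENNReal.ofReal (ε / (7 * L)) ≤ volume (Is ∩ P.S f) := by
    refine div_le _ (hd.trans ?_)
    have h3 : C.A d ∩ ball y (2 * ε) ⊆ (fun q => x + q) '' (Xi '' ((Is \ P.S d) ×ˢ It)) := by
      rintro y' ⟨hA, hb⟩
      obtain ⟨s', a1, t', a2, a3, a4⟩ := split y' hb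
      exact ⟨_, ⟨(s', t'), ⟨⟨a1, P.not_mem a3 a4 hA⟩, a2⟩, rfl⟩, by
        simp only [Xi]; linear_combination -a3⟩
    refine (measure_mono h3).trans ?_
    rw [vol_shift]
    refine (hG.1 _ ((measurableSet_Icc.diff (P.meas d)).prod measurableSet_Icc)).trans ?_
    rw [Measure.volume_eq_prod, Measure.prod_prod, vIt]
    refine mul_le_mul_left (measure_mono_ae ?_) _
    filter_upwards [hae] with u hu hu2 using ⟨hu2.1, hu.resolve_left hu2.2⟩
  have v2 : ENNReal.ofReal (ε / (7 * L)) ≤ volume (It ∩ P.S d) := by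
    refine div_le _ (hf.trans ?_)
    have h3 : C.A f ∩ ball y (2 * ε) ⊆ (fun q => x + q) '' (Xi '' (Is ×ˢ (It \ P.S f))) := by
      rintro y' ⟨hA, hb⟩
      obtain ⟨s', a1, t', a2, a3, a4⟩ := split y' hb
      exact ⟨_, ⟨(s', t'), ⟨a1, a2, P.not_mem (a3.trans (add_comm _ _)) a4 hA⟩, rfl⟩, by
        simp only [Xi]; linear_combination -a3⟩
    refine (measure_mono h3).trans ?_
    rw [vol_shift]
    refine (hG.1 _ (measurableSet_Icc.prod (measurableSet_Icc.diff (P.meas f)))).trans ?_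
    rw [Measure.volume_eq_prod, Measure.prod_prod, vIs, mul_comm]
    refine mul_le_mul_left (measure_mono_ae ?_) _
    filter_upwards [hae] with u hu hu2 using ⟨hu2.1, hu.resolve_right hu2.2⟩
  set N := (fun q => x + q) '' (Xi '' ((Is ∩ P.S f) ×ˢ (It ∩ P.S d)))
  have vN : ENNReal.ofReal (ε ^ 2 / (196 * L ^ 2)) ≤ volume N := by
    rw [vol_shift]
    refine le_trans ?_ (Hl _ ((measurableSet_Icc.inter (P.meas f)).prod
      (measurableSet_Icc.inter (P.meas d))) ?_)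
    · rw [Measure.volume_eq_prod, Measure.prod_prod]
      refine le_trans (le_of_eq ?_) (mul_le_mul_right (mul_le_mul' v1 v2) _)
      rw [← ENNReal.ofReal_mul (by positivity), ← ENNReal.ofReal_mul (by positivity)]
      congr 1; field_simp; ring
    · rintro ⟨s', t'⟩ ⟨⟨a1, -⟩, a2, -⟩
      exact ⟨⟨by linarith [a1.1], by linarith [a1.2]⟩, by linarith [a2.1], by linarith [a2.2]⟩
  have hN : ∀ y' ∈ N, y' ∈ ball y ((4 * L + 1) * ε) ∧ y' ∉ C.A d ∧ y' ∉ C.A f := by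
    rintro _ ⟨_, ⟨⟨s', t'⟩, ⟨⟨a1, b1⟩, a2, b2⟩, rfl⟩, rfl⟩
    simp only [Xi]
    have a3 : |s' - s| ≤ 2 * L * ε := by
      rw [abs_le]; constructor <;> linarith [a1.1, a1.2]
    have a4 : |t' - t| ≤ 2 * L * ε := by
      rw [abs_le]; constructor <;> linarith [a2.1, a2.2]
    have a5 : ‖x + (e s' + e t') - y‖ ≤ 4 * L * ε := by
      rw [show x + (e s' + e t') - y = (e s' - e s) + (e t' - e t) by linear_combination -hst]
      linarith [norm_add_le (e s' - e s) (e t' - e t), e_lip s' s, e_lip t' t]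
    have a6 : ‖x + (e s' + e t') - x - e (s₁ + Real.pi / 3)‖ < 1 := by
      have := norm_add_le (x + (e s' + e t') - y) (y - x - e (s₁ + Real.pi / 3))
      rw [show x + (e s' + e t') - y + (y - x - e (s₁ + Real.pi / 3)) =
        x + (e s' + e t') - x - e (s₁ + Real.pi / 3) by ring] at this
      nlinarith
    refine ⟨by rw [mem_ball, dist_eq_norm]; linarith, fun hA => ?_, fun hA => ?_⟩
    · exact P.not_mem (s := t') (t := s') (by ring) a6 hA b2
    · exact P.not_mem (s := s') (t := t') (by ring) a6 hA b1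
  by_contra hc
  push Not at hc
  have h3 : ∀ i, volume (C.A i ∩ N) ≤ ENNReal.ofReal (1 / (1000 * L ^ 2) * ε ^ 2) := by
    intro i
    by_cases hi : i = d ∨ i = f
    · rw [eq_empty_of_forall_notMem (s := C.A i ∩ N) fun y' hy1 => by
        rcases hi with rfl | rfl
        · exact (hN _ hy1.2).2.1 hy1.1
        · exact (hN _ hy1.2).2.2 hy1.1]
      simp
    · push Not at hi
      exact (measure_mono fun y' hy1 => And.intro hy1.1 (hN _ hy1.2).1).trans (hc i hi.1 hi.2).le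
  have h4 := vN.trans ((C.vol_le N).trans (Finset.sum_le_sum fun i _ => h3 i))
  rw [← ENNReal.ofReal_sum_of_nonneg (fun _ _ => by positivity),
    ENNReal.ofReal_le_ofReal_iff (Finset.sum_nonneg fun _ _ => by positivity)] at h4
  simp only [Finset.sum_const, Finset.card_univ, Fintype.card_fin, nsmul_eq_mul,
    Nat.cast_ofNat] at h4
  have h5 : ε ^ 2 / (196 * L ^ 2) = (1 / 196) * (ε ^ 2 / L ^ 2) := by field_simp
  have h6 : 5 * (1 / (1000 * L ^ 2) * ε ^ 2) = (1 / 200) * (ε ^ 2 / L ^ 2) := by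
    field_simp; ring
  have h7 : 0 < ε ^ 2 / L ^ 2 := by positivity
  linarith

end Crest.Agent.Lead.P3
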