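import Crest.Agent.Lead.P3B

/-! Row 40, piece P3: the two-colour labels case. -/

set_option autoImplicit false

namespace Crest.Agent.Lead.P3
open MeasureTheory Metric Set Filter Topology
open Crest.Agent.H2.Gm

lemma not_av {C : Col} {y : ℂ} {J : Finset (Fin 5)} (h : ¬ Av C y J) :
    ∀ᶠ η : ℝ in 𝓝[>] 0, ∀ u, dist u y < η → Full C u → ∃ j ∈ J, ENNReal.ofReal η ≤ circ (C.A j) u := by
  simp only [Av, not_forall, not_exists, not_and, not_lt] at h
  obtain ⟨η₀, h0, h⟩ := h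
  filter_upwards [Ioo_mem_nhdsGT h0] with η hη u hu hF
  obtain ⟨j, hj, h1⟩ := h u (hu.trans hη.2) hF
  exact ⟨j, hj, (ENNReal.ofReal_le_ofReal hη.2.le).trans h1⟩

/-- uniform version on a compact set -/
lemma unif_not_av {C : Col} {K : Set ℂ} (hK : IsCompact K) {ι : Type} [Finite ι]
    (J : ι → Finset (Fin 5)) (h : ∀ y ∈ K, ∀ p, ¬ Av C y (J p)) :
    ∃ η > 0, ∀ y ∈ K, ∀ p u, dist u y < η → Full C u →
      ∃ j ∈ J p, ENNReal.ofReal η ≤ circ (C.A j) u := by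
  have h1 : ∀ y ∈ K, ∃ η > 0, ∀ p u, dist u y < η → Full C u →
      ∃ j ∈ J p, ENNReal.ofReal η ≤ circ (C.A j) u := by
    intro y hy
    obtain ⟨η, h2, h3⟩ := ((eventually_all.2 fun p => not_av (h y hy p)).and
      self_mem_nhdsWithin).exists
    exact ⟨η, h3, h2⟩
  choose! η hη H using h1
  obtain ⟨t, ht, hc⟩ := hK.elim_nhds_subcover (fun y => ball y (η y / 2))
    fun y hy => ball_mem_nhds y (half_pos (hη y hy))
  have : ∀ᶠ δ : ℝ in 𝓝[>] 0, ∀ y ∈ t, δ ≤ η y / 2 :=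
    mem_nhdsWithin_of_mem_nhds ((eventually_all_finset t).2 fun y hy =>
      eventually_le_nhds (half_pos (hη y (ht y hy))))
  obtain ⟨δ, h2, h3⟩ := (this.and self_mem_nhdsWithin).exists
  have h3' : 0 < δ := h3
  refine ⟨δ, h3', fun y hy p u hu hF => ?_⟩
  obtain ⟨y₀, hy₀, hb⟩ := mem_iUnion₂.1 (hc hy)
  have h4 := h2 y₀ hy₀
  obtain ⟨j, hj, h5⟩ := H y₀ (ht _ hy₀) p u
    (by linarith [dist_triangle u y y₀, mem_ball.1 hb]) hF
  exact ⟨j, hj, (ENNReal.ofReal_le_ofReal (by linarith)).trans h5⟩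

lemma five_cases : ∀ i j m d f k : Fin 5, [i, j, m, d, f].Nodup →
    k = i ∨ k = j ∨ k = m ∨ k = d ∨ k = f := by
  intro i j m d f k n
  have hl : [i, j, m, d, f].toFinset = Finset.univ := by
    apply Finset.eq_univ_of_card
    rw [List.toFinset_card_of_nodup n]; rfl
  have : k ∈ [i, j, m, d, f].toFinset := hl ▸ Finset.mem_univ k
  simpa using this

/-- a point of the circle about `w` with prescribed label -/
lemma label_point (hB : BasicStmt) {C : Col} {i j m d f : Fin 5} (hn : [i, j, m, d, f].Nodup)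
    {w : ℂ} {a r : ℝ} (hr : 0 < r) (hr1 : r ≤ 1) (hw : w ∈ C.A i) (hF : Full C w)
    (hj : circ (C.A j) w < ENNReal.ofReal (r / 10))
    (hm : ∀ θ ∈ Icc (a - r) (a + r), w + e θ ∉ C.A m)
    (hf : volume {θ | θ ∈ Icc (a - r) (a + r) ∧ w + e θ ∈ C.A f} ≤ ENNReal.ofReal (r / 10))
    {N : Set ℂ} (hN : MeasurableSet N) (hNw : circ N w < ENNReal.ofReal (r / 10)) :
    ∃ θ ∈ Icc (a - r) (a + r), w + e θ ∈ C.A d ∧ w + e θ ∉ N := by
  by_contra hc
  push Not at hc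
  have win : ∀ S : Set ℂ, MeasurableSet S →
      volume {θ | θ ∈ Icc (a - r) (a + r) ∧ w + e θ ∈ S} ≤ circ S w := by
    intro S hS
    rw [← hB.2.2.2.2.1 S w (a - r) hS]
    exact measure_mono fun θ hθ =>
      ⟨⟨hθ.1.1, by linarith [hθ.1.2, Real.pi_gt_three]⟩, hθ.2⟩
  have h1 : volume (Icc (a - r) (a + r)) ≤
      volume (({θ | θ ∈ Icc (a - r) (a + r) ∧ w + e θ ∈ C.A j} ∪
        {θ | θ ∈ Icc (a - r) (a + r) ∧ w + e θ ∈ C.A f}) ∪
        {θ | θ ∈ Icc (a - r) (a + r) ∧ w + e θ ∈ N}) := by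
    refine measure_mono_ae ?_
    filter_upwards [hF] with θ ⟨k, hk⟩ hθ
    rcases five_cases i j m d f k hn with rfl | rfl | rfl | rfl | rfl
    · exact absurd (by simp [dist_eq_norm, norm_e]) (C.proper _ _ hk _ hw)
    · exact Or.inl (Or.inl ⟨hθ, hk⟩)
    · exact absurd hk (hm θ hθ)
    · exact Or.inr ⟨hθ, hc θ hθ hk⟩
    · exact Or.inl (Or.inr ⟨hθ, hk⟩)
  have h2 := h1.trans ((measure_union_le _ _).trans (add_le_add ((measure_union_le _ _).trans
    (add_le_add ((win _ (C.meas j)).trans hj.le) hf)) ((win _ hN).trans hNw.le)))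
  rw [Real.volume_Icc, ← ENNReal.ofReal_add (by positivity) (by positivity),
    ← ENNReal.ofReal_add (by positivity) (by positivity),
    ENNReal.ofReal_le_ofReal_iff (by positivity)] at h2
  linarith

lemma markov_circ (hB : BasicStmt) {N : Set ℂ} (hN : MeasurableSet N) {r γ : ℝ} (hr : 0 < r)
    (hγ : 0 < γ) (h : volume N ≤ ENNReal.ofReal (γ * r / 70)) :
    volume {w | ENNReal.ofReal (r / 10) ≤ circ N w} ≤ ENNReal.ofReal γ := by
  have h3 := meas_ge_le_lintegral_div (μ := volume) (hB.2.2.2.1 _ hN).aemeasurable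
    (ε := ENNReal.ofReal (r / 10)) (by simpa using hr) ENNReal.ofReal_ne_top
  rw [hB.2.2.2.2.2.1 _ hN] at h3
  refine h3.trans ((ENNReal.div_le_div_right (mul_le_mul_right h _) _).trans ?_)
  rw [← ENNReal.ofReal_mul (by positivity), ← ENNReal.ofReal_div_of_pos (by positivity)]
  refine ENNReal.ofReal_le_ofReal ?_
  rw [div_le_iff₀ (by positivity)]
  nlinarith [Real.pi_lt_d2, mul_pos hγ hr]

lemma key (hB : BasicStmt) (hG : GeoStmt) (hS : SimplexStmt) (hGood : GoodStmt) {C : Col} {x : ℂ}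
    (P : Lab C x) {i j m d f : Fin 5} (hn : [i, j, m, d, f].Nodup) (hH : Half C x i j) {s₁ : ℝ}
    (hae : ∀ᵐ s : ℝ, s ∈ P.S d ∨ s ∈ P.S f) (hd : Acc (P.S d) s₁) (hf : Acc (P.S f) s₁)
    (hm : x + e (s₁ + Real.pi / 3) ∉ closure (C.A m)) {η : ℝ} (hη : 0 < η) :
    (∃ u, dist u (x + e (s₁ + Real.pi / 3)) < η ∧ Full C u ∧
      ∀ k ∈ ({d, j} : Finset (Fin 5)), circ (C.A k) u < ENNReal.ofReal η) ∧
    (∃ u, dist u (x + e (s₁ + Real.pi / 3)) < η ∧ Full C u ∧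
      ∀ k ∈ ({f, j} : Finset (Fin 5)), circ (C.A k) u < ENNReal.ofReal η) := by
  have hdf : d ≠ f := by
    intro h; subst h; simp at hn
  have hn' : [i, j, m, f, d].Nodup := by
    refine (List.Perm.nodup_iff ?_).1 hn
    exact ((List.Perm.swap f d []).cons m |>.cons j |>.cons i)
  obtain ⟨R, hR, c, hc, hc5, ρ₀, hρ₀, H3⟩ := third hG P s₁ hae
  set z := x + e (s₁ + Real.pi / 3) with hz
  obtain ⟨ρm, hρm, Hm⟩ := Metric.isOpen_iff.1 isClosed_closure.isOpen_compl z hm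
  have hsx : ∀ p : {p : Fin 5 // p ≠ d ∧ p ≠ f}, ∀ᶠ ρ : ℝ in 𝓝[>] 0, ∀ y', y' ≠ z →
      dist y' z ≤ ρ → ¬ Av C y' {d, f, p.1} := by
    intro p
    obtain ⟨η', h1, h2⟩ := hS C z {d, f, p.1}
      (Finset.card_eq_three.2 ⟨d, f, p.1, hdf, p.2.1.symm, p.2.2.symm, rfl⟩)
    filter_upwards [Ioo_mem_nhdsGT h1] with ρ hρ y' h3 h4 using h2 y' h3 (h4.trans_lt hρ.2)
  obtain ⟨ρ, ⟨Hsx, hρ1⟩⟩ := ((eventually_all.2 hsx).and (Ioo_mem_nhdsGT
    (show 0 < min (min ρ₀ (ρm / 2)) (min (η / 2) (1 / 2)) by positivity))).exists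
  have hρ : 0 < ρ := hρ1.1
  obtain ⟨⟨hρa, hρb⟩, hρc, hρd⟩ : (ρ < ρ₀ ∧ ρ < ρm / 2) ∧ ρ < η / 2 ∧ ρ < 1 / 2 := by
    simpa only [lt_min_iff] using hρ1.2
  obtain ⟨α, hα1, hα⟩ := hf (ρ / 4) (by positivity)
  obtain ⟨β, hβ1, hβ⟩ := hd (ρ / 4) (by positivity)
  obtain ⟨r, ⟨Fα, Fβ⟩, hr1⟩ := (((few_colour hB hG P hα).and (few_colour hB hG P hβ)).and
    (Ioo_mem_nhdsGT (show 0 < ρ / 4 by positivity))).exists
  have hr : 0 < r := hr1.1
  have hr2 : r < ρ / 4 := hr1.2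
  -- the set of good centres
  set G : Set ℂ := {u | u ∈ C.A i ∧ dist u x < r / 10 ∧ circ (C.A j) u < ENNReal.ofReal (r / 10)}
  have hGm : MeasurableSet G := (C.meas i).inter (MeasurableSet.inter
    (measurableSet_ball (x := x) (ε := r / 10))
    (measurableSet_lt (hB.2.2.2.1 _ (C.meas j)) measurable_const))
  obtain ⟨τ, hτG, hτ0, hτ1⟩ : ∃ τ ∈ G, D0 Gᶜ τ ∧ τ ∉ sphere z 1 := by
    by_contra hcon
    refine hH (r / 10) (by positivity) (measure_eq_zero_iff_ae_notMem.2 ?_)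
    filter_upwards [ae_d0 hGm, measure_eq_zero_iff_ae_notMem.1
      (Measure.addHaar_sphere (volume : Measure ℂ) z 1)] with u h1 h2 hu
    exact hcon ⟨u, hu, h1 hu, h2⟩
  set r' := |dist τ z - 1| / 2 with hr'
  have hr'0 : 0 < r' := half_pos (abs_pos.2 (sub_ne_zero.2 fun h => hτ1 h))
  obtain ⟨δ, hδG, hδ1⟩ := (((tendsto_mul_pos (k := 2) two_pos).eventually
    (hτ0 (1 / 100) (by norm_num))).and (Ioo_mem_nhdsGT hr'0)).exists
  have hδ : 0 < δ := hδ1.1
  set K := closedBall z ρ \ ball z r'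
  obtain ⟨η₂, hη₂, HK⟩ := unif_not_av (C := C) (K := K) ((isCompact_closedBall z ρ).diff isOpen_ball)
    (fun p : {p : Fin 5 // p ≠ d ∧ p ≠ f} => {d, f, p.1}) fun y hy p =>
      Hsx p y (fun h => hy.2 (h ▸ mem_ball_self hr'0)) hy.1
  set κ := min η η₂ / 2
  have hκ : 0 < κ := by positivity
  have hR0 : 0 < R := by linarith
  have hseq : Tendsto (fun n : ℕ => 1 / ((n : ℝ) + 1)) atTop (𝓝[>] 0) :=
    tendsto_nhdsWithin_iff.2 ⟨tendsto_one_div_add_atTop_nhds_zero_nat,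
      Eventually.of_forall fun n => by simp only [mem_Ioi]; positivity⟩
  obtain ⟨n, ⟨⟨Hg, -⟩, hε1⟩, Nd, Nf⟩ := ((hseq.eventually ((hGood C R c κ (δ ^ 2 / 10) (‖z‖ + 3)
    (by linarith) hc hκ (by positivity)).and (Ioo_mem_nhdsGT
      (show 0 < min (min δ ρ) (min (η / 2 / R) (η₂ / R)) by positivity)))).and
    ((mislabel C d z (γ := δ ^ 2 / 10 * r / 70) (by positivity)).and
      (mislabel C f z (γ := δ ^ 2 / 10 * r / 70) (by positivity)))).exists
  set ε : ℝ := 1 / ((n : ℝ) + 1)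
  have hε : 0 < ε := hε1.1
  obtain ⟨⟨hεa, hεb⟩, hεc, hεd⟩ : (ε < δ ∧ ε < ρ) ∧ ε < η / 2 / R ∧ ε < η₂ / R := by
    simpa only [lt_min_iff] using hε1.2
  rw [lt_div_iff₀ hR0] at hεc hεd
  have hNm : ∀ k, MeasurableSet {y | y ∈ C.A k ∧ y ∈ ball z 1 ∧ ¬ Lb C ε y k} := fun k =>
    (C.meas k).inter (measurableSet_ball.inter (meas_Lb C _ k).compl)
  -- choice of the centre
  obtain ⟨w, hwδ, hwG, hwg, hwi, hwF, hwd, hwf⟩ : ∃ w, w ∈ ball τ δ ∧ w ∈ G ∧
      (∀ t, ‖w + e t‖ ≤ ‖z‖ + 3 → Good C R c κ ε (w + e t)) ∧ (∀ t, ¬ Lb C ε (w + e t) i) ∧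
      Full C w ∧ circ {y | y ∈ C.A d ∧ y ∈ ball z 1 ∧ ¬ Lb C ε y d} w < ENNReal.ofReal (r / 10) ∧
      circ {y | y ∈ C.A f ∧ y ∈ ball z 1 ∧ ¬ Lb C ε y f} w < ENNReal.ofReal (r / 10) := by
    by_contra hcon
    have b1 : volume (Gᶜ ∩ ball τ (2 * δ)) ≤ ENNReal.ofReal (δ ^ 2 / 25) :=
      hδG.trans (ENNReal.ofReal_le_ofReal (le_of_eq (by ring)))
    have b3 := (hB.2.2.2.2.2.2.2.2.2.2 (C.A i) τ δ ε (C.meas i) (C.proper i) hε hεa.le).trans
      (mul_le_mul_right ((measure_mono (t := Gᶜ ∩ ball τ (2 * δ))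
        fun y hy => ⟨fun h => hy.2 h.1, hy.1⟩).trans b1) 5)
    have b4 := markov_circ hB (hNm d) hr (by positivity) Nd
    have b5 := markov_circ hB (hNm f) hr (by positivity) Nf
    have h1 : volume (ball τ δ) ≤ volume ((((Gᶜ ∩ ball τ (2 * δ) ∪
        {w : ℂ | ∃ t, ‖w + e t‖ ≤ ‖z‖ + 3 ∧ ¬ Good C R c κ ε (w + e t)}) ∪
        {w | w ∈ ball τ δ ∧ ∃ t, ENNReal.ofReal (Real.pi / 5 * ε ^ 2) ≤
          volume (C.A i ∩ ball (w + e t) ε)}) ∪
        {w | ENNReal.ofReal (r / 10) ≤ circ {y | y ∈ C.A d ∧ y ∈ ball z 1 ∧ ¬ Lb C ε y d} w}) ∪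
        {w | ENNReal.ofReal (r / 10) ≤ circ {y | y ∈ C.A f ∧ y ∈ ball z 1 ∧ ¬ Lb C ε y f} w}) := by
      refine measure_mono_ae ?_
      filter_upwards [hB.2.2.1 C] with w hw hb
      change w ∈ (_ ∪ _ : Set ℂ)
      by_contra hcc
      simp only [mem_union, not_or, mem_setOf_eq, not_exists, not_and, not_not, not_le,
        mem_inter_iff, mem_compl_iff] at hcc
      obtain ⟨⟨⟨⟨c1, c2⟩, c3⟩, c4⟩, c5⟩ := hcc
      refine hcon ⟨w, hb, ?_, c2, fun t => not_le.2 (c3 hb t), hw, c4, c5⟩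
      by_contra hw'
      exact c1 hw' (ball_subset_ball (by linarith) hb)
    have h2 := h1.trans ((measure_union_le _ _).trans (add_le_add ((measure_union_le _ _).trans
      (add_le_add ((measure_union_le _ _).trans (add_le_add ((measure_union_le _ _).trans
        (add_le_add b1 Hg)) b3)) b4)) b5))
    rw [vol_ball _ hδ.le, show (5 : ENNReal) = ENNReal.ofReal 5 by simp,
      ← ENNReal.ofReal_mul (by norm_num), ← ENNReal.ofReal_add (by positivity) (by positivity),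
      ← ENNReal.ofReal_add (by positivity) (by positivity),
      ← ENNReal.ofReal_add (by positivity) (by positivity),
      ← ENNReal.ofReal_add (by positivity) (by positivity),
      ENNReal.ofReal_le_ofReal_iff (by positivity)] at h2
    nlinarith [Real.pi_gt_three, pow_pos hδ 2]
  have hwx : dist w x < r / 10 := hwG.2.1
  have near : ∀ θ, |θ - (s₁ + Real.pi / 3)| ≤ ρ / 2 → dist (w + e θ) z < ρ := by
    intro θ hθ
    rw [dist_eq_norm] at hwx ⊢
    rw [show w + e θ - z = (w - x) + (e θ - e (s₁ + Real.pi / 3)) by rw [hz]; ring]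
    linarith [norm_add_le (w - x) (e θ - e (s₁ + Real.pi / 3)), e_lip θ (s₁ + Real.pi / 3)]
  have inI : ∀ a θ, |a - s₁| < ρ / 4 → θ ∈ Icc (a + Real.pi / 3 - r) (a + Real.pi / 3 + r) →
      |θ - (s₁ + Real.pi / 3)| ≤ ρ / 2 := by
    intro a θ ha hθ
    rw [abs_lt] at ha
    rw [abs_le]; constructor <;> linarith [ha.1, ha.2, hθ.1, hθ.2]
  have notm : ∀ y, dist y z < ρm → y ∉ C.A m := fun y hy h => Hm hy (subset_closure h)
  obtain ⟨θd, hθd, hAd, hNd⟩ := label_point hB hn hr (by linarith) hwG.1 hwF hwG.2.2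
    (fun θ hθ => notm _ (by linarith [near θ (inI α θ hα1 hθ)]))
    (Fα w (by linarith)) (hNm d) hwd
  obtain ⟨θf, hθf, hAf, hNf⟩ := label_point hB hn' hr (by linarith) hwG.1 hwF hwG.2.2
    (fun θ hθ => notm _ (by linarith [near θ (inI β θ hβ1 hθ)]))
    (Fβ w (by linarith)) (hNm f) hwf
  have i1 := inI α θd hα1 hθd
  have i2 := inI β θf hβ1 hθf
  have Ld : Lb C ε (w + e θd) d := by
    by_contra h
    exact hNd ⟨hAd, by rw [mem_ball]; linarith [near _ i1], h⟩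
  have Lf : Lb C ε (w + e θf) f := by
    by_contra h
    exact hNf ⟨hAf, by rw [mem_ball]; linarith [near _ i2], h⟩
  have inZ : ∀ θ ∈ uIcc θd θf, |θ - (s₁ + Real.pi / 3)| ≤ ρ / 2 := by
    intro θ hθ
    rw [abs_le] at i1 i2 ⊢
    rcases mem_uIcc.1 hθ with h | h <;> constructor <;> linarith [h.1, h.2, i1.1, i1.2, i2.1, i2.2]
  have good : ∀ θ ∈ uIcc θd θf, Good C R c κ ε (w + e θ) := by
    intro θ hθ
    refine hwg θ ?_
    have h1 := near θ (inZ θ hθ)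
    rw [dist_eq_norm] at h1
    have := norm_add_le z (w + e θ - z)
    rw [add_sub_cancel] at this
    linarith
  have inK : ∀ θ ∈ uIcc θd θf, w + e θ ∈ K := by
    intro θ hθ
    refine ⟨(near θ (inZ θ hθ)).le, fun h => ?_⟩
    rw [mem_ball] at h hwδ
    have h1 : dist (w + e θ) w = 1 := by simp [dist_eq_norm, norm_e]
    have h2 := dist_triangle4 τ w (w + e θ) z
    have h3 := dist_triangle4 (w + e θ) z τ w
    have h4 : |dist τ z - 1| < 2 * r' := by
      rw [dist_comm τ w, dist_comm w (w + e θ)] at h2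
      rw [dist_comm z τ, dist_comm τ w] at h3
      rw [abs_lt]; constructor <;> linarith [hδ1.2]
    linarith
  have labs : ∀ θ ∈ uIcc θd θf, Lb C ε (w + e θ) d ∨ Lb C ε (w + e θ) f ∨ Lb C ε (w + e θ) j := by
    intro θ hθ
    obtain ⟨k, hk⟩ := hB.2.2.2.2.2.2.2.2.1 C ε (w + e θ) hε
    rcases five_cases i j m d f k hn with rfl | rfl | rfl | rfl | rfl
    · exact absurd hk (hwi θ)
    · exact Or.inr (Or.inr hk)
    · exfalso
      unfold Lb at hk
      rw [eq_empty_of_forall_notMem (s := C.A k ∩ ball (w + e θ) ε) fun y hy => notm y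
        (by linarith [dist_triangle y (w + e θ) z, mem_ball.1 hy.2, near θ (inZ θ hθ)]) hy.1,
        measure_empty, nonpos_iff_eq_zero, ENNReal.ofReal_eq_zero] at hk
      nlinarith [Real.pi_gt_three, pow_pos hε 2]
    · exact Or.inl hk
    · exact Or.inr (Or.inl hk)
  have big : ∀ (θ θ' : ℝ) (k : Fin 5), |θ - θ'| ≤ ε → Lb C ε (w + e θ') k →
      ENNReal.ofReal (Real.pi / 5 * ε ^ 2) ≤ volume (C.A k ∩ ball (w + e θ) (2 * ε)) := by
    intro θ θ' k h1 h2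
    refine le_trans h2 (measure_mono fun y hy => ⟨hy.1, ?_⟩)
    have h3 : dist (w + e θ') (w + e θ) ≤ ε := by
      rw [dist_eq_norm, add_sub_add_left_eq_sub]
      exact (e_lip _ _).trans (by rwa [abs_sub_comm])
    rw [mem_ball]
    linarith [dist_triangle y (w + e θ') (w + e θ), mem_ball.1 hy.2]
  have bigR : ∀ (y : ℂ) (k : Fin 5),
      ENNReal.ofReal (Real.pi / 5 * ε ^ 2) ≤ volume (C.A k ∩ ball y (2 * ε)) →
      ENNReal.ofReal (c * ε ^ 2) ≤ volume (C.A k ∩ ball y (R * ε)) := by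
    intro y k h
    refine (ENNReal.ofReal_le_ofReal (by gcongr)).trans (h.trans (measure_mono
      (inter_subset_inter_right _ (ball_subset_ball (by gcongr)))))
  have hε0 : ∀ θ : ℝ, |θ - θ| ≤ ε := fun θ => by simpa using hε.le
  have nodf : ∀ θ ∈ uIcc θd θf, ∀ θ₁ θ₂, |θ - θ₁| ≤ ε → |θ - θ₂| ≤ ε → Lb C ε (w + e θ₁) d →
      Lb C ε (w + e θ₂) f → False := by
    intro θ hθ θ₁ θ₂ h1 h2 l1 l2
    have b1 := big θ θ₁ d h1 l1
    have b2 := big θ θ₂ f h2 l2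
    obtain ⟨p, p1, p2, p3⟩ := H3 ε hε (by linarith) _ (by linarith [near θ (inZ θ hθ)]) b1 b2
    obtain ⟨u, u1, u2, u3⟩ := good_point hB C (η := η₂) (by linarith) hε hη₂ hκ.le
      (by simp only [κ]; linarith [min_le_right η η₂]) (good θ hθ) {d, f, p} (by
        intro k hk
        simp only [Finset.mem_insert, Finset.mem_singleton] at hk
        rcases hk with rfl | rfl | rfl
        · exact bigR _ _ b1
        · exact bigR _ _ b2
        · exact p3)
    obtain ⟨k, k1, k2⟩ := HK _ (inK θ hθ) ⟨p, p1, p2⟩ u (by linarith) u2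
    exact absurd (u3 k k1) (not_lt.2 k2)
  have fin : ∀ (k : Fin 5), ∀ θ ∈ uIcc θd θf, ∀ θ', |θ - θ'| ≤ ε → Lb C ε (w + e θ) k →
      Lb C ε (w + e θ') j → ∃ u, dist u z < η ∧ Full C u ∧
        ∀ k' ∈ ({k, j} : Finset (Fin 5)), circ (C.A k') u < ENNReal.ofReal η := by
    intro k θ hθ θ' h1 l1 l2
    obtain ⟨u, u1, u2, u3⟩ := good_point hB C (η := η) (by linarith) hε hη hκ.le
      (by simp only [κ]; linarith [min_le_left η η₂]) (good θ hθ) {k, j} (by
        intro k' hk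
        simp only [Finset.mem_insert, Finset.mem_singleton] at hk
        rcases hk with rfl | rfl
        · exact bigR _ _ (big θ θ _ (hε0 θ) l1)
        · exact bigR _ _ (big θ θ' _ h1 l2))
    exact ⟨u, by linarith [dist_triangle u (w + e θ) z, near θ (inZ θ hθ)], u2, u3⟩
  constructor
  · by_contra hcon
    refine nodf θf right_mem_uIcc θf θf (hε0 _) (hε0 _) (steps (a := θd)
      (Q := fun θ => Lb C ε (w + e θ) d) hε Ld fun s hs t ht hst l => ?_) Lf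
    rcases labs t ht with h | h | h
    · exact h
    · exact (nodf s hs s t (hε0 _) hst l h).elim
    · exact absurd (fin d s hs t hst l h) hcon
  · by_contra hcon
    refine nodf θd left_mem_uIcc θd θd (hε0 _) (hε0 _) Ld (steps (a := θf)
      (Q := fun θ => Lb C ε (w + e θ) f) hε Lf fun s hs t ht hst l => ?_)
    rw [uIcc_comm] at hs ht
    rcases labs t ht with h | h | h
    · exact (nodf s hs t s hst (hε0 _) h l).elim
    · exact h
    · exact absurd (fin f s hs t hst l h) hcon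

lemma alt_ae {C : Col} {x : ℂ} (P : Lab C x) {d f : Fin 5}
    (hae : ∀ᵐ s : ℝ, s ∈ P.S d ∨ s ∈ P.S f) :
    ∀ᵐ s : ℝ, s ∈ P.S f → s + Real.pi / 3 ∈ P.S d := by
  have h1 := (measurePreserving_add_right volume (Real.pi / 3)).quasiMeasurePreserving.ae hae
  filter_upwards [h1, P.L2 f] with s h2 h3 hs
  exact h2.resolve_right fun h => h3 ⟨hs, h⟩

lemma ne_zero_of_alt {C : Col} {x : ℂ} (P : Lab C x) {d f : Fin 5}
    (hae : ∀ᵐ s : ℝ, s ∈ P.S d ∨ s ∈ P.S f) : volume (P.S d) ≠ 0 := by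
  intro h
  have h0 := measure_eq_zero_iff_ae_notMem.1 h
  have h1 := (measurePreserving_add_right volume (Real.pi / 3)).quasiMeasurePreserving.ae h0
  have : ∀ᵐ s : ℝ, False := by
    filter_upwards [h0, h1, hae, alt_ae P hae] with s a1 a2 a3 a4
    exact a2 (a4 (a3.resolve_left a1))
  exact this.exists.elim fun _ h => h

lemma mem_closure_jump {C : Col} {x : ℂ} (P : Lab C x) {d f : Fin 5}
    (hae : ∀ᵐ s : ℝ, s ∈ P.S d ∨ s ∈ P.S f) {s₁ : ℝ} (hf : Acc (P.S f) s₁) :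
    x + e (s₁ + Real.pi / 3) ∈ closure (C.A d) := by
  rw [← closure_closure, Metric.mem_closure_iff]
  intro η hη
  obtain ⟨a, h1, h2⟩ := hf (η / 2) (half_pos hη)
  obtain ⟨s, hs, h3, h4⟩ := h2.exists_near (alt_ae P hae) (half_pos hη)
  refine ⟨_, P.L0 d _ (h3 hs), ?_⟩
  rw [dist_eq_norm, add_sub_add_left_eq_sub]
  refine (e_lip _ _).trans_lt ?_
  rw [abs_lt] at h1 h4 ⊢
  constructor <;> linarith [h1.1, h1.2, h4.1, h4.2]

lemma nodup_perm {l l' : List (Fin 5)} (h : l.Nodup) (hp : l.Perm l') : l'.Nodup := hp.nodup_iff.1 h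

theorem deStmt (hB : BasicStmt) (hG : GeoStmt) (hS : SimplexStmt) (hGood : GoodStmt)
    (h5 : FiveStmt) (h4 : C4Stmt) : DEStmt := by
  intro C x P a b c d f hn hab hbc hca hae
  have hae' : ∀ᵐ s : ℝ, s ∈ P.S f ∨ s ∈ P.S d := hae.mono fun _ h => h.symm
  obtain ⟨s₁, hd, hf⟩ := hB.2.2.2.2.2.2.2.2.2.1 _ _ (P.meas d) (P.meas f) hae
    (ne_zero_of_alt P hae) (ne_zero_of_alt P hae')
  have zd := mem_closure_jump P hae hf
  have zf := mem_closure_jump P hae' hd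
  obtain ⟨m, hm⟩ := not_forall.1 (h5 C (x + e (s₁ + Real.pi / 3)))
  have main : ∀ i j : Fin 5, [i, j, m, d, f].Nodup → Edge C x i j → False := by
    intro i j n hij
    have n' : [j, i, m, d, f].Nodup := nodup_perm n (List.Perm.swap _ _ _)
    have k1 := fun η hη => key hB hG hS hGood P n hij.2.1 hae hd hf hm (η := η) hη
    have k2 := fun η hη => key hB hG hS hGood P n' hij.2.2 hae hd hf hm (η := η) hη
    refine h4 C _ d j f i m ?_ hm (fun η hη => (k1 η hη).1) ?_ (fun η hη => (k2 η hη).2) ?_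
    · simp only [List.nodup_cons, List.mem_cons, List.not_mem_nil, or_false, not_or,
        List.nodup_nil, and_true, not_false_eq_true] at n ⊢
      obtain ⟨⟨n1, n2, n3, n4⟩, ⟨n5, n6, n7⟩, ⟨n8, n9⟩, n10⟩ := n
      exact ⟨⟨Ne.symm n6, n10, Ne.symm n3, Ne.symm n8⟩, ⟨n7, Ne.symm n1, n5⟩,
        ⟨Ne.symm n4, Ne.symm n9⟩, n2⟩
    · rw [Finset.pair_comm]; exact fun η hη => (k1 η hη).2
    · rw [Finset.pair_comm]; exact fun η hη => (k2 η hη).1
  rcases five_cases a b c d f m hn with rfl | rfl | rfl | rfl | rfl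
  · exact main b c (nodup_perm hn
      ((List.Perm.swap _ _ _).trans ((List.Perm.swap _ _ _).cons _))) hbc
  · exact main c a (nodup_perm hn
      (((List.Perm.swap _ _ _).cons _).trans (List.Perm.swap _ _ _))) hca
  · exact main a b hn hab
  · exact hm zd
  · exact hm zf

end Crest.Agent.Lead.P3
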