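import Crest.Agent.H8.TkSym
import Crest.Agent.H7.BCD
import Crest.Agent.H5.MuS
import Crest.Agent.H5.MuD
import Crest.Agent.H2.MuInj
import Crest.Agent.H4.MuW

/-! Row 186: from the core statement to the base change interface. -/

set_option autoImplicit false

noncomputable section
namespace Crest.Agent.Lead.Tk
open Crest.Agent.H6.Tk
open Crest.Agent.H7.BC (kk CoreStmt)

instance charP_kk : CharP kk 2 :=
  charP_of_injective_algebraMap (IsFractionRing.injective (MvPolynomial (Fin 3) (ZMod 2)) kk) 2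

/-- the parameter -/
def qq : kk := algebraMap (MvPolynomial (Fin 3) (ZMod 2)) kk (MvPolynomial.X 0)

theorem qq_ne : qq ≠ 0 := fun h => MvPolynomial.X_ne_zero (R := ZMod 2) (0 : Fin 3)
  (IsFractionRing.injective (MvPolynomial (Fin 3) (ZMod 2)) kk (h.trans (map_zero _).symm))

theorem qq_pow (n : ℕ) (hn : 0 < n) : qq ^ n ≠ 1 := fun h => by
  have h1 : (MvPolynomial.X 0 : MvPolynomial (Fin 3) (ZMod 2)) ^ n = 1 :=
    IsFractionRing.injective (MvPolynomial (Fin 3) (ZMod 2)) kk (by rw [map_pow, map_one]; exact h)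
  have h2 := congrArg (MvPolynomial.eval fun _ => (0 : ZMod 2)) h1
  simp [hn.ne'] at h2

theorem exists_four {A : Type} [Ring A] (I : Ideal A) (h : I ^ 4 ≠ ⊥) :
    ∃ a b c d : A, a ∈ I ∧ b ∈ I ∧ c ∈ I ∧ d ∈ I ∧ a * b * c * d ≠ 0 := by
  by_contra hh
  push Not at hh
  apply h
  rw [Submodule.pow_succ, Submodule.pow_succ, Submodule.pow_succ, Submodule.pow_one, eq_bot_iff,
    Ideal.mul_le]
  intro x hx d hd
  refine Submodule.smul_induction_on (p := fun x : A => x * d ∈ (⊥ : Ideal A)) hx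
    (fun y hy c hc => ?_) (fun a b ha hb => by rw [add_mul]; exact add_mem ha hb)
  refine Submodule.smul_induction_on (p := fun y : A => (y • c) * d ∈ (⊥ : Ideal A)) hy
    (fun a ha b hb => hh a b c d ha hb hc hd) (fun a b ha hb => ?_)
  rw [add_smul, add_mul]
  exact add_mem ha hb

theorem coreStmt_of (h : Core kk) : CoreStmt := by
  obtain ⟨A, _, _, fd, ⟨π, hs, ⟨N, hN⟩, h4⟩, sym, M, fin, np, ext⟩ :=
    Crest.Agent.H8.TkSym.symStmt kk h
  refine ⟨A, inferInstance, inferInstance, M, inferInstance, inferInstance, fd, sym, fin, np, ext,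
    π, hs, fun x hx => ⟨N, ?_⟩, exists_four _ h4⟩
  have : x ^ N ∈ RingHom.ker π ^ N := Ideal.pow_mem_pow hx N
  rwa [hN, Ideal.mem_bot] at this

end Crest.Agent.Lead.Tk
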