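import Crest.Agent.H6.TkI

/-! Row 186: the radical of the dual numbers over `C ⊗ C`. -/

set_option autoImplicit false

noncomputable section
namespace Crest.Agent.Lead.Tk
open Crest.Agent.H6.Tk TensorProduct

section
variable {k : Type} [Field k] {C : Type} [Ring C] [Algebra k C] (π : C →ₐ[k] (Fin 2 → k))

def π2 : C ⊗[k] C →ₐ[k] (Fin 4 → k) :=
  Algebra.TensorProduct.lift
    (Pi.algHom k _ fun p : Fin 4 => (Pi.evalAlgHom k (fun _ => k) (Fin.divNat (m := 2) (n := 2) p)).comp π)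
    (Pi.algHom k _ fun p : Fin 4 => (Pi.evalAlgHom k (fun _ => k) (Fin.modNat (m := 2) (n := 2) p)).comp π)
    fun _ _ => Commute.all _ _

theorem π2_tmul (a b : C) (p : Fin 4) :
    π2 π (a ⊗ₜ b) p = π a (Fin.divNat (m := 2) (n := 2) p) * π b (Fin.modNat (m := 2) (n := 2) p) := by
  simp [π2]

def TT (m : ℕ) : Submodule k (C ⊗[k] C) :=
  Submodule.span k {x | ∃ i j a b, i + j = m ∧ a ∈ RingHom.ker π ^ i ∧ b ∈ RingHom.ker π ^ j ∧
    x = a ⊗ₜ b}

theorem TT_mul {m n : ℕ} {x y : C ⊗[k] C} (hx : x ∈ TT π m) (hy : y ∈ TT π n) :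
    x * y ∈ TT π (m + n) := by
  induction hx using Submodule.span_induction with
  | zero => simp
  | add a b _ _ ha hb => rw [add_mul]; exact add_mem ha hb
  | smul c a _ ha => rw [smul_mul_assoc]; exact Submodule.smul_mem _ _ ha
  | mem x hx =>
    induction hy using Submodule.span_induction with
    | zero => simp
    | add a b _ _ ha hb => rw [mul_add]; exact add_mem ha hb
    | smul c a _ ha => rw [mul_smul_comm]; exact Submodule.smul_mem _ _ ha
    | mem y hy =>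
      obtain ⟨i, j, a, b, rfl, ha, hb, rfl⟩ := hx
      obtain ⟨i', j', a', b', rfl, ha', hb', rfl⟩ := hy
      refine Submodule.subset_span ⟨i + i', j + j', a * a', b * b', by ring, ?_, ?_, by simp⟩
      · rw [Ideal.IsTwoSided.pow_add]; exact Ideal.mul_mem_mul ha ha'
      · rw [Ideal.IsTwoSided.pow_add]; exact Ideal.mul_mem_mul hb hb'

theorem mem_pow0 (a : C) : a ∈ RingHom.ker π ^ 0 := by
  rw [Submodule.pow_zero, Ideal.one_eq_top]; trivial

theorem TT_zero (x : C ⊗[k] C) : x ∈ TT π 0 := by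
  induction x with
  | zero => simp
  | add a b ha hb => exact add_mem ha hb
  | tmul a b => exact Submodule.subset_span ⟨0, 0, a, b, rfl, mem_pow0 π a, mem_pow0 π b, rfl⟩

theorem TT_bot {N : ℕ} (h : RingHom.ker π ^ N = ⊥) {x : C ⊗[k] C} (hx : x ∈ TT π (N + N)) : x = 0 := by
  have : TT π (N + N) ≤ ⊥ := by
    refine Submodule.span_le.2 ?_
    rintro _ ⟨i, j, a, b, hij, ha, hb, rfl⟩
    rcases le_total N i with hi | hi
    · have := Ideal.pow_le_pow_right hi ha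
      rw [h, Ideal.mem_bot] at this
      simp [this]
    · have := Ideal.pow_le_pow_right (show N ≤ j by omega) hb
      rw [h, Ideal.mem_bot] at this
      simp [this]
  exact this hx

theorem TT_one (hs : Function.Surjective π) {x : C ⊗[k] C} (hx : π2 π x = 0) : x ∈ TT π 1 := by
  obtain ⟨e0, h0⟩ := hs (Pi.single 0 1)
  obtain ⟨e1, h1⟩ := hs (Pi.single 1 1)
  have key : ∀ x : C ⊗[k] C, x - (π2 π x 0 • e0 ⊗ₜ e0 + π2 π x 1 • e0 ⊗ₜ e1 + π2 π x 2 • e1 ⊗ₜ e0 +
      π2 π x 3 • e1 ⊗ₜ e1) ∈ TT π 1 := by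
    intro x
    induction x with
    | zero => simp
    | add a b ha hb =>
      convert add_mem ha hb using 1
      simp only [map_add, Pi.add_apply, add_smul]
      abel
    | tmul a b =>
      have hk : ∀ c : C, c - (π c 0 • e0 + π c 1 • e1) ∈ RingHom.ker π ^ 1 := fun c => by
        rw [Submodule.pow_one, RingHom.mem_ker]
        funext i
        fin_cases i <;> simp [h0, h1]
      have t1 : (a - (π a 0 • e0 + π a 1 • e1)) ⊗ₜ[k] b ∈ TT π 1 :=
        Submodule.subset_span ⟨1, 0, _, _, rfl, hk a, mem_pow0 π b, rfl⟩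
      have t2 : (π a 0 • e0 + π a 1 • e1) ⊗ₜ[k] (b - (π b 0 • e0 + π b 1 • e1)) ∈ TT π 1 :=
        Submodule.subset_span ⟨0, 1, _, _, rfl, mem_pow0 π _, hk b, rfl⟩
      convert add_mem t1 t2 using 1
      have a0 : π2 π (a ⊗ₜ b) 0 = π a 0 * π b 0 := π2_tmul π a b 0
      have a1 : π2 π (a ⊗ₜ b) 1 = π a 0 * π b 1 := π2_tmul π a b 1
      have a2 : π2 π (a ⊗ₜ b) 2 = π a 1 * π b 0 := π2_tmul π a b 2
      have a3 : π2 π (a ⊗ₜ b) 3 = π a 1 * π b 1 := π2_tmul π a b 3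
      rw [a0, a1, a2, a3]
      simp only [sub_tmul, tmul_sub, add_tmul, tmul_add, ← smul_tmul', tmul_smul, smul_smul]
      module
  simpa [hx] using key x

theorem π2_surj (hs : Function.Surjective π) : Function.Surjective (π2 π) := by
  obtain ⟨e0, h0⟩ := hs (Pi.single 0 1)
  obtain ⟨e1, h1⟩ := hs (Pi.single 1 1)
  intro v
  refine ⟨v 0 • e0 ⊗ₜ e0 + v 1 • e0 ⊗ₜ e1 + v 2 • e1 ⊗ₜ e0 + v 3 • e1 ⊗ₜ e1, funext fun p => ?_⟩
  simp only [map_add, map_smul, Pi.add_apply, Pi.smul_apply, π2_tmul, h0, h1]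
  fin_cases p <;> simp [Fin.divNat, Fin.modNat]

end

theorem fourStmt : FourStmt := by
  intro k _ C _ _ π hs ⟨N, hN⟩ ⟨x, y, hx, hy, hxy⟩
  let ρ : DualNumber (C ⊗[k] C) →ₐ[k] (Fin 4 → k) :=
    (π2 π).comp (TrivSqZeroExt.fstHom k (C ⊗[k] C) (C ⊗[k] C))
  have hρ : ∀ a, ρ a = π2 π a.fst := fun _ => rfl
  refine ⟨ρ, fun v => ?_, ⟨N + N + 1, ?_⟩, fun h0 => ?_⟩
  · obtain ⟨a, ha⟩ := π2_surj π hs v
    exact ⟨TrivSqZeroExt.inl a, ha⟩
  · have key : ∀ n, ∀ a ∈ RingHom.ker ρ ^ (n + 1), a.fst ∈ TT π (n + 1) ∧ a.snd ∈ TT π n := by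
      intro n
      induction n with
      | zero =>
        intro a ha
        rw [zero_add, Submodule.pow_one] at ha
        exact ⟨TT_one π hs ha, TT_zero π _⟩
      | succ n ih =>
        intro a ha
        rw [Submodule.pow_succ] at ha
        refine Submodule.smul_induction_on
          (p := fun a : DualNumber (C ⊗[k] C) => a.fst ∈ TT π (n + 1 + 1) ∧ a.snd ∈ TT π (n + 1))
          ha (fun r hr s hs' => ?_) (fun a b ha hb => ⟨add_mem ha.1 hb.1, add_mem ha.2 hb.2⟩)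
        have h1 := TT_one π hs hs'
        refine ⟨TT_mul π (ih r hr).1 h1, ?_⟩
        rw [smul_eq_mul, DualNumber.snd_mul]
        exact add_mem (TT_mul (n := 0) π (ih r hr).1 (TT_zero π _)) (TT_mul π (ih r hr).2 h1)
    rw [eq_bot_iff]
    intro a ha
    obtain ⟨h1, h2⟩ := key _ a ha
    have h3 : a.fst ∈ TT π (N + N) := by
      refine Submodule.span_mono ?_ h1
      rintro _ ⟨i, j, a, b, hij, ha, hb, rfl⟩
      rcases Nat.eq_zero_or_pos i with rfl | hi
      · exact ⟨0, j - 1, a, b, by omega, ha, Ideal.pow_le_pow_right (by omega) hb, rfl⟩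
      · exact ⟨i - 1, j, a, b, by omega, Ideal.pow_le_pow_right (by omega) ha, hb, rfl⟩
    exact TrivSqZeroExt.ext (TT_bot π hN h3) (TT_bot π hN h2)
  · have m1 : ∀ c : C, π c = 0 → (TrivSqZeroExt.inl (c ⊗ₜ 1) : DualNumber (C ⊗[k] C)) ∈
        RingHom.ker ρ := fun c hc => funext fun p => by
      rw [hρ, TrivSqZeroExt.fst_inl, π2_tmul, hc]; simp
    have m2 : ∀ c : C, π c = 0 → (TrivSqZeroExt.inl (1 ⊗ₜ c) : DualNumber (C ⊗[k] C)) ∈
        RingHom.ker ρ := fun c hc => funext fun p => by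
      rw [hρ, TrivSqZeroExt.fst_inl, π2_tmul, hc]; simp
    have : (TrivSqZeroExt.inl (x ⊗ₜ 1) * TrivSqZeroExt.inl (y ⊗ₜ 1) * TrivSqZeroExt.inl (1 ⊗ₜ x) *
        TrivSqZeroExt.inl (1 ⊗ₜ y) : DualNumber (C ⊗[k] C)) ∈ RingHom.ker ρ ^ 4 := by
      rw [Submodule.pow_succ, Submodule.pow_succ, Submodule.pow_succ, Submodule.pow_one]
      exact Ideal.mul_mem_mul (Ideal.mul_mem_mul (Ideal.mul_mem_mul (m1 x hx) (m1 y hy)) (m2 x hx))
        (m2 y hy)
    rw [h0, Ideal.mem_bot] at this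
    have h1 := congrArg TrivSqZeroExt.fst this
    simp only [TrivSqZeroExt.fst_mul, TrivSqZeroExt.fst_inl, Algebra.TensorProduct.tmul_mul_tmul,
      mul_one, one_mul, TrivSqZeroExt.fst_zero] at h1
    obtain ⟨φ, hφ⟩ : ∃ φ : Module.Dual k C, φ (x * y) ≠ 0 := by
      by_contra hh
      push Not at hh
      exact hxy ((Module.forall_dual_apply_eq_zero_iff k _).1 hh)
    have h2 := congrArg (TensorProduct.lift ((LinearMap.mul k k).compl₁₂ φ φ)) h1
    simp at h2
    exact hφ h2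

end Crest.Agent.Lead.Tk
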