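import Crest.Agent.Lead.TkEnd
import Crest.Agent.H6.TkH
import Crest.Agent.H1.TkC
import Crest.Agent.H3.TkTens
import Crest.Agent.Lead.TkF
import Crest.Agent.H4.TkP2
import Crest.Agent.H5.TkD
import Crest.Agent.Lead.TkK
import Crest.Agent.H2.TkGlue
import Crest.Agent.H8.TkOm
import Crest.Agent.H4.TkH
import Crest.Agent.H4.TkTr
import Crest.Agent.H8.TkHo
import Crest.Agent.H3.TkQR
import Crest.Agent.H7.TkTr
import Crest.Agent.H9.TkQB

/-! Row 186: the final assembly. -/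

set_option autoImplicit false

namespace Crest.Agent.Lead.Tk
open Crest.Agent.H6.Tk

theorem coreStmt_of_q (hQ : QStmt) : Crest.Agent.H7.BC.CoreStmt :=
  coreStmt_of (Crest.Agent.H6.Tk.A.core Crest.Agent.H1.TkC.cStmt Crest.Agent.H3.Tk.tensStmt fourStmt
    Crest.Agent.H4.TkP.pStmt (Crest.Agent.H5.Tk.twStmt kStmt) Crest.Agent.H2.Tk.glueStmt
    Crest.Agent.H8.TkOm.omStmt Crest.Agent.H4.TkTr.trStmt Crest.Agent.H8.TkHo.hoStmt
    Crest.Agent.H3.Tk.qrStmt hQ Crest.Agent.H7.BC.kk qq qq_ne qq_pow)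

theorem coreStmt : Crest.Agent.H7.BC.CoreStmt :=
  coreStmt_of_q (qStmt_of Crest.Agent.H4.TkH.hStmt Crest.Agent.H9.Tk.qbStmt Crest.Agent.H7.Tk.transStmt)

end Crest.Agent.Lead.Tk
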